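import Crest.Agent.R271.St.Sml

/-!
# Row 271, block St: points of subvarieties
-/

set_option autoImplicit false
set_option linter.unusedSectionVars false

open MeasureTheory Filter Topology Set
open scoped ENNReal

noncomputable section

namespace Crest.Agent.R271

variable {n : ℕ} {M : Type} [TopologicalSpace M] [T2Space M] [SecondCountableTopology M]
  [MeasurableSpace M] [BorelSpace M] {A : Type} [CommRing A] [IsDomain A] [Algebra ℂ A]
  {S : Setup n M A}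

theorem Setup.finiteType (S : Setup n M A) : Algebra.FiniteType ℂ A := by
  classical
  exact ⟨⟨Finset.univ.image S.w, by simpa using S.gen⟩⟩

theorem Setup.noeth (S : Setup n M A) : IsNoetherianRing A := by
  have := S.finiteType
  exact Algebra.FiniteType.isNoetherianRing ℂ A

theorem Setup.exists_pt (S : Setup n M A) (𝔪 : Ideal A) [𝔪.IsMaximal] :
    ∃ y, ∀ a, S.ev y a = 0 ↔ a ∈ 𝔪 := by
  have := S.finiteType
  let _ := Ideal.Quotient.field 𝔪
  have : Module.Finite ℂ (A ⧸ 𝔪) := finite_of_finite_type_of_isJacobsonRing ℂ (A ⧸ 𝔪)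
  let e := AlgEquiv.ofBijective (Algebra.ofId ℂ (A ⧸ 𝔪)) IsAlgClosed.algebraMap_bijective_of_isIntegral
  obtain ⟨y, hy⟩ := S.ev_bij.2 (e.symm.toAlgHom.comp (Ideal.Quotient.mkₐ ℂ 𝔪))
  exact ⟨y, fun a => by simp [hy, Ideal.Quotient.eq_zero_iff_mem]⟩

/-- Nullstellensatz (`A` is Jacobson, residue fields are `ℂ`, `ev_bij`) -/
theorem Setup.null (S : Setup n M A) {𝔭 : Ideal A} (h𝔭 : 𝔭.IsPrime) {a : A}
    (ha : ∀ y ∈ S.V 𝔭, S.ev y a = 0) : a ∈ 𝔭 := by
  have := S.finiteType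
  have : IsJacobsonRing A := isJacobsonRing_of_finiteType (A := ℂ)
  rw [← IsJacobsonRing.out this h𝔭.isRadical, Ideal.jacobson, Ideal.mem_sInf]
  rintro 𝔪 ⟨h1, h2⟩
  obtain ⟨y, hy⟩ := S.exists_pt 𝔪
  exact (hy a).1 (ha y fun b hb => (hy b).2 (h1 hb))

theorem Setup.null_radical (S : Setup n M A) {I : Ideal A} {a : A}
    (ha : ∀ y ∈ S.V I, S.ev y a = 0) : a ∈ I.radical := by
  rw [Ideal.radical_eq_sInf, Ideal.mem_sInf]
  rintro 𝔭 ⟨h1, h2⟩
  exact S.null h2 fun y hy => ha y fun b hb => hy b (h1 hb)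

theorem Setup.eq_of_ker (S : Setup n M A) {x y : M} (h : ∀ a, S.ev x a = 0 → S.ev y a = 0) :
    y = x := by
  refine S.ev_bij.1 (AlgHom.ext fun a => ?_)
  have := h (a - algebraMap ℂ A (S.ev x a)) (by simp)
  simpa [sub_eq_zero] using this

theorem Setup.cont_ev (S : Setup n M A) (a : A) : Continuous fun y => S.ev y a := by
  have ha : a ∈ Algebra.adjoin ℂ (range S.w) := S.gen ▸ Algebra.mem_top
  induction ha using Algebra.adjoin_induction with
  | mem a ha =>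
    obtain ⟨i, rfl⟩ := ha
    exact (continuous_apply i).comp S.emb.continuous
  | algebraMap c => simpa using continuous_const
  | add a b _ _ ha hb => simpa using ha.fun_add hb
  | mul a b _ _ ha hb => simpa using ha.fun_mul hb

theorem Setup.isClosed_V (S : Setup n M A) (I : Ideal A) : IsClosed (S.V I) := by
  simp only [Aff.V, ofPred_forall]
  exact isClosed_iInter fun a => isClosed_iInter fun _ => isClosed_eq (S.cont_ev a) continuous_const

/-- `StDens` for `A ⧸ 𝔭`, `emb` for the convergence -/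
theorem Cx.dens_pts (hc : Cx S) {𝔭 : Ideal A} (h𝔭 : 𝔭.IsPrime) {x : M} (hx : x ∈ S.V 𝔭) {h : A}
    (hh : h ∉ 𝔭) : ∃ y : ℕ → M, (∀ ν, y ν ∈ S.V 𝔭 ∧ S.ev (y ν) h ≠ 0) ∧ Tendsto y atTop (𝓝 x) := by
  have := S.finiteType
  obtain ⟨y, h1, h2⟩ := hc.al.dens (A ⧸ 𝔭) (Ideal.Quotient.liftₐ 𝔭 (S.ev x) hx)
    (Ideal.Quotient.mk 𝔭 h) (mt Ideal.Quotient.eq_zero_iff_mem.1 hh)
  choose y' hy' using fun ν => S.ev_bij.2 ((y ν).comp (Ideal.Quotient.mkₐ ℂ 𝔭))
  refine ⟨y', fun ν => ⟨fun a ha => ?_, ?_⟩, ?_⟩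
  · simp [hy', Ideal.Quotient.eq_zero_iff_mem.2 ha]
  · simpa [hy'] using h1 ν
  · rw [S.emb.isInducing.tendsto_nhds_iff, tendsto_pi_nhds]
    intro i
    simpa [hy', Function.comp_def] using h2 (Ideal.Quotient.mk 𝔭 (S.w i))

/-- `dens_pts` and `hc.lim` -/
theorem Cx.dens_rate (hc : Cx S) {𝔭 : Ideal A} (h𝔭 : 𝔭.IsPrime) {h : A} (hh : h ∉ 𝔭) {ι : Type}
    [Fintype ι] (f : ι → A) (a : ι → ℝ) {α : ℝ} (hα : 0 ≤ α)
    (H : ∀ y ∈ S.V 𝔭, S.ev y h ≠ 0 → S.Rate (fun i => S.sq (f i)) a y α) :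
    ∀ y ∈ S.V 𝔭, S.Rate (fun i => S.sq (f i)) a y α := by
  intro x hx
  obtain ⟨y, h1, h2⟩ := hc.dens_pts h𝔭 hx hh
  refine hc.lim ι (fun _ i => S.sq (f i)) (fun _ => a) y (fun _ => α) _ a x α
    (fun _ i => hc.lp.sq _) (fun _ => hα) ?_ (fun _ _ => tendsto_const_nhds)
    (fun _ => tendsto_const_nhds) h2 tendsto_const_nhds fun ν => H _ (h1 ν).1 (h1 ν).2
  have hcont : Continuous fun y => ∑ i, S.sq (f i) y := continuous_finsetSum _ fun i _ => hc.cont _
  refine ⟨_, hcont.continuousAt.eventually (gt_mem_nhds (lt_add_one _)), ∑ i, S.sq (f i) x + 1,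
    fun _ i y hy => le_trans ?_ (le_of_lt hy)⟩
  exact Finset.single_le_sum (fun j _ => S.sq_nonneg (f j) y) (Finset.mem_univ i)

end Crest.Agent.R271
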