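import Crest.Agent.R271.St.LinA
import Crest.Agent.R271.St.Pts

/-!
# Row 271, block St: witnesses and the log canonical inequality
-/

set_option autoImplicit false
set_option linter.unusedSectionVars false

open MeasureTheory Filter Topology Set
open scoped ENNReal

noncomputable section

namespace Crest.Agent.R271

variable {n : ℕ} {M : Type} [TopologicalSpace M] [T2Space M] [SecondCountableTopology M]
  [MeasurableSpace M] [BorelSpace M] {A : Type} [CommRing A] [IsDomain A] [Algebra ℂ A]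
  {S : Setup n M A}

namespace Shape
variable {sh : Shape S}

theorem sum_wt (lam : sh.J → ℝ) (μ : sh.I → ℝ) (a : sh.At → ℝ) :
    ∑ k, sh.wt lam μ k * a k =
      ∑ j, lam j / ((sh.st j).m * (sh.st j).N) * ∑ i, a (Sum.inl ⟨j, i⟩) +
        ∑ k, μ k * a (Sum.inr k) := by
  rw [Fintype.sum_sum_type, Fintype.sum_sigma]
  simp [wt, Finset.mul_sum]

theorem wt_nonneg {lam : sh.J → ℝ} {μ : sh.I → ℝ} (h : ∀ j, 0 ≤ lam j) (h' : ∀ k, 0 ≤ μ k) (k : sh.At) :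
    0 ≤ sh.wt lam μ k := by
  rcases k with q | k
  · exact div_nonneg (h _) (by positivity)
  · exact h' k

/-- multiply all exponents by `c` -/
def WD.smul (W : sh.WD) (c : ℝ) (hc : 0 ≤ c) : sh.WD where
  s := W.s
  bas := W.bas
  a := fun k => c * W.a k
  nonneg := fun k => mul_nonneg hc (W.nonneg k)
  τ := fun j => c * W.τ j
  le_τ := fun j i => mul_le_mul_of_nonneg_left (W.le_τ j i) hc

theorem WD.smul_sat (W : sh.WD) {c : ℝ} (hc : 0 ≤ c) (sm : A → ℝ → Prop) :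
    (W.smul c hc).Sat sm ↔ W.Sat fun f a => sm f (c * a) := by
  constructor
  · rintro ⟨h1, h2, h3⟩
    exact ⟨h1, h2, fun k q hq => by simpa [WD.smul, mul_div_assoc] using h3 k q hq⟩
  · rintro ⟨h1, h2, h3⟩
    exact ⟨h1, h2, fun k q hq => by simpa [WD.smul, mul_div_assoc] using h3 k q hq⟩

theorem WD.smul_val (W : sh.WD) {c : ℝ} (hc : 0 ≤ c) (w : sh.At → ℝ) :
    (W.smul c hc).val w = c * W.val w := by
  simp only [WD.val, WD.smul, Finset.mul_sum]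
  exact Finset.sum_congr rfl fun k _ => by ring

theorem WD.τ_nonneg (W : sh.WD) (j : sh.J) : 0 ≤ W.τ j :=
  (W.nonneg _).trans (W.le_τ j ⟨0, (sh.st j).N_pos⟩)

variable (sh) in
/-- index type of the conditions of `Sat` -/
abbrev AtomIx : Type :=
  (Σ j : sh.J, Fin (sh.st j).N) ⊕ (Σ j : sh.J, (sh.st j).gens) ⊕ (Σ k : sh.I, sh.fan k)

/-- the functions of the conditions of `Sat` -/
def atomFn (s : ∀ j, Fin (sh.st j).N → A) : sh.AtomIx → A :=
  Sum.elim (fun q => s q.1 q.2) (Sum.elim (fun q => q.2.1) fun q => q.2.1.1)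

/-- the exponents of the conditions of `Sat` -/
def atomEx (a : sh.At → ℝ) (τ : sh.J → ℝ) : sh.AtomIx → ℝ :=
  Sum.elim (fun q => a (Sum.inl q)) (Sum.elim (fun q => τ q.1) fun q => a (Sum.inr q.1) / q.2.1.2)

theorem WD.atom_sat_iff (W : sh.WD) (sm : A → ℝ → Prop) :
    W.Sat sm ↔ ∀ i, sm (atomFn W.s i) (atomEx W.a W.τ i) := by
  constructor
  · rintro ⟨h1, h2, h3⟩ (q | q | q)
    exacts [h1 q.1 q.2, h2 q.1 q.2.1 q.2.2, h3 q.1 q.2.1 q.2.2]
  · intro h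
    exact ⟨fun j i => h (Sum.inl ⟨j, i⟩), fun j g hg => h (Sum.inr (Sum.inl ⟨j, g, hg⟩)),
      fun k q hq => h (Sum.inr (Sum.inr ⟨k, q, hq⟩))⟩

theorem WD.atomEx_nonneg (W : sh.WD) (i : sh.AtomIx) : 0 ≤ atomEx W.a W.τ i := by
  rcases i with q | q | q
  exacts [W.nonneg _, W.τ_nonneg _, div_nonneg (W.nonneg _) (sh.fan_pos _ _ q.2.2).le]

theorem atomEx_add (a a' : sh.At → ℝ) (τ τ' : sh.J → ℝ) (i : sh.AtomIx) :
    atomEx (fun k => a k + a' k) (fun j => τ j + τ' j) i = atomEx a τ i + atomEx a' τ' i := by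
  rcases i with q | q | q
  exacts [rfl, rfl, add_div _ _ _]

/-- new bases, exponents permuted inside each stage -/
def WD.perm (W : sh.WD) (s : ∀ j, Fin (sh.st j).N → A) (hs : ∀ j, (sh.st j).IsBas (s j))
    (π : ∀ j, Equiv.Perm (Fin (sh.st j).N)) : sh.WD where
  s := s
  bas := hs
  a := Sum.elim (fun q => W.a (Sum.inl ⟨q.1, π q.1 q.2⟩)) fun k => W.a (Sum.inr k)
  nonneg := by rintro (q | k) <;> exact W.nonneg _
  τ := W.τ
  le_τ := fun j i => W.le_τ j _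

theorem WD.perm_sum (W : sh.WD) (s : ∀ j, Fin (sh.st j).N → A) (hs : ∀ j, (sh.st j).IsBas (s j))
    (π : ∀ j, Equiv.Perm (Fin (sh.st j).N)) (j : sh.J) :
    ∑ i, (W.perm s hs π).a (Sum.inl ⟨j, i⟩) = ∑ i, W.a (Sum.inl ⟨j, i⟩) :=
  Equiv.sum_comp (π j) fun i => W.a (Sum.inl ⟨j, i⟩)

/-- the finitely many conditions of `Sat` -/
theorem WD.pairs (W : sh.WD) : ∃ D : Finset (A × ℝ), (∀ q ∈ D, 0 ≤ q.2) ∧
    ∀ sm : A → ℝ → Prop, W.Sat sm ↔ ∀ q ∈ D, sm q.1 q.2 := by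
  classical
  refine ⟨Finset.univ.image fun i => (atomFn W.s i, atomEx W.a W.τ i), ?_, fun sm => ?_⟩
  · simp only [Finset.mem_image, Finset.mem_univ, true_and, forall_exists_index,
      forall_apply_eq_imp_iff]
    exact W.atomEx_nonneg
  · simp only [Finset.mem_image, Finset.mem_univ, true_and, forall_exists_index,
      forall_apply_eq_imp_iff]
    exact W.atom_sat_iff sm

end Shape

variable {sh : Shape S}

/-- `Stage.orth` at every stage, `Small.add`, `Small.sum`, `small_fan` -/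
theorem Cx.atom_small (hc : Cx S) (W : sh.WD) {P : ℝ → Set M} {y : M}
    (hW : W.Sat (S.sml P y)) : ∃ (c : sh.Cfg) (a : sh.At → ℝ), (∀ k, 0 ≤ a k) ∧
      (∀ lam μ, ∑ k, sh.wt lam μ k * a k = W.val (sh.wt lam μ)) ∧
      ∀ k, Small P y (sh.atom c k) (a k) := by
  choose u π h using fun j => (sh.st j).orth (W.bas j) fun i => W.a (Sum.inl ⟨j, i⟩)
  let W' := W.perm (fun j => (sh.st j).sec (u j)) (fun j => (sh.st j).sec_isBas (u j)) π
  refine ⟨u, W'.a, W'.nonneg, fun lam μ => ?_, ?_⟩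
  · rw [Shape.WD.val, Shape.sum_wt, Shape.sum_wt]
    simp only [W', Shape.WD.perm_sum]
    rfl
  · rintro (⟨j, i⟩ | k)
    · refine Small.add (h j _ (hc.ultra P y) (W.τ j) (hW.hτ j) (W.le_τ j) (hW.hs j) i) ?_
      exact Small.sum _ _ fun g hg => Small.mono (hW.hτ j g hg) (W.le_τ j _)
    · exact hc.small_fan (sh.fan_pos k) (hW.hf k)

theorem Cx.atom_rate (hc : Cx S) (W : sh.WD) {P : ℝ → Set M} {y : M} {α : ℝ} (hP : S.RateS P y α)
    (hW : W.Sat (S.sml P y)) : ∃ (c : sh.Cfg) (a : sh.At → ℝ), (∀ k, 0 ≤ a k) ∧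
      (∀ lam μ, ∑ k, sh.wt lam μ k * a k = W.val (sh.wt lam μ)) ∧ S.Rate (sh.atom c) a y α := by
  obtain ⟨c, a, h1, h2, h3⟩ := hc.atom_small W hW
  exact ⟨c, a, h1, h2, rate_of_small _ hP h3⟩

theorem Cx.atom_small_poly (hc : Cx S) (c : sh.Cfg) (a : sh.At → ℝ) (y : M) (k : sh.At) :
    Small (poly (sh.atom c) a) y (sh.atom c k) (a k) := by
  rcases lt_or_ge 0 (a k) with h | h
  · exact small_poly _ _ y k h
  · exact small_of_nonpos (hc.atom_lp sh c k).1.continuousAt h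

/-- `s = sec`, `τ j = max_i a ⟨j, i⟩` -/
theorem Cx.wd_of_cfg (hc : Cx S) (c : sh.Cfg) (a : sh.At → ℝ) (ha : ∀ k, 0 ≤ a k) (y : M) :
    ∃ W : sh.WD, W.a = a ∧ W.Sat (S.sml (poly (sh.atom c) a) y) := by
  have hne : ∀ j, Nonempty (Fin (sh.st j).N) := fun j => ⟨⟨0, (sh.st j).N_pos⟩⟩
  choose i₀ hi₀ using fun j => Finite.exists_max fun i : Fin (sh.st j).N => a (Sum.inl ⟨j, i⟩)
  have h0 : ∀ k x, 0 ≤ sh.atom c k x := fun k => hc.lp.nonneg _ (hc.atom_lp sh c k)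
  have hs := hc.atom_small_poly c a y
  refine ⟨⟨fun j => (sh.st j).sec (c j), fun j => (sh.st j).sec_isBas _, a, ha,
    fun j => a (Sum.inl ⟨j, i₀ j⟩), hi₀⟩, rfl, fun j i => ?_, fun j g hg => ?_, fun k q hq => ?_⟩
  · refine (hs (Sum.inl ⟨j, i⟩)).of_le (h0 _) ⟨1, Eventually.of_forall fun x => ?_⟩
    rw [one_mul]
    exact le_add_of_nonneg_right (Finset.sum_nonneg fun g _ => S.sq_nonneg g x)
  · refine (hs (Sum.inl ⟨j, i₀ j⟩)).of_le (h0 _) ⟨1, Eventually.of_forall fun x => ?_⟩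
    rw [one_mul]
    exact (Finset.single_le_sum (fun g _ => S.sq_nonneg g x) hg).trans
      (le_add_of_nonneg_left (S.sq_nonneg _ x))
  · exact hc.sml_of_fan hq (sh.fan_pos k q hq) (hs (Sum.inr k))

/-- `Small.prodW` and `sing_of_rate` with `β` close to one -/
theorem Cx.lc_le (hc : Cx S) {w a : sh.At → ℝ} {x : M} {α : ℝ} (hw : ∀ k, 0 ≤ w k) (h : sh.LC w x)
    {c : sh.Cfg} (hr : S.Rate (sh.atom c) a x α) : ∑ k, w k * a k ≤ α := by
  by_contra hlt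
  push Not at hlt
  have h1 : ∀ᶠ β in 𝓝 (1 : ℝ), α < β * ∑ k, w k * a k :=
    (continuous_id.mul continuous_const).continuousAt.eventually (lt_mem_nhds (by simpa using hlt))
  have h2 : ∀ᶠ β in 𝓝[<] (1 : ℝ), (α < β * ∑ k, w k * a k ∧ 0 < β) ∧ β < 1 :=
    ((h1.and (lt_mem_nhds zero_lt_one)).filter_mono nhdsWithin_le_nhds).and self_mem_nhdsWithin
  obtain ⟨β, ⟨hβ1, hβ0⟩, hβ2⟩ := h2.exists
  have hw' : ∀ k, 0 ≤ β * w k := fun k => mul_nonneg hβ0.le (hw k)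
  refine h c β hβ0.le hβ2 (sing_of_rate S.toDom hr (hc.prodW_lp (hc.atom_lp sh c) hw').1
    (Small.prodW _ _ a (fun k => hc.lp.nonneg _ (hc.atom_lp sh c k)) hw'
      (hc.atom_small_poly c a x)) ?_)
  simpa only [Finset.mul_sum, mul_assoc] using hβ1

theorem Cx.lc_wd (hc : Cx S) {lam : sh.J → ℝ} {μ : sh.I → ℝ} (hl : ∀ j, 0 ≤ lam j)
    (hμ : ∀ k, 0 ≤ μ k) {x : M} (h : sh.LC (sh.wt lam μ) x) (W : sh.WD) {P : ℝ → Set M} {α : ℝ}
    (hP : S.RateS P x α) (hW : W.Sat (S.sml P x)) : W.val (sh.wt lam μ) ≤ α := by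
  obtain ⟨c, a, -, h1, h2⟩ := hc.atom_rate W hP hW
  rw [← h1]
  exact hc.lc_le (Shape.wt_nonneg hl hμ) h h2

theorem Cx.qv_small (hc : Cx S) {𝔭 : Ideal A} {ν : A → ℝ≥0∞} (hν : QV S 𝔭 ν) {y : M}
    (hy : y ∈ S.V 𝔭) (D : Finset (A × ℝ)) (hD : ∀ q ∈ D, vle ν q.1 q.2) :
    ∃ P, S.RateS P y 1 ∧ ∀ q ∈ D, S.sml P y q.1 q.2 :=
  ⟨_, hν.rate y hy D (fun q => q.1.1) (fun q => q.1.2) fun q => hD q.1 q.2,
    fun q hq => hc.sml_poly (fun q : D => q.1.1) (fun q => q.1.2) y ⟨q, hq⟩⟩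

theorem Cx.lc_qv (hc : Cx S) {lam : sh.J → ℝ} {μ : sh.I → ℝ} (hl : ∀ j, 0 ≤ lam j)
    (hμ : ∀ k, 0 ≤ μ k) {x : M} (h : sh.LC (sh.wt lam μ) x) {𝔭 : Ideal A} {ν : A → ℝ≥0∞}
    (hν : QV S 𝔭 ν) (hx : x ∈ S.V 𝔭) (W : sh.WD) (hW : W.Sat (vle ν)) :
    W.val (sh.wt lam μ) ≤ 1 := by
  obtain ⟨D, -, hD⟩ := W.pairs
  obtain ⟨P, hP, hs⟩ := hc.qv_small hν hx D ((hD _).1 hW)
  exact hc.lc_wd hl hμ h W hP ((hD _).2 hs)

/-- `Stage.dbl` at every stage gives common bases `s j`; apply `hc.sum` to the family made of the `s j i`, the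
generators, the members of the fans and the pairs of `W₂`, with exponents `(a₁ ∘ π₁, τ₁, v₁ / e, 0)` and
`(a₂ ∘ π₂, τ₂, v₂ / e, q.2)` (`rate_of_small`); `P` is the polyhedron of the sum (`sml_poly`); `W.τ = τ₁ + τ₂`. -/
theorem Cx.wd_sum (hc : Cx S) (W₁ W₂ : sh.WD) {P₁ P₂ : ℝ → Set M} {x : M} {α₁ α₂ : ℝ} (h₁ : 0 ≤ α₁)
    (h₂ : 0 ≤ α₂) (hP₁ : S.RateS P₁ x α₁) (hP₂ : S.RateS P₂ x α₂) (hW₁ : W₁.Sat (S.sml P₁ x))
    (hW₂ : W₂.Sat (S.sml P₂ x)) :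
    ∃ (W : sh.WD) (P : ℝ → Set M), S.RateS P x (α₁ + α₂) ∧ W.Sat (S.sml P x) ∧ W₂.Sat (S.sml P x) ∧
      (∀ j, ∑ i, W.a (Sum.inl ⟨j, i⟩) =
        ∑ i, W₁.a (Sum.inl ⟨j, i⟩) + ∑ i, W₂.a (Sum.inl ⟨j, i⟩)) ∧
      ∀ k, W.a (Sum.inr k) = W₁.a (Sum.inr k) + W₂.a (Sum.inr k) := by
  choose s π₁ π₂ hs h using fun j => (sh.st j).dbl (W₁.bas j) (W₂.bas j)
    (fun i => W₁.a (Sum.inl ⟨j, i⟩)) fun i => W₂.a (Sum.inl ⟨j, i⟩)
  let V₁ := W₁.perm s hs π₁
  let V₂ := W₂.perm s hs π₂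
  have hV₁ : V₁.Sat (S.sml P₁ x) :=
    ⟨fun j => (h j _ (hc.ultra P₁ x) _ (hW₁.hτ j)).1 (W₁.le_τ j) (hW₁.hs j), hW₁.hτ, hW₁.hf⟩
  have hV₂ : V₂.Sat (S.sml P₂ x) :=
    ⟨fun j => (h j _ (hc.ultra P₂ x) _ (hW₂.hτ j)).2 (W₂.le_τ j) (hW₂.hs j), hW₂.hτ, hW₂.hf⟩
  let f : sh.AtomIx ⊕ sh.AtomIx → A := Sum.elim (Shape.atomFn s) (Shape.atomFn W₂.s)
  let a : sh.AtomIx ⊕ sh.AtomIx → ℝ := Sum.elim (Shape.atomEx V₁.a V₁.τ) fun _ => 0
  let b : sh.AtomIx ⊕ sh.AtomIx → ℝ := Sum.elim (Shape.atomEx V₂.a V₂.τ) (Shape.atomEx W₂.a W₂.τ)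
  have ha : S.Rate (fun i => S.sq (f i)) a x α₁ := by
    refine rate_of_small _ hP₁ ?_
    rintro (i | i)
    exacts [(V₁.atom_sat_iff _).1 hV₁ i, (hc.ultra P₁ x).nonpos _ le_rfl]
  have hb : S.Rate (fun i => S.sq (f i)) b x α₂ := by
    refine rate_of_small _ hP₂ ?_
    rintro (i | i)
    exacts [(V₂.atom_sat_iff _).1 hV₂ i, (W₂.atom_sat_iff _).1 hW₂ i]
  have hab := hc.sum _ (fun i => S.sq (f i)) a b x α₁ α₂ (fun i => hc.lp.sq _)
    (fun i => hc.lp.mod_sq _) (by rintro (i | i); exacts [V₁.atomEx_nonneg i, le_rfl])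
    (by rintro (i | i); exacts [V₂.atomEx_nonneg i, W₂.atomEx_nonneg i]) h₁ h₂ ha hb
  refine ⟨⟨s, hs, fun k => V₁.a k + V₂.a k, fun k => add_nonneg (V₁.nonneg k) (V₂.nonneg k),
    fun j => V₁.τ j + V₂.τ j, fun j i => add_le_add (V₁.le_τ j i) (V₂.le_τ j i)⟩,
    poly (fun i => S.sq (f i)) (a + b), hab, ?_, ?_, fun j => ?_, fun k => rfl⟩
  · rw [Shape.WD.atom_sat_iff]
    intro i
    have := hc.sml_poly f (a + b) x (Sum.inl i)
    simp only [Shape.atomEx_add]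
    exact this
  · rw [Shape.WD.atom_sat_iff]
    intro i
    have := hc.sml_poly f (a + b) x (Sum.inr i)
    simpa [a, b, f] using this
  · simp only [Finset.sum_add_distrib, V₁, V₂, Shape.WD.perm_sum]

/-- exchange one basis element of stage `j` for an element `f` with value at least `τ j` -/
theorem Shape.WD.exch (W : sh.WD) {sm : A → ℝ → Prop} (hW : W.Sat sm) (j : sh.J) {f : A}
    (hf : f ∈ S.F (sh.st j).m) (hf' : f ∉ (sh.st j).𝔭) (hs : sm f (W.τ j)) :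
    ∃ (W' : sh.WD) (i : Fin (sh.st j).N), W'.Sat sm ∧ ∀ w : sh.At → ℝ,
      W'.val w = W.val w + w (Sum.inl ⟨j, i⟩) * (W.τ j - W.a (Sum.inl ⟨j, i⟩)) := by
  classical
  obtain ⟨i, hi⟩ := (sh.st j).exch (W.bas j) hf hf'
  refine ⟨⟨Function.update W.s j (Function.update (W.s j) i f), fun j' => ?_,
    Function.update W.a (Sum.inl ⟨j, i⟩) (W.τ j), fun k => ?_, W.τ, fun j' i' => ?_⟩, i,
    ⟨fun j' i' => ?_, hW.hτ, fun k q hq => ?_⟩, fun w => ?_⟩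
  · rcases eq_or_ne j' j with rfl | h
    · rwa [Function.update_self]
    · rw [Function.update_of_ne h]; exact W.bas j'
  · rcases eq_or_ne k (Sum.inl ⟨j, i⟩) with rfl | h
    · rw [Function.update_self]; exact W.τ_nonneg j
    · rw [Function.update_of_ne h]; exact W.nonneg k
  · rcases eq_or_ne (Sum.inl ⟨j', i'⟩ : sh.At) (Sum.inl ⟨j, i⟩) with h | h
    · rw [h, Function.update_self]
      have : j' = j := congrArg Sigma.fst (Sum.inl_injective h)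
      rw [this]
    · rw [Function.update_of_ne h]; exact W.le_τ j' i'
  · dsimp only
    rcases eq_or_ne j' j with rfl | h
    · rw [Function.update_self]
      rcases eq_or_ne i' i with rfl | h'
      · rwa [Function.update_self, Function.update_self]
      · rw [Function.update_of_ne h', Function.update_of_ne (by simpa using h')]
        exact hW.hs j' i'
    · rw [Function.update_of_ne h, Function.update_of_ne fun e =>
        h (congrArg Sigma.fst (Sum.inl_injective e))]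
      exact hW.hs j' i'
  · dsimp only
    rw [Function.update_of_ne (by simp)]
    exact hW.hf k q hq
  · simp only [Shape.WD.val]
    rw [← Finset.add_sum_erase _ _ (Finset.mem_univ (Sum.inl ⟨j, i⟩ : sh.At)),
      ← Finset.add_sum_erase _ (fun k => w k * W.a k) (Finset.mem_univ (Sum.inl ⟨j, i⟩ : sh.At)),
      Function.update_self, Finset.sum_congr rfl fun k hk => by
        rw [Function.update_of_ne (Finset.ne_of_mem_erase hk)]]
    ring

end Crest.Agent.R271
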