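import Crest.Agent.R271.St.Pts

/-!
# Row 271, block St: choice of the levels; growth
-/

set_option autoImplicit false
set_option linter.unusedSectionVars false

open MeasureTheory Filter Topology Set
open scoped ENNReal

noncomputable section

namespace Crest.Agent.R271

variable {n : ℕ} {M : Type} [TopologicalSpace M] [T2Space M] [SecondCountableTopology M]
  [MeasurableSpace M] [BorelSpace M] {A : Type} [CommRing A] [IsDomain A] [Algebra ℂ A]
  {S : Setup n M A}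

/-- `S.filt.hf2`, `exh`, `mono` -/
theorem Setup.exists_stepOK (S : Setup n M A) {ε : ℝ} (hε : 0 < ε) (hε' : ε < 1) :
    ∃ k, S.StepOK ε k := by
  choose ez hez using fun i => S.filt.exh (S.z i)
  obtain ⟨j₀, hj₀⟩ := S.filt.hf2 (ε / 2) (by positivity)
  set e : ℕ := Finset.univ.sup ez with he
  obtain ⟨k₂, hk₂⟩ := exists_nat_ge (2 * (n * e) / ε)
  set k₁ : ℕ := j₀ + k₂ + 1 with hk₁
  refine ⟨k₁ + n * e, by omega, k₁, e, le_rfl, fun i =>
    S.filt.mono (Finset.le_sup (f := ez) (Finset.mem_univ i)) (hez i), fun 𝔭 h𝔭 hd => ?_⟩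
  have h1 := hj₀ k₁ (by omega) 𝔭 h𝔭
  have hκ := S.κ_pos
  rw [div_le_iff₀ (by positivity)] at h1
  have h2 : (k₂ : ℝ) ≤ k₁ := by exact_mod_cast (by omega : k₂ ≤ k₁)
  have h3 : 2 * ((n : ℝ) * e) ≤ ε * k₁ := by
    rw [div_le_iff₀ hε] at hk₂
    nlinarith
  have h4 : (0 : ℝ) ≤ (n : ℝ) * e := by positivity
  have h5 : (1 - ε) * S.κ * ((k₁ + n * e : ℕ) : ℝ) ≤ (1 - ε / 2) * (S.κ * k₁) := by
    have : (1 - ε) * ((k₁ + n * e : ℕ) : ℝ) ≤ (1 - ε / 2) * k₁ := by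
      push_cast
      nlinarith
    nlinarith
  have h6 : (0 : ℝ) ≤ 1 - ε / 2 := by linarith
  calc ((1 - ε) * S.κ * ((k₁ + n * e : ℕ) : ℝ)) ^ S.dm 𝔭
      ≤ ((1 - ε / 2) * (S.κ * k₁)) ^ S.dm 𝔭 :=
        pow_le_pow_left₀ (by have : 0 < 1 - ε := by linarith
                             positivity) h5 _
    _ = (1 - ε / 2) ^ S.dm 𝔭 * (S.κ * k₁) ^ S.dm 𝔭 := mul_pow _ _ _
    _ ≤ (1 - ε / 2) * (S.κ * k₁) ^ S.dm 𝔭 := by
        gcongr
        exact pow_le_of_le_one h6 (by linarith) hd.ne'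
    _ ≤ _ := by rw [mul_comm ((S.dm 𝔭).factorial : ℝ)]; exact h1

theorem tendsto_shift_div (a b : ℕ) :
    Tendsto (fun m : ℕ => ((m + a - b : ℕ) : ℝ) / m) atTop (𝓝 1) := by
  have h1 : Tendsto (fun m : ℕ => 1 + ((a : ℝ) - b) / m) atTop (𝓝 (1 + 0)) :=
    tendsto_const_nhds.add (tendsto_const_div_atTop_nhds_zero_nat _)
  rw [add_zero] at h1
  refine h1.congr' ?_
  filter_upwards [eventually_ge_atTop (b + 1)] with m hm
  have hm0 : (m : ℝ) ≠ 0 := by exact_mod_cast (by omega : m ≠ 0)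
  rw [Nat.cast_sub (by omega)]
  push_cast
  field_simp
  ring

/-- Stolz-Cesàro for powers -/
theorem tendsto_sum_div_pow {h : ℕ → ℝ} {d : ℕ} {e : ℝ}
    (H : Tendsto (fun j : ℕ => h j / (j : ℝ) ^ d) atTop (𝓝 e)) :
    Tendsto (fun m : ℕ => (∑ l ∈ Finset.range m, h l) / (m : ℝ) ^ (d + 1)) atTop
      (𝓝 (e / (d + 1))) := by
  let g : ℕ → ℝ := fun l => ((l + 1 : ℕ) : ℝ) ^ (d + 1) - (l : ℝ) ^ (d + 1)
  have hgpos : ∀ l, 0 < g l := fun l => sub_pos.2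
    (pow_lt_pow_left₀ (by push_cast; linarith) (by positivity) (by omega))
  have hgs : ∀ m, ∑ l ∈ Finset.range m, g l = (m : ℝ) ^ (d + 1) := fun m => by
    rw [Finset.sum_range_sub (fun l : ℕ => (l : ℝ) ^ (d + 1))]
    simp
  have hg : Tendsto (fun l : ℕ => g l / (l : ℝ) ^ d) atTop (𝓝 (d + 1)) := by
    have h1 : Tendsto (fun l : ℕ => ∑ i ∈ Finset.range (d + 1), (((l + 1 - 0 : ℕ) : ℝ) / l) ^ i) atTop
        (𝓝 (∑ i ∈ Finset.range (d + 1), (1 : ℝ) ^ i)) :=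
      tendsto_finsetSum _ fun i _ => (tendsto_shift_div 1 0).pow i
    simp only [one_pow, Finset.sum_const, Finset.card_range, nsmul_eq_mul, mul_one,
      Nat.sub_zero] at h1
    push_cast at h1
    refine h1.congr' ?_
    filter_upwards [eventually_ge_atTop 1] with l hl
    have hl0 : (l : ℝ) ≠ 0 := by exact_mod_cast (by omega : l ≠ 0)
    have h2 := geom_sum₂_mul ((l : ℝ) + 1) l (d + 1)
    rw [add_sub_cancel_left, mul_one] at h2
    simp only [g]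
    push_cast
    rw [← h2, Finset.sum_div]
    refine Finset.sum_congr rfl fun i hi => ?_
    have hi' : i ≤ d := Nat.lt_succ_iff.1 (Finset.mem_range.1 hi)
    obtain ⟨r, rfl⟩ := Nat.exists_eq_add_of_le hi'
    rw [show i + r + 1 - 1 - i = r by omega, div_pow, pow_add]
    field_simp
  have hd : ((d : ℝ) + 1) ≠ 0 := by positivity
  have ho : (fun l => h l - e / (d + 1) * g l) =o[atTop] g := by
    rw [Asymptotics.isLittleO_iff_tendsto (fun l hl => absurd hl (hgpos l).ne')]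
    have h1 := (H.div hg hd).sub_const (e / (d + 1))
    rw [sub_self] at h1
    refine h1.congr' ?_
    filter_upwards [eventually_ge_atTop 1] with l hl
    have hl0 : (l : ℝ) ≠ 0 := by exact_mod_cast (by omega : l ≠ 0)
    have := (hgpos l).ne'
    simp only [Pi.div_apply]
    field_simp
  have hs := ho.sum_range (fun l => (hgpos l).le) (by
    simp only [hgs]
    exact (tendsto_pow_atTop (by omega)).comp tendsto_natCast_atTop_atTop)
  have h2 := hs.tendsto_div_nhds_zero.add_const (e / (d + 1))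
  rw [zero_add] at h2
  refine h2.congr' ?_
  filter_upwards [eventually_ge_atTop 1] with m hm
  have hm0 : (m : ℝ) ≠ 0 := by exact_mod_cast (by omega : m ≠ 0)
  rw [Finset.sum_sub_distrib, ← Finset.mul_sum, hgs]
  field_simp
  ring

/-- `S.filt.hf1`: `h m ~ e m^d`, `∑_{l ≤ m - k} h l ~ e m^(d+1) / (d+1)` -/
theorem Setup.big_eventually (S : Setup n M A) {ε : ℝ} (hε : 0 < ε) (hε' : ε < 1) (k : ℕ)
    {𝔭 : Ideal A} (h𝔭 : 𝔭.IsPrime) : ∀ᶠ m in atTop, S.Big ε k 𝔭 m := by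
  obtain ⟨e, he, H⟩ := S.filt.hf1 𝔭 h𝔭
  simp only [Setup.Big]
  generalize S.dm 𝔭 = d at H ⊢
  obtain ⟨h, hh⟩ : ∃ h : ℕ → ℝ, ∀ j, (hf S.F 𝔭 j : ℝ) = h j := ⟨_, fun _ => rfl⟩
  simp only [hh] at H ⊢
  have hκ := S.κ_pos
  have hsh : Tendsto (fun m : ℕ => m + 1 - k) atTop atTop :=
    tendsto_atTop.2 fun b => by
      filter_upwards [eventually_ge_atTop (b + k)] with m hm
      omega
  have h1 := ((tendsto_sum_div_pow H).comp hsh).mul ((tendsto_shift_div 1 k).pow (d + 1))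
  have h2 : Tendsto (fun m : ℕ => (∑ l ∈ Finset.range (m + 1 - k), h l) / (m : ℝ) ^ (d + 1)) atTop
      (𝓝 (e / (d + 1))) := by
    rw [one_pow, mul_one] at h1
    refine h1.congr' ?_
    filter_upwards [eventually_ge_atTop (k + 1)] with m hm
    have hm0 : (m : ℝ) ≠ 0 := by exact_mod_cast (by omega : m ≠ 0)
    have hm1 : ((m + 1 - k : ℕ) : ℝ) ≠ 0 := by exact_mod_cast (by omega : m + 1 - k ≠ 0)
    simp only [Function.comp_apply, div_pow]
    field_simp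
  have h3 := H.mul (tendsto_const_div_atTop_nhds_zero_nat (1 : ℝ))
  have hL := (H.const_mul ((1 - 2 * ε) * S.κ)).div_const ((d : ℝ) + 1)
  have hR := (h2.const_mul ((1 - ε) * S.κ)).sub h3
  have hlt : (1 - 2 * ε) * S.κ * e / (d + 1) < (1 - ε) * S.κ * (e / (d + 1)) - e * 0 := by
    rw [mul_zero, sub_zero, ← mul_div_assoc]
    have : 0 < ε * S.κ * e := by positivity
    exact div_lt_div_of_pos_right (by nlinarith) (by positivity)
  filter_upwards [hL.eventually_lt hR hlt, eventually_ge_atTop 1] with m hm hm1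
  have hm0 : (0 : ℝ) < m := by exact_mod_cast hm1
  have hp : (0 : ℝ) < (m : ℝ) ^ (d + 1) := by positivity
  have h4 := mul_le_mul_of_nonneg_right hm.le hp.le
  refine le_of_eq_of_le ?_ (h4.trans_eq ?_)
  · rw [pow_succ]; field_simp
  · rw [pow_succ]; field_simp

theorem Setup.exists_stage (S : Setup n M A) {𝔭 : Ideal A} (h𝔭 : 𝔭.IsPrime) :
    ∀ᶠ m in atTop, ∃ σ : Stage S, σ.𝔭 = 𝔭 ∧ σ.m = m ∧ (𝔭 = ⊥ → σ.gens = ∅) := by
  classical
  haveI := S.noeth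
  obtain ⟨gens, hg1, hg2⟩ : ∃ gens : Finset A, Ideal.span (gens : Set A) = 𝔭 ∧ (𝔭 = ⊥ → gens = ∅) := by
    by_cases h : 𝔭 = ⊥
    · exact ⟨∅, by simp [h], fun _ => rfl⟩
    · obtain ⟨s, hs⟩ := (IsNoetherian.noetherian 𝔭 : 𝔭.FG)
      exact ⟨s, hs, fun h' => absurd h' h⟩
  choose dg hdg using S.filt.exh
  filter_upwards [eventually_ge_atTop (gens.sup dg + 1)] with m hm
  haveI := S.filt.fd m
  set W := (S.F m).map (Ideal.Quotient.mkₐ ℂ 𝔭).toLinearMap with hW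
  haveI : FiniteDimensional ℂ W := Module.Finite.map _ _
  let β := Module.finBasis ℂ W
  have hb : ∀ i, ∃ a ∈ S.F m, Ideal.Quotient.mkₐ ℂ 𝔭 a = (β i : A ⧸ 𝔭) := fun i => (β i).2
  choose b hb1 hb2 using hb
  have hN : 0 < Module.finrank ℂ W := by
    rw [Module.finrank_pos_iff_exists_ne_zero]
    refine ⟨⟨Ideal.Quotient.mkₐ ℂ 𝔭 1, 1, S.filt.mono (Nat.zero_le m) S.filt.one_mem, rfl⟩,
      fun h => ?_⟩
    have h1 : Ideal.Quotient.mk 𝔭 1 = 0 := congrArg Subtype.val h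
    exact h𝔭.ne_top ((Ideal.eq_top_iff_one _).2 (Ideal.Quotient.eq_zero_iff_mem.1 h1))
  refine ⟨⟨𝔭, h𝔭, m, by omega, Module.finrank ℂ W, hN, rfl, b, hb1, ?_, gens, hg1, fun g hg => ?_⟩,
    rfl, rfl, hg2⟩
  · simp only [hb2]
    exact β.linearIndependent.map' W.subtype W.ker_subtype
  · exact S.filt.mono ((Finset.le_sup (f := dg) hg).trans (by omega)) (hdg g)

theorem Setup.dm_le (S : Setup n M A) {𝔭 : Ideal A} (h𝔭 : 𝔭.IsPrime) : S.dm 𝔭 ≤ n := by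
  by_cases h : 𝔭 = ⊥
  · rw [h, S.filt.dm_bot]
  · exact (S.filt.dm_lt ⊥ 𝔭 Ideal.isPrime_bot h𝔭 (bot_lt_iff_ne_bot.2 h)).le.trans_eq S.filt.dm_bot

/-- `1 ∈ F 1` -/
theorem Setup.G_lb (S : Setup n M A) : ∃ c : ℝ, 0 < c ∧ ∀ y, c ≤ S.G y := by
  obtain ⟨C, hC⟩ := S.bound 1 1 (S.filt.mono (Nat.zero_le 1) S.filt.one_mem)
  have h1 : 0 < max C 1 := lt_max_of_lt_right one_pos
  refine ⟨(max C 1)⁻¹, inv_pos.2 h1, fun y => ?_⟩
  have h2 := hC y
  simp only [Aff.sq, map_one, norm_one, one_pow, pow_one] at h2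
  rw [inv_le_iff_one_le_mul₀' h1]
  exact h2.trans (mul_le_mul_of_nonneg_right (le_max_left _ _) (S.G_pos y).le)

theorem Setup.Gr.exists_nonneg {g : M → ℝ} {t : ℝ} (h : S.Gr g t) :
    ∃ C : ℝ, 0 ≤ C ∧ ∀ y, g y ≤ C * S.G y ^ t := by
  obtain ⟨C, hC⟩ := h
  exact ⟨max C 0, le_max_right _ _, fun y => (hC y).trans
    (mul_le_mul_of_nonneg_right (le_max_left _ _) (Real.rpow_nonneg (S.G_pos y).le _))⟩

theorem Setup.Gr.mono {g : M → ℝ} {s t : ℝ} (h : S.Gr g s) (hst : s ≤ t) : S.Gr g t := by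
  obtain ⟨C, hC0, hC⟩ := h.exists_nonneg
  obtain ⟨c, hc, hG⟩ := S.G_lb
  refine ⟨C * c ^ (s - t), fun y => (hC y).trans ?_⟩
  have hy := S.G_pos y
  have h1 : S.G y ^ s = S.G y ^ (s - t) * S.G y ^ t := by
    rw [← Real.rpow_add hy, sub_add_cancel]
  rw [h1, mul_assoc]
  refine mul_le_mul_of_nonneg_left (mul_le_mul_of_nonneg_right ?_ (Real.rpow_nonneg hy.le _)) hC0
  exact Real.rpow_le_rpow_of_nonpos hc (hG y) (by linarith)

theorem Setup.Gr.add {g g' : M → ℝ} {t : ℝ} (h : S.Gr g t) (h' : S.Gr g' t) :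
    S.Gr (fun y => g y + g' y) t := by
  obtain ⟨C, hC⟩ := h
  obtain ⟨C', hC'⟩ := h'
  exact ⟨C + C', fun y => by rw [add_mul]; exact add_le_add (hC y) (hC' y)⟩

theorem Setup.Gr.mul {g g' : M → ℝ} {s t : ℝ} (h : S.Gr g s) (h' : S.Gr g' t) (h0 : ∀ y, 0 ≤ g y)
    (h0' : ∀ y, 0 ≤ g' y) : S.Gr (fun y => g y * g' y) (s + t) := by
  obtain ⟨C, hC⟩ := h
  obtain ⟨C', hC'⟩ := h'
  refine ⟨C * C', fun y => ?_⟩
  rw [Real.rpow_add (S.G_pos y), mul_mul_mul_comm]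
  exact mul_le_mul (hC y) (hC' y) (h0' y) ((h0 y).trans (hC y))

theorem Setup.Gr.rpow {g : M → ℝ} {t e : ℝ} (h : S.Gr g t) (h0 : ∀ y, 0 ≤ g y) (he : 0 ≤ e) :
    S.Gr (fun y => g y ^ e) (e * t) := by
  obtain ⟨C, hC0, hC⟩ := h.exists_nonneg
  refine ⟨C ^ e, fun y => ?_⟩
  have hy := (S.G_pos y).le
  rw [mul_comm e t, Real.rpow_mul hy, ← Real.mul_rpow hC0 (Real.rpow_nonneg hy _)]
  exact Real.rpow_le_rpow (h0 y) (hC y) he

theorem Setup.gr_sq (S : Setup n M A) {a : A} {j : ℕ} (ha : a ∈ S.F j) : S.Gr (S.sq a) j := by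
  obtain ⟨C, hC⟩ := S.bound j a ha
  exact ⟨C, fun y => by rw [Real.rpow_natCast]; exact hC y⟩

theorem Setup.gr_sum (S : Setup n M A) {K : Type} (s : Finset K) (h : K → M → ℝ) {t : ℝ}
    (ht : ∀ k ∈ s, S.Gr (h k) t) : S.Gr (fun y => ∑ k ∈ s, h k y) t := by
  classical
  induction s using Finset.induction_on with
  | empty => exact ⟨0, fun y => by simp⟩
  | insert a s ha ih =>
    simp only [Finset.sum_insert ha]
    exact (ht a (Finset.mem_insert_self _ _)).add (ih fun k hk => ht k (Finset.mem_insert_of_mem hk))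

theorem Setup.gr_prod (S : Setup n M A) {K : Type} (s : Finset K) (h : K → M → ℝ) (t : K → ℝ)
    (h0 : ∀ k y, 0 ≤ h k y) (ht : ∀ k, S.Gr (h k) (t k)) :
    S.Gr (fun y => ∏ k ∈ s, h k y) (∑ k ∈ s, t k) := by
  classical
  induction s using Finset.induction_on with
  | empty => exact ⟨1, fun y => by simp⟩
  | insert a s ha ih =>
    simp only [Finset.prod_insert ha, Finset.sum_insert ha]
    exact (ht a).mul ih (h0 a) fun y => Finset.prod_nonneg fun k _ => h0 k y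

theorem Setup.gr_prodW (S : Setup n M A) {K : Type} [Fintype K] (h : K → M → ℝ) (w t : K → ℝ)
    (h0 : ∀ k y, 0 ≤ h k y) (hw : ∀ k, 0 ≤ w k) (ht : ∀ k, S.Gr (h k) (t k)) :
    S.Gr (prodW h w) (∑ k, w k * t k) := by
  exact S.gr_prod Finset.univ (fun k y => h k y ^ w k) (fun k => w k * t k)
    (fun k y => Real.rpow_nonneg (h0 k y) _) fun k => (ht k).rpow (h0 k) (hw k)

theorem Setup.gr_fan (S : Setup n M A) {Φ : Finset (A × ℝ)} (hΦ : ∀ q ∈ Φ, 0 < q.2) :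
    ∃ t : ℝ, 0 ≤ t ∧ S.Gr (S.fanF Φ) t := by
  choose dg hdg using S.filt.exh
  have h0 : ∀ q ∈ Φ, 0 ≤ q.2 * (dg q.1 : ℝ) := fun q hq => mul_nonneg (hΦ q hq).le (by positivity)
  refine ⟨∑ q ∈ Φ, q.2 * dg q.1, Finset.sum_nonneg h0, ?_⟩
  refine S.gr_sum Φ (fun q y => S.sq q.1 y ^ q.2) fun q hq => ?_
  exact ((S.gr_sq (hdg q.1)).rpow (S.sq_nonneg _) (hΦ q hq).le).mono (Finset.single_le_sum h0 hq)

theorem Stage.gr_atom (σ : Stage S) (u : σ.Fr) (i : Fin σ.N) : S.Gr (σ.atom u i) σ.m := by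
  refine (S.gr_sq (j := σ.m) ?_).add (S.gr_sum σ.gens (fun g => S.sq g) fun g hg =>
    S.gr_sq (σ.gens_mem g hg))
  exact Submodule.sum_mem _ fun k _ => Submodule.smul_mem _ _ (σ.b_mem k)

end Crest.Agent.R271
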