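import Crest.Agent.R271.St.Sml

/-!
# Row 271, block St: from a singular product to a polyhedron
-/

set_option autoImplicit false
set_option linter.unusedSectionVars false

open MeasureTheory Filter Topology Set
open scoped ENNReal

noncomputable section

namespace Crest.Agent.R271

variable {n : ℕ} {M : Type} [TopologicalSpace M] [T2Space M] [SecondCountableTopology M]
  [MeasurableSpace M] [BorelSpace M] {A : Type} [CommRing A] [IsDomain A] [Algebra ℂ A]
  {S : Setup n M A}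

theorem cells_min (D : Dom n M) (s : Finset (M → ℝ)) (hs : ∀ g ∈ s, Continuous g) {p : M → ℝ} {x : M} {C : ℝ}
    (hC : 0 < C) (hp : D.Sing p x) (h : ∀ᶠ y in 𝓝 x, ∃ g ∈ s, g y ≤ C * p y) : ∃ g ∈ s, D.Sing g x := by
  by_contra hn
  simp only [Dom.Sing, not_exists, not_and, not_forall] at hn
  choose! U hU hU' using hn
  obtain ⟨V, hV, hVo, hxV⟩ := mem_nhds_iff.1 (inter_mem h ((biInter_finset_mem s).2 hU))
  refine (lt_of_le_of_lt (b := ∫⁻ y in V, ENNReal.ofReal C * ∑ g ∈ s, (ENNReal.ofReal (g y))⁻¹ ∂D.μ) ?_ ?_).ne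
    (hp V (hVo.mem_nhds hxV))
  · refine setLIntegral_mono' hVo.measurableSet fun y hy => ?_
    obtain ⟨g, hg, hgy⟩ := (hV hy).1
    have h1 : ENNReal.ofReal (g y) ≤ ENNReal.ofReal C * ENNReal.ofReal (p y) := by
      rw [← ENNReal.ofReal_mul hC.le]
      exact ENNReal.ofReal_le_ofReal hgy
    have hC0 : ENNReal.ofReal C ≠ 0 := by simpa using hC
    calc (ENNReal.ofReal (p y))⁻¹ = ENNReal.ofReal C * (ENNReal.ofReal C * ENNReal.ofReal (p y))⁻¹ := by
          rw [ENNReal.mul_inv (Or.inl hC0) (Or.inl ENNReal.ofReal_ne_top), ← mul_assoc,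
            ENNReal.mul_inv_cancel hC0 ENNReal.ofReal_ne_top, one_mul]
      _ ≤ _ := mul_le_mul_right ((ENNReal.inv_le_inv.2 h1).trans
          (Finset.single_le_sum (f := fun g : M → ℝ => (ENNReal.ofReal (g y))⁻¹) (fun _ _ => zero_le) hg)) _
  · rw [lintegral_const_mul' _ _ ENNReal.ofReal_ne_top,
      lintegral_finsetSum (f := fun (g : M → ℝ) y => (ENNReal.ofReal (g y))⁻¹) _
        fun g hg => (hs g hg).measurable.ennreal_ofReal.inv]
    refine ENNReal.mul_lt_top ENNReal.ofReal_lt_top (ENNReal.sum_lt_top.2 fun g hg => ?_)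
    exact (lintegral_mono_set fun y hy => mem_iInter₂.1 (hV hy).2 g hg).trans_lt (lt_top_iff_ne_top.2 (hU' g hg))

theorem cells_grid {K : Type} [Fintype K] (w : K → ℝ) (hw : ∀ k, 0 ≤ w k) {β B : ℝ} (hβ : 0 ≤ β) (hβ' : β < 1)
    (hB : 1 ≤ B) : ∃ 𝒞 : Finset (K → ℝ), (∀ c ∈ 𝒞, (∀ k, 0 ≤ c k) ∧ 1 ≤ ∑ k, w k * c k) ∧
      ∃ C : ℝ, 0 < C ∧ ∀ v : K → ℝ, (∀ k, 0 ≤ v k ∧ v k ≤ B) → 1 ≤ C * ∏ k, v k ^ (β * w k) ∨
        ∃ c ∈ 𝒞, ∑ k with 0 < c k, v k ^ (c k)⁻¹ ≤ C * ∏ k, v k ^ (β * w k) := by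
  classical
  obtain ⟨b, hb⟩ : ∃ b : ℝ, b = (1 + β) / 2 := ⟨_, rfl⟩
  have hb0 : 0 < b := by linarith
  have hb1 : b < 1 := by linarith
  have hbβ : β ≤ b := by linarith
  obtain ⟨L, hL⟩ : ∃ L : ℝ, L = (∑ k, w k) / (1 - b) + 1 := ⟨_, rfl⟩
  have hsw : 0 ≤ ∑ k, w k := Finset.sum_nonneg fun k _ => hw k
  have hL0 : 0 < L := by
    have := div_nonneg hsw (sub_pos.2 hb1).le
    linarith
  have hL1 : ∑ k, w k ≤ L * (1 - b) := by
    rw [hL, add_mul, div_mul_cancel₀ _ (sub_pos.2 hb1).ne']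
    linarith
  obtain ⟨N, hN⟩ := exists_nat_ge (∑ k, L / w k)
  have hN' : ∀ k, L / w k ≤ N := fun k =>
    (Finset.single_le_sum (f := fun k => L / w k) (fun k _ => div_nonneg hL0.le (hw k)) (Finset.mem_univ k)).trans hN
  have hLb : 0 < L * b := mul_pos hL0 hb0
  have hlB : 0 ≤ Real.log B := Real.log_nonneg hB
  have hE : 1 ≤ Real.exp (Real.log B * (L * b)) := Real.one_le_exp (by positivity)
  have hC : 1 ≤ ((Fintype.card K : ℝ) + 1) * Real.exp (Real.log B * (L * b)) :=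
    one_le_mul_of_one_le_of_one_le (by simp) hE
  refine ⟨((Fintype.piFinset fun _ : K => Finset.range (N + 1)).image fun m k => (m k : ℝ) / (L * b)).filter
    fun c => 1 ≤ ∑ k, w k * c k, fun c hc => ?_, _, one_pos.trans_le hC, fun v hv => ?_⟩
  · obtain ⟨h1, h2⟩ := Finset.mem_filter.1 hc
    obtain ⟨m, -, rfl⟩ := Finset.mem_image.1 h1
    exact ⟨fun k => by positivity, h2⟩
  have hP : 0 ≤ ∏ k, v k ^ (β * w k) := Finset.prod_nonneg fun k _ => Real.rpow_nonneg (hv k).1 _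
  by_cases hz : ∃ k, 0 < w k ∧ v k = 0
  · obtain ⟨k, hk, hk0⟩ := hz
    refine Or.inr ⟨fun j => ((Pi.single k N : K → ℕ) j : ℝ) / (L * b), Finset.mem_filter.2
      ⟨Finset.mem_image.2 ⟨Pi.single k N, Fintype.mem_piFinset.2 fun j => ?_, rfl⟩, ?_⟩, ?_⟩
    · by_cases hj : j = k
      · subst hj; simp
      · simp [hj]
    · rw [Finset.sum_eq_single k (fun j _ hj => by simp [hj]) (by simp)]
      simp only [Pi.single_eq_same]
      rw [← mul_div_assoc, le_div_iff₀ hLb]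
      have := (div_le_iff₀ hk).1 (hN' k)
      nlinarith
    · refine le_trans (le_of_eq (Finset.sum_eq_zero fun j hj => ?_)) (by positivity)
      have h1 := (Finset.mem_filter.1 hj).2
      by_cases hjk : j = k
      · subst hjk
        rw [hk0, Real.zero_rpow (inv_ne_zero h1.ne')]
      · simp [hjk] at h1
  push Not at hz
  obtain ⟨τ, hτ⟩ : ∃ τ : K → ℝ, τ = fun k => if 0 < w k then Real.log B - Real.log (v k) else 0 := ⟨_, rfl⟩
  have hvp : ∀ k, 0 < w k → 0 < v k := fun k hk => lt_of_le_of_ne (hv k).1 (hz k hk).symm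
  have hτ0 : ∀ k, 0 ≤ τ k := fun k => by
    simp only [hτ]
    split_ifs with hk
    · exact sub_nonneg.2 (Real.log_le_log (hvp k hk) (hv k).2)
    · exact le_rfl
  obtain ⟨t, ht⟩ : ∃ t, t = ∑ k, w k * τ k := ⟨_, rfl⟩
  have ht0 : 0 ≤ t := ht ▸ Finset.sum_nonneg fun k _ => mul_nonneg (hw k) (hτ0 k)
  have hprod : Real.exp (-(b * t)) ≤ ∏ k, v k ^ (β * w k) := by
    refine (Real.exp_le_exp.2 (neg_le_neg (mul_le_mul_of_nonneg_right hbβ ht0))).trans ?_
    rw [ht, Finset.mul_sum, ← Finset.sum_neg_distrib, Real.exp_sum]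
    refine Finset.prod_le_prod (fun k _ => (Real.exp_pos _).le) fun k _ => ?_
    rcases (hw k).eq_or_lt with hk | hk
    · simp [← hk]
    · rw [Real.rpow_def_of_pos (hvp k hk), Real.exp_le_exp]
      simp only [hτ, if_pos hk]
      nlinarith [mul_nonneg (mul_nonneg hβ hk.le) hlB]
  rcases ht0.eq_or_lt with h0 | htp
  · left
    rw [← h0, mul_zero, neg_zero, Real.exp_zero] at hprod
    exact one_le_mul_of_one_le_of_one_le hC hprod
  have hm : ∀ k, (⌊L * τ k / t⌋₊ : ℝ) ≤ L * τ k / t := fun k => Nat.floor_le (by have := hτ0 k; positivity)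
  refine Or.inr ⟨fun k => (⌊L * τ k / t⌋₊ : ℝ) / (L * b), Finset.mem_filter.2
    ⟨Finset.mem_image.2 ⟨fun k => ⌊L * τ k / t⌋₊, Fintype.mem_piFinset.2 fun k => ?_, rfl⟩, ?_⟩, ?_⟩
  · rw [Finset.mem_range, Nat.lt_succ_iff, ← Nat.cast_le (α := ℝ)]
    refine (hm k).trans ?_
    rcases (hw k).eq_or_lt with hk | hk
    · simp [hτ, ← hk]
    · refine le_trans ?_ (hN' k)
      have := Finset.single_le_sum (f := fun k => w k * τ k) (fun k _ => mul_nonneg (hw k) (hτ0 k))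
        (Finset.mem_univ k)
      rw [div_le_div_iff₀ htp hk, mul_assoc, ht, mul_comm (τ k)]
      exact mul_le_mul_of_nonneg_left this hL0.le
  · simp only [← mul_div_assoc]
    rw [← Finset.sum_div, le_div_iff₀ hLb]
    have h1 : ∑ k, w k * (L * τ k / t - 1) ≤ ∑ k, w k * (⌊L * τ k / t⌋₊ : ℝ) :=
      Finset.sum_le_sum fun k _ => mul_le_mul_of_nonneg_left (by linarith [Nat.lt_floor_add_one (L * τ k / t)]) (hw k)
    have h2 : ∑ k, w k * (L * τ k / t - 1) = L / t * ∑ k, w k * τ k - ∑ k, w k := by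
      rw [Finset.mul_sum, ← Finset.sum_sub_distrib]
      exact Finset.sum_congr rfl fun k _ => by ring
    rw [h2, ← ht, div_mul_cancel₀ _ htp.ne'] at h1
    linarith
  · have h1 : ∀ k ∈ Finset.univ.filter fun k => 0 < (⌊L * τ k / t⌋₊ : ℝ) / (L * b),
        v k ^ ((⌊L * τ k / t⌋₊ : ℝ) / (L * b))⁻¹ ≤ Real.exp (Real.log B * (L * b)) * Real.exp (-(b * t)) := by
      intro k hk
      have h2 : 0 < (⌊L * τ k / t⌋₊ : ℝ) := (div_pos_iff_of_pos_right hLb).1 (Finset.mem_filter.1 hk).2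
      have h3 : (1 : ℝ) ≤ ⌊L * τ k / t⌋₊ := by exact_mod_cast (Nat.cast_pos.1 h2)
      have hwk : 0 < w k := by
        by_contra hn
        simp [hτ, hn] at h2
      have h4 := (le_div_iff₀ htp).1 (hm k)
      have h5 : Real.log (v k) = Real.log B - τ k := by simp [hτ, hwk]
      rw [Real.rpow_def_of_pos (hvp k hwk), ← Real.exp_add, Real.exp_le_exp, inv_div, ← mul_div_assoc,
        div_le_iff₀ h2, h5]
      nlinarith [mul_le_mul_of_nonneg_left h3 (mul_nonneg hlB hLb.le), mul_le_mul_of_nonneg_left h4 hb0.le]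
    refine (Finset.sum_le_card_nsmul _ _ _ h1).trans ?_
    rw [nsmul_eq_mul, mul_assoc]
    refine mul_le_mul ?_ (mul_le_mul_of_nonneg_left hprod (Real.exp_pos _).le) (by positivity) (by positivity)
    have : ((Finset.univ.filter fun k => 0 < (⌊L * τ k / t⌋₊ : ℝ) / (L * b)).card : ℝ) ≤ Fintype.card K := by
      exact_mod_cast Finset.card_le_univ _
    linarith

/-- Near `x` all `h k ≤ B`.  Put `τ k = -log (h k / B)`, `t = ∑ w k τ k`, `β < β' < 1`, `L` large with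
`∑ w k / L ≤ 1 - β'`, and `c k = ⌊L τ k / t⌋ / (L β')` for `w k > 0` (`0` otherwise): finitely many vectors `c`
(`τ k / t ≤ 1 / w k`), `∑ w k c k ≥ 1`, and `fan c = ∑_{c k > 0} h k ^ (1 / c k) ≤ C exp (-β' t) ≤ C' ∏ h k ^ (β w k)`.
If some `h k = 0` with `w k > 0` use `c = e_k / w k`; if `t = 0` the product is bounded below.  Hence
`1 / ∏ ≤ C + C ∑_c 1 / fan c`, so some `fan c` is singular at `x`; then `fan c ^ (1 + δ)` is singular
(`sing_mono`) and `hc.rate` gives the rate. -/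
theorem Cx.cells (hc : Cx S) {K : Type} [Fintype K] (h : K → M → ℝ) (w : K → ℝ) (x : M)
    (hh : ∀ k, S.LP (h k)) (hw : ∀ k, 0 ≤ w k) {β : ℝ} (hβ : 0 ≤ β) (hβ' : β < 1)
    (hs : S.Sing (prodW h fun k => β * w k) x) :
    ∃ a : K → ℝ, (∀ k, 0 ≤ a k) ∧ 1 ≤ ∑ k, w k * a k ∧ S.Rate h a x 1 := by
  classical
  have hc0 : ∀ k y, 0 ≤ h k y := fun k => hc.lp.nonneg _ (hh k)
  have hB : (1 : ℝ) ≤ 1 + ∑ k, h k x := le_add_of_nonneg_right (Finset.sum_nonneg fun k _ => hc0 k x)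
  obtain ⟨𝒞, h𝒞, C, hC, hv⟩ := cells_grid w hw hβ hβ' hB
  have hfan : ∀ c : K → ℝ, Continuous fun y => ∑ k with 0 < c k, h k y ^ (c k)⁻¹ := fun c =>
    continuous_finsetSum _ fun k hk => (hh k).1.rpow_const fun _ =>
      Or.inr (inv_nonneg.2 (Finset.mem_filter.1 hk).2.le)
  have hev : ∀ᶠ y in 𝓝 x, ∀ k, h k y ≤ 1 + ∑ k, h k x := by
    refine eventually_all.2 fun k => ((hh k).1.continuousAt.eventually_lt continuousAt_const ?_).mono
      fun _ h => h.le
    have := Finset.single_le_sum (f := fun k => h k x) (fun k _ => hc0 k x) (Finset.mem_univ k)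
    linarith
  obtain ⟨g, hg, hgs⟩ := cells_min S.toDom
    (insert (fun _ => 1) (𝒞.image fun (c : K → ℝ) (y : M) => ∑ k with 0 < c k, h k y ^ (c k)⁻¹)) (fun g hg => by
      rcases Finset.mem_insert.1 hg with rfl | hg
      · exact continuous_const
      · obtain ⟨c, -, rfl⟩ := Finset.mem_image.1 hg
        exact hfan c) hC hs (by
      filter_upwards [hev] with y hy
      rcases hv (fun k => h k y) (fun k => ⟨hc0 k y, hy k⟩) with h1 | ⟨c, hc, h1⟩
      · exact ⟨_, Finset.mem_insert_self _ _, h1⟩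
      · exact ⟨_, Finset.mem_insert_of_mem (Finset.mem_image_of_mem _ hc), h1⟩)
  rcases Finset.mem_insert.1 hg with rfl | hg
  · exact (not_sing_of_pos S.toDom continuous_const one_pos hgs).elim
  obtain ⟨c, hc𝒞, rfl⟩ := Finset.mem_image.1 hg
  refine ⟨c, (h𝒞 c hc𝒞).1, (h𝒞 c hc𝒞).2, (hc.rate K h c x 1 hh zero_le_one).2 fun δ hδ => ?_⟩
  have h0 : ∀ y, 0 ≤ ∑ k with 0 < c k, h k y ^ (c k)⁻¹ := fun y =>
    Finset.sum_nonneg fun k _ => Real.rpow_nonneg (hc0 k y) _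
  refine sing_mono S.toDom hgs h0 ⟨(∑ k with 0 < c k, h k x ^ (c k)⁻¹) ^ δ + 1, ?_⟩
  filter_upwards [((hfan c).rpow_const fun _ => Or.inr hδ.le).continuousAt.eventually_lt continuousAt_const
    (lt_add_one ((∑ k with 0 < c k, h k x ^ (c k)⁻¹) ^ δ))] with y hy
  rw [Real.rpow_add' (h0 y) (by positivity), Real.rpow_one, mul_comm]
  exact mul_le_mul_of_nonneg_right hy.le (h0 y)

end Crest.Agent.R271
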