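import Crest.Agent.R271.St.Pts

/-!
# Row 271, block St: the centre of a polyhedron
-/

set_option autoImplicit false
set_option linter.unusedSectionVars false

open MeasureTheory Filter Topology Set
open scoped ENNReal

noncomputable section

namespace Crest.Agent.R271

variable {n : ℕ} {M : Type} [TopologicalSpace M] [T2Space M] [SecondCountableTopology M]
  [MeasurableSpace M] [BorelSpace M] {A : Type} [CommRing A] [IsDomain A] [Algebra ℂ A]
  {S : Setup n M A}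

/-- locally finite integral -/
def cenLI (D : Dom n M) (u : M → ℝ≥0∞) (y : M) : Prop := ∃ U ∈ 𝓝 y, ∫⁻ x in U, u x ∂D.μ ≠ ⊤

theorem cen_mono {D : Dom n M} {u v : M → ℝ≥0∞} {y : M} (h : cenLI D u y) {C : ℝ}
    (hle : ∀ᶠ x in 𝓝 y, v x ≤ ENNReal.ofReal C * u x) : cenLI D v y := by
  obtain ⟨U, hU, h⟩ := h
  obtain ⟨W, hW, hWo, hyW⟩ := mem_nhds_iff.1 (inter_mem hU hle)
  refine ⟨W, hWo.mem_nhds hyW, ne_top_of_le_ne_top
    (ENNReal.mul_ne_top (ENNReal.ofReal_ne_top (r := C)) h)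
    ((setLIntegral_mono' hWo.measurableSet fun x hx => (hW hx).2).trans ?_)⟩
  rw [lintegral_const_mul' _ _ ENNReal.ofReal_ne_top]
  exact mul_le_mul_right (lintegral_mono_set fun x hx => (hW hx).1) _

theorem cen_add {D : Dom n M} {u v : M → ℝ≥0∞} {y : M} (hm : Measurable u) (hu : cenLI D u y)
    (hv : cenLI D v y) : cenLI D (fun x => u x + v x) y := by
  obtain ⟨U, hU, hu⟩ := hu
  obtain ⟨V, hV, hv⟩ := hv
  refine ⟨U ∩ V, inter_mem hU hV, ?_⟩
  rw [lintegral_add_left hm]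
  exact ENNReal.add_ne_top.2 ⟨ne_top_of_le_ne_top hu (lintegral_mono_set inter_subset_left),
    ne_top_of_le_ne_top hv (lintegral_mono_set inter_subset_right)⟩

theorem cen_sum {D : Dom n M} {κ : Type} (s : Finset κ) {u : κ → M → ℝ≥0∞} {y : M}
    (hm : ∀ k, Measurable (u k)) (hu : ∀ k ∈ s, cenLI D (u k) y) :
    cenLI D (fun x => ∑ k ∈ s, u k x) y := by
  classical
  induction s using Finset.induction_on with
  | empty => exact ⟨univ, univ_mem, by simp⟩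
  | insert k s hk ih =>
    simp only [Finset.sum_insert hk]
    exact cen_add (hm k) (hu k (Finset.mem_insert_self _ _))
      (ih fun j hj => hu j (Finset.mem_insert_of_mem hj))

theorem cen_bdd {g : M → ℝ} (hg : Continuous g) (y : M) : ∀ᶠ x in 𝓝 y, g x ≤ |g y| + 1 :=
  (hg.continuousAt.eventually (gt_mem_nhds ((le_abs_self _).trans_lt (lt_add_one _)))).mono
    fun _ hx => hx.le

theorem cen_sq_mul (a b : A) (x : M) : S.sq (a * b) x = S.sq a x * S.sq b x := by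
  simp only [Aff.sq, map_mul, norm_mul, mul_pow]

/-- dividing by a function that does not vanish at `y` -/
theorem Cx.cen_cancel (hc : Cx S) {h b : A} {w : M → ℝ≥0∞} {y : M} (hh : S.ev y h ≠ 0)
    (H : cenLI S.toDom (fun x => ENNReal.ofReal (S.sq (h * b) x) * w x) y) :
    cenLI S.toDom (fun x => ENNReal.ofReal (S.sq b x) * w x) y := by
  have h0 : 0 < S.sq h y := pow_pos (norm_pos_iff.2 hh) 2
  refine cen_mono H (C := 2 / S.sq h y) ?_
  filter_upwards [(hc.cont h).continuousAt.eventually (lt_mem_nhds (half_lt_self h0))] with x hx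
  rw [← mul_assoc, ← ENNReal.ofReal_mul (by positivity), cen_sq_mul]
  refine mul_le_mul_left (ENNReal.ofReal_le_ofReal ?_) _
  rw [← mul_assoc]
  refine le_mul_of_one_le_left (S.sq_nonneg _ _) ?_
  rw [div_mul_eq_mul_div, le_div_iff₀ h0]
  linarith

/-- the multiplier ideal -/
def Cx.cenJ (hc : Cx S) {g : M → ℝ} (hg : Continuous g) : Ideal A where
  carrier := {a | ∀ y, cenLI S.toDom (fun x => ENNReal.ofReal (S.sq a x) * (ENNReal.ofReal (g x))⁻¹) y}
  zero_mem' := fun _ => ⟨univ, univ_mem, by simp [Aff.sq]⟩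
  add_mem' := fun {a b} ha hb y => by
    refine cen_mono (cen_add ((hc.cont a).measurable.ennreal_ofReal.fun_mul
      hg.measurable.ennreal_ofReal.fun_inv) (ha y) (hb y)) (C := 2) (Eventually.of_forall fun x => ?_)
    rw [← add_mul, ← mul_assoc, ← ENNReal.ofReal_add (S.sq_nonneg _ _) (S.sq_nonneg _ _),
      ← ENNReal.ofReal_mul (by norm_num)]
    refine mul_le_mul_left (ENNReal.ofReal_le_ofReal ?_) _
    simp only [Aff.sq, map_add]
    exact (pow_le_pow_left₀ (norm_nonneg _) (norm_add_le _ _) 2).trans add_sq_le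
  smul_mem' := fun c a ha y => by
    refine cen_mono (ha y) (C := |S.sq c y| + 1) ?_
    filter_upwards [cen_bdd (hc.cont c) y] with x hx
    rw [← mul_assoc, ← ENNReal.ofReal_mul (by positivity), smul_eq_mul, cen_sq_mul]
    exact mul_le_mul_left (ENNReal.ofReal_le_ofReal
      (mul_le_mul_of_nonneg_right hx (S.sq_nonneg _ _))) _

theorem Cx.cenJ_V (hc : Cx S) {g : M → ℝ} (hg : S.LP g) (hm : S.Mod g) (y : M) :
    y ∈ S.V (hc.cenJ hg.1) ↔ S.Sing g y := by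
  refine ⟨fun h => by_contra fun hs => ?_, fun h a ha => by_contra fun h0 => ?_⟩
  · obtain ⟨a, h1, h2⟩ := hc.zar g hg hm y hs
    exact h1 (h a h2)
  · obtain ⟨U, hU, h1⟩ := hc.cen_cancel (b := 1) h0 (by rw [mul_one]; exact ha y)
    refine h1 ?_
    simpa [Aff.sq] using h U hU

theorem Cx.cenJ_mono (hc : Cx S) {g g' r : M → ℝ} (hg : Continuous g) (hg' : Continuous g')
    (hr : Continuous r) (h0 : ∀ x, 0 ≤ g x) (h : ∀ x, g' x = r x * g x) :
    hc.cenJ hg' ≤ hc.cenJ hg := fun a ha y => by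
  refine cen_mono (ha y) (C := |r y| + 1) ?_
  filter_upwards [cen_bdd hr y] with x hx
  have hB : 0 < |r y| + 1 := by positivity
  rw [mul_left_comm]
  refine mul_le_mul_right ?_ _
  have h1 : ENNReal.ofReal (g' x) ≤ ENNReal.ofReal (|r y| + 1) * ENNReal.ofReal (g x) := by
    rw [← ENNReal.ofReal_mul hB.le, h]
    exact ENNReal.ofReal_le_ofReal (mul_le_mul_of_nonneg_right hx (h0 x))
  have h2 : ENNReal.ofReal (|r y| + 1) ≠ 0 := (ENNReal.ofReal_pos.2 hB).ne'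
  refine le_trans (le_of_eq ?_) (mul_le_mul_right (ENNReal.inv_le_inv.2 h1) _)
  rw [ENNReal.mul_inv (Or.inl h2) (Or.inl ENNReal.ofReal_ne_top), ← mul_assoc,
    ENNReal.mul_inv_cancel h2 ENNReal.ofReal_ne_top, one_mul]

theorem cen_minp {I 𝔭 : Ideal A} (h : 𝔭 ∈ I.minimalPrimes) (s : Finset A) (hs : ∀ g ∈ s, g ∈ 𝔭) :
    ∃ (h₀ : A) (N : ℕ), h₀ ∉ 𝔭 ∧ 0 < N ∧ ∀ g ∈ s, h₀ * g ^ N ∈ I := by
  classical
  have hp : 𝔭.IsPrime := h.1.1
  induction s using Finset.induction_on with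
  | empty => exact ⟨1, 1, hp.one_notMem, one_pos, by simp⟩
  | insert g s hg ih =>
    obtain ⟨h₀, N, h1, h2, h3⟩ := ih fun j hj => hs j (Finset.mem_insert_of_mem hj)
    have h4 := Ideal.mem_map_of_mem (algebraMap A (Localization.AtPrime 𝔭))
      (hs g (Finset.mem_insert_self _ _))
    rw [← IsLocalization.AtPrime.radical_map_of_mem_minimalPrimes _ 𝔭 I h] at h4
    obtain ⟨k, hk⟩ := h4
    rw [← map_pow, IsLocalization.algebraMap_mem_map_algebraMap_iff 𝔭.primeCompl] at hk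
    obtain ⟨m, hm, hk⟩ := hk
    refine ⟨h₀ * m, N + k, fun h5 => (hp.mem_or_mem h5).elim h1 hm, by omega, fun j hj => ?_⟩
    rcases Finset.mem_insert.1 hj with rfl | hj
    · rw [show h₀ * m * j ^ (N + k) = h₀ * j ^ N * (m * j ^ k) by ring]
      exact I.mul_mem_left _ hk
    · rw [show h₀ * m * j ^ (N + k) = m * j ^ k * (h₀ * j ^ N) by ring]
      exact I.mul_mem_left _ (h3 j hj)

/-- removing a negligible family does not change the rate -/
theorem cen_rate {D : Dom n M} {P Q : ℝ → Set M} {y : M} {α η C : ℝ} (hα : 0 ≤ α) (hη : 0 < η)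
    (hQ : Antitone Q) (hP : D.RateS P y α) {U₀ : Set M} (hU₀ : U₀ ∈ 𝓝 y)
    (hb : ∀ t, 0 ≤ t → D.μ ((P t \ Q t) ∩ U₀) ≤ ENNReal.ofReal (C * Real.exp (-(α + η) * t))) :
    D.RateS Q y α := by
  intro δ hδ U hU
  set δ' := min δ (η / 2) with hδ'
  have h1 : 0 < δ' := lt_min hδ (half_pos hη)
  have h2 : δ' ≤ δ := min_le_left _ _
  have h3 : δ' ≤ η / 2 := min_le_right _ _
  obtain ⟨c, hc, H⟩ := hP δ' h1 (U ∩ U₀) (inter_mem hU hU₀)
  have hlim : Tendsto (fun t : ℝ => |C| * Real.exp (-(η / 2 * t))) atTop (𝓝 (|C| * 0)) :=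
    (Real.tendsto_exp_neg_atTop_nhds_zero.comp
      (tendsto_id.const_mul_atTop (half_pos hη))).const_mul _
  obtain ⟨t₀, ht₀⟩ := eventually_atTop.1 ((hlim.eventually (gt_mem_nhds
    (show |C| * 0 < c / 2 by rw [mul_zero]; exact half_pos hc))).and (eventually_ge_atTop 0))
  have h0 : 0 ≤ t₀ := (ht₀ t₀ le_rfl).2
  have key : ∀ t, t₀ ≤ t → ENNReal.ofReal (c / 2 * Real.exp (-(α + δ') * t)) ≤ D.μ (U ∩ Q t) := by
    intro t ht
    have ht0 := (ht₀ t ht).2
    have a1 : D.μ (U ∩ U₀ ∩ P t) ≤ D.μ (U ∩ Q t) + D.μ ((P t \ Q t) ∩ U₀) :=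
      (measure_mono fun x hx => by
        by_cases hq : x ∈ Q t
        exacts [Or.inl ⟨hx.1.1, hq⟩, Or.inr ⟨⟨hx.2, hq⟩, hx.1.2⟩]).trans (measure_union_le _ _)
    have a2 : C * Real.exp (-(α + η) * t) ≤ c / 2 * Real.exp (-(α + δ') * t) := by
      calc C * Real.exp (-(α + η) * t) ≤ |C| * (Real.exp (-(η / 2 * t)) * Real.exp (-(α + δ') * t)) := by
            rw [← Real.exp_add]
            exact mul_le_mul (le_abs_self _) (Real.exp_le_exp.2 (by nlinarith)) (Real.exp_pos _).le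
              (abs_nonneg _)
        _ ≤ _ := by
            rw [← mul_assoc]
            exact mul_le_mul_of_nonneg_right (ht₀ t ht).1.le (Real.exp_pos _).le
    have a3 := (H t ht0).trans (a1.trans
      (add_le_add_right ((hb t ht0).trans (ENNReal.ofReal_le_ofReal a2)) _))
    rw [show c * Real.exp (-(α + δ') * t) = c / 2 * Real.exp (-(α + δ') * t) +
      c / 2 * Real.exp (-(α + δ') * t) by ring, ENNReal.ofReal_add (by positivity) (by positivity)] at a3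
    exact (ENNReal.add_le_add_iff_right ENNReal.ofReal_ne_top).1 a3
  refine ⟨c / 2 * Real.exp (-(α + δ') * t₀), by positivity, fun t ht => ?_⟩
  rw [mul_assoc, ← Real.exp_add]
  rcases le_total t₀ t with h | h
  · refine le_trans (ENNReal.ofReal_le_ofReal (mul_le_mul_of_nonneg_left
      (Real.exp_le_exp.2 ?_) (by positivity))) (key t h)
    nlinarith [mul_nonneg (add_nonneg hα h1.le) h0, mul_nonneg (sub_nonneg.2 h2) ht]
  · refine le_trans (ENNReal.ofReal_le_ofReal (mul_le_mul_of_nonneg_left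
      (Real.exp_le_exp.2 ?_) (by positivity)))
      ((key t₀ le_rfl).trans (measure_mono (inter_subset_inter_right _ (hQ h))))
    nlinarith [mul_nonneg (add_nonneg hα hδ.le) ht]

/-- `φ = ∑_{a i > 0} |f i| ^ (2 / a i)`, `𝒥 δ = {g | |g|² / φ ^ (1 + δ) locally integrable everywhere}` is an ideal,
`V (𝒥 δ) = {y | Sing (φ ^ (1 + δ)) y}` (`hc.zar`), `𝒥 δ` increases as `δ ↓ 0`, so it is constant for `δ ≤ δ₀`
(Noetherian; `φ` is locally bounded).  `x ∈ V (𝒥 δ₀)` by `hc.rate`.  Take `𝔭` a minimal prime of `𝒥 δ₀` inside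
`ker (ev x)`: rate `1` at all points of `V 𝔭` (`hc.rate`), `φ = 0` on `V 𝔭` (`not_sing_of_pos`) so `f i ∈ 𝔭` (`null`).
There are `h₀ ∉ 𝔭`, `N > 0` with `h₀ g ^ N ∈ 𝒥 δ₀` for all generators `g`.  With `κ₀ = δ₀ / (2 N)`, at `y ∈ V 𝔭` with
`h₀ y ≠ 0`: `μ (U ∩ {φ < C e^{-t}} ∩ {|g|² ≥ e^{-κ₀ t}}) ≤ C e^{N κ₀ t - (1 + δ₀) t}` (Chebyshev), negligible against
`c e^{-(1 + δ) t}` for `δ < δ₀ / 2` and `t ≥ t₀`; small `t` by monotonicity.  Finish with `dens_rate`. -/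
theorem Cx.cenA (hc : Cx S) {ι : Type} [Fintype ι] (f : ι → A) (a : ι → ℝ) (x : M)
    (H : S.Rate (fun i => S.sq (f i)) a x 1) :
    ∃ (𝔭 : Ideal A) (gens : Finset A) (κ₀ : ℝ), 𝔭.IsPrime ∧ x ∈ S.V 𝔭 ∧ (∀ i, 0 < a i → f i ∈ 𝔭) ∧
      Ideal.span (gens : Set A) = 𝔭 ∧ 0 < κ₀ ∧ ∀ y ∈ S.V 𝔭,
        S.Rate (fun i : ι ⊕ gens => S.sq (Sum.elim f (fun g => (g : A)) i))
          (Sum.elim a fun _ => κ₀) y 1 := by
  classical
  have := S.noeth
  set φ : M → ℝ := fun x => ∑ i with 0 < a i, S.sq (f i) x ^ (a i)⁻¹ with hφ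
  have hφ0 : ∀ x, 0 ≤ φ x := fun x =>
    Finset.sum_nonneg fun i _ => Real.rpow_nonneg (S.sq_nonneg _ _) _
  have hφ1 : S.LP φ ∧ S.Mod φ := by
    have : ∀ s : Finset ι, (∀ i ∈ s, 0 < a i) → S.LP (fun x => ∑ i ∈ s, S.sq (f i) x ^ (a i)⁻¹) ∧
        S.Mod fun x => ∑ i ∈ s, S.sq (f i) x ^ (a i)⁻¹ := by
      intro s hs
      induction s using Finset.induction_on with
      | empty => exact ⟨by simpa using hc.lp.const 0 le_rfl, by simpa using hc.lp.mod_const 0⟩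
      | insert i s hi ih =>
        have h1 := ih fun j hj => hs j (Finset.mem_insert_of_mem hj)
        have h2 := (inv_pos.2 (hs i (Finset.mem_insert_self _ _))).le
        simp only [Finset.sum_insert hi]
        exact ⟨hc.lp.add _ _ (hc.lp.rpow _ _ (hc.lp.sq _) h2) h1.1, hc.lp.mod_add _ _
          (hc.lp.mod_rpow _ _ (S.sq_nonneg _) h2 (hc.lp.mod_sq _)) h1.2⟩
    exact this _ fun i hi => (Finset.mem_filter.1 hi).2
  have hL : ∀ δ : Ioi (0 : ℝ), S.LP fun x => φ x ^ (1 + δ.1) := fun δ =>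
    hc.lp.rpow _ _ hφ1.1 (add_pos one_pos δ.2).le
  have hM : ∀ δ : Ioi (0 : ℝ), S.Mod fun x => φ x ^ (1 + δ.1) := fun δ =>
    hc.lp.mod_rpow _ _ hφ0 (add_pos one_pos δ.2).le hφ1.2
  have hR := fun y => hc.rate ι (fun i => S.sq (f i)) a y 1 (fun i => hc.lp.sq _) zero_le_one
  have hmono : ∀ δ δ' : Ioi (0 : ℝ), δ ≤ δ' → hc.cenJ (hL δ').1 ≤ hc.cenJ (hL δ).1 := fun δ δ' h =>
    hc.cenJ_mono (r := fun x => φ x ^ (δ'.1 - δ.1)) _ _
      (hφ1.1.1.rpow_const fun _ => Or.inr (sub_nonneg.2 h)) (fun x => Real.rpow_nonneg (hφ0 x) _)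
      fun x => by
        rw [← Real.rpow_add_of_nonneg (hφ0 x) (sub_nonneg.2 h) (add_pos one_pos δ.2).le]
        congr 1
        ring
  obtain ⟨_, ⟨δ₀, rfl⟩, hmax⟩ := set_has_maximal_iff_noetherian.2 (inferInstance : IsNoetherian A A)
    (range fun δ : Ioi (0 : ℝ) => hc.cenJ (hL δ).1) ⟨_, ⟨1, mem_Ioi.2 one_pos⟩, rfl⟩
  have hle : ∀ δ : Ioi (0 : ℝ), hc.cenJ (hL δ).1 ≤ hc.cenJ (hL δ₀).1 := fun δ => by
    rcases le_total δ δ₀ with h | h
    · exact ((hmono _ _ h).eq_or_lt.resolve_right (hmax _ ⟨δ, rfl⟩)).ge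
    · exact hmono _ _ h
  have hx : x ∈ S.V (hc.cenJ (hL δ₀).1) := (hc.cenJ_V (hL δ₀) (hM δ₀) x).2 ((hR x).1 H δ₀.1 δ₀.2)
  have hker : (RingHom.ker (S.ev x)).IsPrime := RingHom.ker_isPrime _
  obtain ⟨𝔭, h𝔭, h𝔭x⟩ := Ideal.exists_minimalPrimes_le (I := hc.cenJ (hL δ₀).1)
    (J := RingHom.ker (S.ev x)) hx
  have hp : 𝔭.IsPrime := h𝔭.1.1
  have hS : ∀ y ∈ S.V 𝔭, ∀ δ : Ioi (0 : ℝ), S.Sing (fun x => φ x ^ (1 + δ.1)) y := fun y hy δ =>
    (hc.cenJ_V (hL δ) (hM δ) y).1 fun b hb => hy b (h𝔭.1.2 (hle δ hb))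
  obtain ⟨gens, hgens⟩ := IsNoetherian.noetherian 𝔭
  obtain ⟨h₀, N, hh₀, hN, hI⟩ := cen_minp h𝔭 gens fun g hg => hgens ▸ Submodule.subset_span hg
  have hδ₀ : (0 : ℝ) < δ₀.1 := δ₀.2
  have hN' : (0 : ℝ) < N := Nat.cast_pos.2 hN
  have hκ : 0 < δ₀.1 / (2 * N) := by positivity
  refine ⟨𝔭, gens, δ₀.1 / (2 * N), hp, fun b hb => h𝔭x hb, fun i hi => S.null hp fun y hy => ?_,
    hgens, hκ, hc.dens_rate hp hh₀ _ _ zero_le_one fun y hy hy0 => ?_⟩
  · by_contra h0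
    refine not_sing_of_pos S.toDom (hL δ₀).1 (Real.rpow_pos_of_pos (lt_of_lt_of_le ?_
      (Finset.single_le_sum (f := fun i => S.sq (f i) y ^ (a i)⁻¹)
        (fun j _ => Real.rpow_nonneg (S.sq_nonneg _ _) _)
        (Finset.mem_filter.2 ⟨Finset.mem_univ i, hi⟩))) _) (hS y hy δ₀)
    exact Real.rpow_pos_of_pos (pow_pos (norm_pos_iff.2 h0) 2) _
  set u : M → ℝ≥0∞ := fun x => ∑ g ∈ gens,
    ENNReal.ofReal (S.sq (g ^ N) x) * (ENNReal.ofReal (φ x ^ (1 + δ₀.1)))⁻¹ with hu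
  have hm : ∀ g : A, Measurable fun x =>
      ENNReal.ofReal (S.sq (g ^ N) x) * (ENNReal.ofReal (φ x ^ (1 + δ₀.1)))⁻¹ := fun g =>
    (hc.cont _).measurable.ennreal_ofReal.mul (hL δ₀).1.measurable.ennreal_ofReal.inv
  obtain ⟨U, hU, hB⟩ := cen_sum gens hm fun g hg => hc.cen_cancel hy0 (hI g hg y)
  obtain ⟨W, hW, hWo, hyW⟩ := mem_nhds_iff.1 hU
  replace hB : ∫⁻ x in W, u x ∂S.μ ≠ ⊤ := ne_top_of_le_ne_top hB (lintegral_mono_set hW)
  set K : ℝ := ((Fintype.card ι : ℝ) + 1) ^ (1 + δ₀.1) with hK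
  have hK0 : 0 < K := by positivity
  refine cen_rate (P := poly (fun i => S.sq (f i)) a) (η := δ₀.1 / 2)
    (C := (∫⁻ x in W, u x ∂S.μ).toReal * K) zero_le_one (half_pos hδ₀)
    (fun s t hst z hz i hi => (hz i hi).trans_le (Real.exp_le_exp.2 (by nlinarith)))
    ((hR y).2 fun δ hδ => hS y hy ⟨δ, hδ⟩) (hWo.mem_nhds hyW) fun t ht => ?_
  set L : ℝ := K * Real.exp (-(1 + δ₀.1 / 2) * t) with hLd
  have hL0 : 0 < L := by positivity
  have hsub : poly (fun i => S.sq (f i)) a t \ poly (fun i : ι ⊕ gens =>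
      S.sq (Sum.elim f (fun g => (g : A)) i)) (Sum.elim a fun _ => δ₀.1 / (2 * N)) t ⊆
      {z | (ENNReal.ofReal L)⁻¹ ≤ u z} := by
    rintro z ⟨h1, h2⟩
    obtain ⟨g, hg⟩ : ∃ g : gens, Real.exp (-(δ₀.1 / (2 * N)) * t) ≤ S.sq g z := by
      by_contra h3
      push Not at h3
      exact h2 fun i hi => by
        rcases i with i | g
        exacts [h1 i hi, h3 g]
    refine le_trans ?_ (Finset.single_le_sum (f := fun g => ENNReal.ofReal (S.sq (g ^ N) z) *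
      (ENNReal.ofReal (φ z ^ (1 + δ₀.1)))⁻¹) (fun _ _ => zero_le) g.2)
    have a1 : Real.exp (-(δ₀.1 / 2) * t) ≤ S.sq ((g : A) ^ N) z := by
      have e : S.sq ((g : A) ^ N) z = S.sq g z ^ N := by
        simp only [Aff.sq, map_pow, norm_pow, ← pow_mul, mul_comm]
      rw [e]
      refine le_trans (le_of_eq ?_) (pow_le_pow_left₀ (Real.exp_pos _).le hg N)
      rw [← Real.exp_nat_mul]
      congr 1
      field_simp
    have a2 : φ z ≤ ((Fintype.card ι : ℝ) + 1) * Real.exp (-t) := by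
      refine (Finset.sum_le_card_nsmul _ _ (Real.exp (-t)) fun i hi => ?_).trans ?_
      · have hi' := (Finset.mem_filter.1 hi).2
        refine (Real.rpow_le_rpow (S.sq_nonneg _ _) (h1 i hi').le (inv_pos.2 hi').le).trans
          (le_of_eq ?_)
        rw [← Real.exp_mul]
        congr 1
        field_simp
      · rw [nsmul_eq_mul]
        refine mul_le_mul_of_nonneg_right ?_ (Real.exp_pos _).le
        exact le_add_of_le_of_nonneg (Nat.cast_le.2 (Finset.card_le_univ _)) zero_le_one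
    have a3 : φ z ^ (1 + δ₀.1) ≤ Real.exp (-(δ₀.1 / 2) * t) * L := by
      refine (Real.rpow_le_rpow (hφ0 z) a2 (by positivity)).trans (le_of_eq ?_)
      rw [Real.mul_rpow (by positivity) (Real.exp_pos _).le, hLd, mul_left_comm, ← Real.exp_add,
        ← Real.exp_mul]
      congr 2
      ring
    have h5 : ENNReal.ofReal (Real.exp (-(δ₀.1 / 2) * t)) ≠ 0 :=
      (ENNReal.ofReal_pos.2 (Real.exp_pos _)).ne'
    refine le_trans (le_of_eq ?_) (mul_le_mul' (ENNReal.ofReal_le_ofReal a1)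
      (ENNReal.inv_le_inv.2 (ENNReal.ofReal_le_ofReal a3)))
    rw [ENNReal.ofReal_mul (Real.exp_pos _).le, ENNReal.mul_inv (Or.inl h5)
      (Or.inl ENNReal.ofReal_ne_top), ← mul_assoc, ENNReal.mul_inv_cancel h5 ENNReal.ofReal_ne_top,
      one_mul]
  refine (measure_mono (inter_subset_inter_left _ hsub)).trans ?_
  rw [← Measure.restrict_apply' hWo.measurableSet]
  refine (meas_ge_le_lintegral_div (Finset.measurable_sum _ fun g _ => hm g).aemeasurable
    (ENNReal.inv_ne_zero.2 ENNReal.ofReal_ne_top)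
    (ENNReal.inv_ne_top.2 (ENNReal.ofReal_pos.2 hL0).ne')).trans (le_of_eq ?_)
  rw [div_eq_mul_inv, inv_inv, mul_assoc, ENNReal.ofReal_mul ENNReal.toReal_nonneg,
    ENNReal.ofReal_toReal hB]

end Crest.Agent.R271
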