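import Crest.Agent.R271.St.CenA

/-!
# Row 271, block St: the quasi-valuation generated by a polyhedron
-/

set_option autoImplicit false
set_option linter.unusedSectionVars false

open MeasureTheory Filter Topology Set
open scoped ENNReal

noncomputable section

namespace Crest.Agent.R271

variable {n : ℕ} {M : Type} [TopologicalSpace M] [T2Space M] [SecondCountableTopology M]
  [MeasurableSpace M] [BorelSpace M] {A : Type} [CommRing A] [IsDomain A] [Algebra ℂ A]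
  {S : Setup n M A}

/-- `I t = span {∏ f i ^ k i | t ≤ ∑ k i a i, k i = 0 unless a i > 0}`, `ν g = ⨆ {ofReal t | ∃ h ∉ 𝔭, h g ∈ I t}`.
The set `Γ = {∑ k i a i}` has finitely many elements below any bound, `I t = I (min {γ ∈ Γ | t ≤ γ})`, so finite values are in `Γ` and
attained.  `rate`: on the polyhedra of `(f, a)` elements of `I t` are `t`-small (`sml_prod_pow`, `Ultra.span`), `sml_of_mul`,
`rate_of_small` at points with `∏ h i ≠ 0`, then `dens_rate`. -/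
theorem Cx.cenB (hc : Cx S) {ι : Type} [Fintype ι] (f : ι → A) (a : ι → ℝ) {𝔭 : Ideal A}
    (h𝔭 : 𝔭.IsPrime) (hf : ∀ i, 0 < a i → f i ∈ 𝔭)
    (hg : 𝔭 ≤ Ideal.span {g | ∃ i, 0 < a i ∧ g = f i})
    (H : ∀ y ∈ S.V 𝔭, S.Rate (fun i => S.sq (f i)) a y 1) :
    ∃ ν, QV S 𝔭 ν ∧ ∀ i, vle ν (f i) (a i) := by
  classical
  let w : (ι → ℕ) → ℝ := fun k => ∑ i, k i * a i
  let ok : (ι → ℕ) → Prop := fun k => ∀ i, k i ≠ 0 → 0 < a i
  let I : ℝ → Ideal A := fun t => Ideal.span {g | ∃ k, ok k ∧ t ≤ w k ∧ g = ∏ i, f i ^ k i}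
  let J : ℝ → A → Prop := fun t g => ∃ h ∉ 𝔭, h * g ∈ I t
  let ν : A → ℝ≥0∞ := fun g => ⨆ t, ⨆ _ : 0 ≤ t ∧ J t g, ENNReal.ofReal t
  have h1 : (1 : A) ∉ 𝔭 := h𝔭.one_notMem
  have fin : ∀ T, {k | ok k ∧ w k ≤ T}.Finite := fun T =>
    (Finite.pi' fun i => finite_Iic ⌈T / a i⌉₊).subset fun k hk i => by
      by_cases h : k i = 0
      · simp [h]
      refine Nat.cast_le.1 (((le_div_iff₀ (hk.1 i h)).2 (le_trans ?_ hk.2)).trans (Nat.le_ceil _))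
      refine Finset.single_le_sum (f := fun i => k i * a i) (fun j _ => ?_) (Finset.mem_univ i)
      by_cases hj : k j = 0
      · simp [hj]
      · exact mul_nonneg (Nat.cast_nonneg _) (hk.1 j hj).le
  have gap : ∀ {s t g}, (∀ k, ok k → s ≤ w k → t ≤ w k) → J s g → J t g := fun h ⟨u, hu, hg⟩ =>
    ⟨u, hu, Ideal.span_mono (by exact fun _ ⟨k, h1, h2, h3⟩ => ⟨k, h1, h k h1 h2, h3⟩) hg⟩
  have J0 : ∀ g, J 0 g := fun g => ⟨1, h1, Ideal.mul_mem_right _ _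
    (Ideal.subset_span ⟨0, fun _ h => absurd rfl h, by simp [w], by simp⟩)⟩
  have key : ∀ t g, ENNReal.ofReal t ≤ ν g ↔ J t g := fun t g => by
    rcases le_or_gt t 0 with ht | ht
    · exact iff_of_true (by simp [ENNReal.ofReal_of_nonpos ht]) (gap (fun _ _ => ht.trans) (J0 g))
    refine ⟨fun h => ?_, fun h => le_iSup₂_of_le t ⟨ht.le, h⟩ le_rfl⟩
    obtain ⟨s, hs, hs'⟩ := (((eventually_all_finite (fin t) (p := fun k s => w k < t → w k < s)).2 fun k _ =>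
      eventually_imp_distrib_left.2 fun hk => (eventually_gt_nhds hk).filter_mono nhdsWithin_le_nhds).and
      (self_mem_nhdsWithin (s := Iio t))).exists
    obtain ⟨s', h2⟩ := lt_iSup_iff.1 (((ENNReal.ofReal_lt_ofReal_iff ht).2 hs').trans_le h)
    obtain ⟨h3, h4⟩ := lt_iSup_iff.1 h2
    exact gap (fun k hk h5 => not_lt.1 fun h6 => (hs k ⟨hk, h6.le⟩ h6).not_ge
      (((ENNReal.ofReal_lt_ofReal_iff'.1 h4).1.le).trans h5)) h3.2
  have hI : ∀ i, 0 < a i → ∀ t ≤ a i, f i ∈ I t := fun i hi t ht => Ideal.subset_span ⟨Pi.single i 1,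
    fun j hj => by_contra fun h => hj (Pi.single_eq_of_ne (fun e : j = i => h (e ▸ hi)) _),
    by simpa [w, Pi.single_apply] using ht, by simp [Pi.single_apply]⟩
  refine ⟨ν, ⟨h𝔭, fun u v => ENNReal.le_of_forall_nnreal_lt fun r hr => ?_, fun u v => ?_,
    ENNReal.eq_top_of_forall_nnreal_le fun r => ?_, fun h u hh => iSup₂_le fun t ⟨_, h', h2, h3⟩ => (key _ _).2
      ⟨h' * h, fun h4 => (h𝔭.mem_or_mem h4).elim h2 hh, mul_assoc h' h u ▸ h3⟩, fun u => ⟨fun hu => ?_, fun hu => ?_⟩,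
    fun T => ((fin (max T 0)).image fun k => ENNReal.ofReal (w k)).subset ?_, fun y hy κ _ g b hb => ?_⟩, fun i => ?_⟩
  · rw [← ENNReal.ofReal_coe_nnreal] at hr ⊢
    obtain ⟨h, h2, h3⟩ := (key _ _).1 (hr.le.trans (min_le_left _ _))
    obtain ⟨h', h4, h5⟩ := (key _ _).1 (hr.le.trans (min_le_right _ _))
    exact (key _ _).2 ⟨h * h', fun h6 => (h𝔭.mem_or_mem h6).elim h2 h4,
      (show h' * (h * u) + h * (h' * v) = h * h' * (u + v) by ring) ▸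
        add_mem (Ideal.mul_mem_left _ _ h3) (Ideal.mul_mem_left _ _ h5)⟩
  · refine ENNReal.biSup_add_biSup_le' ⟨0, le_rfl, J0 u⟩ ⟨0, le_rfl, J0 v⟩
      fun s ⟨hs, h, h2, h3⟩ t ⟨ht, h', h4, h5⟩ => ?_
    rw [← ENNReal.ofReal_add hs ht, key]
    refine ⟨h * h', fun h6 => (h𝔭.mem_or_mem h6).elim h2 h4, mul_mul_mul_comm h u h' v ▸
      (?_ : I s * I t ≤ I (s + t)) (Ideal.mul_mem_mul h3 h5)⟩
    rw [Ideal.span_mul_span']
    refine Ideal.span_mono ?_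
    rintro _ ⟨_, ⟨k, k1, k2, rfl⟩, _, ⟨l, l1, l2, rfl⟩, rfl⟩
    exact ⟨k + l, fun i hi => (em (k i = 0)).elim (fun h => l1 i (by simpa [h] using hi)) (k1 i),
      (add_le_add k2 l2).trans_eq (by simp [w, add_mul, Finset.sum_add_distrib]),
      by simp [pow_add, Finset.prod_mul_distrib]⟩
  · exact ENNReal.ofReal_coe_nnreal ▸ (key _ _).2 ⟨1, h1, by simp⟩
  · obtain ⟨t, h2⟩ := lt_iSup_iff.1 hu
    obtain ⟨⟨-, h, h3, h4⟩, h5⟩ := lt_iSup_iff.1 h2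
    refine (h𝔭.mem_or_mem ((Ideal.span_le.2 ?_ : I t ≤ 𝔭) h4)).resolve_left h3
    rintro _ ⟨k, k1, k2, rfl⟩
    obtain ⟨i, -, hi⟩ := Finset.exists_ne_zero_of_sum_ne_zero ((ENNReal.ofReal_pos.1 h5).trans_le k2).ne'
    have hk : k i ≠ 0 := Nat.cast_ne_zero.1 (left_ne_zero_of_mul hi)
    exact Ideal.prod_mem _ (Finset.mem_univ i) (Ideal.pow_mem_of_mem _ (hf i (k1 i hk)) _ (Nat.pos_of_ne_zero hk))
  · obtain ⟨t, h2, h3⟩ := ((eventually_all.2 fun i => eventually_imp_distrib_left.2 fun hi : 0 < a i =>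
      (eventually_le_nhds hi).filter_mono nhdsWithin_le_nhds).and (self_mem_nhdsWithin (s := Ioi 0))).exists
    refine (ENNReal.ofReal_pos.2 h3).trans_le ((key _ _).2 ⟨1, h1, Ideal.mul_mem_left _ _
      ((Ideal.span_le.2 ?_ : _ ≤ I t) (hg hu))⟩)
    rintro _ ⟨i, hi, rfl⟩
    exact hI i hi t (h2 i hi)
  · rintro _ ⟨⟨u, rfl⟩, hu⟩
    have h2 := ENNReal.ofReal_toReal (ne_top_of_le_ne_top ENNReal.ofReal_ne_top hu)
    set t := (ν u).toReal
    by_contra h3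
    obtain ⟨s, ⟨h4, h5⟩, h6⟩ := ((((eventually_all_finite (fin (t + 1)) (p := fun k s => t < w k → s ≤ w k)).2
      fun k _ => eventually_imp_distrib_left.2 fun hk => (eventually_le_nhds hk).filter_mono nhdsWithin_le_nhds).and
      ((eventually_le_nhds (lt_add_one t)).filter_mono nhdsWithin_le_nhds)).and
      (self_mem_nhdsWithin (s := Ioi t))).exists
    refine ((key s u).2 (gap (fun k hk h7 => ?_) ((key t u).1 h2.le))).not_gt
      (h2 ▸ (ENNReal.ofReal_lt_ofReal_iff_of_nonneg ENNReal.toReal_nonneg).2 h6)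
    refine (le_total (w k) (t + 1)).elim (fun h8 => h4 k ⟨hk, h8⟩ (h7.lt_of_ne fun h9 => h3 ⟨k, ⟨hk, ?_⟩, ?_⟩)) h5.trans
    · exact h9 ▸ (ENNReal.toReal_le_of_le_ofReal (le_max_right _ _)
        (hu.trans (ENNReal.ofReal_le_ofReal (le_max_left _ _))))
    · exact (congrArg _ h9).symm.trans h2
  · choose h h2 h3 using fun i => (key _ _).1 (hb i)
    refine hc.dens_rate h𝔭 (h := ∏ i, h i) (fun h4 => ?_) g b zero_le_one (fun y hy h4 => ?_) y hy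
    · obtain ⟨i, -, hi⟩ := Ideal.IsPrime.prod_mem_iff.1 h4
      exact h2 i hi
    rw [map_prod] at h4
    refine rate_of_small _ (H y hy) fun i => hc.sml_of_mul (Finset.prod_ne_zero_iff.1 h4 i (Finset.mem_univ i))
      ((hc.ultra _ y).span ?_ (h3 i))
    rintro _ ⟨k, -, k2, rfl⟩
    exact (hc.ultra _ y).mono (hc.sml_prod_pow f a k (hc.sml_poly f a y)) k2
  · rcases le_or_gt (a i) 0 with h | h
    · exact (key _ _).2 (gap (fun _ _ => h.trans) (J0 _))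
    · exact (key _ _).2 ⟨1, h1, Ideal.mul_mem_left _ _ (hI i h _ le_rfl)⟩

/-- `rate_of_small`, `rate_scale`, `cenA`, `cenB` -/
theorem Cx.cen (hc : Cx S) {P : ℝ → Set M} {x : M} {α : ℝ} (hα : 0 < α) (hP : S.RateS P x α)
    (D : Finset (A × ℝ)) (hD : ∀ q ∈ D, S.sml P x q.1 q.2) :
    ∃ (𝔭 : Ideal A) (ν : A → ℝ≥0∞), QV S 𝔭 ν ∧ x ∈ S.V 𝔭 ∧ ∀ q ∈ D, vle ν q.1 (q.2 / α) := by
  have h1 := rate_scale _ (inv_pos.2 hα) (rate_of_small (ι := D) _ hP fun q => hD q.1 q.2)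
  rw [inv_mul_cancel₀ hα.ne'] at h1
  obtain ⟨𝔭, gens, κ₀, h𝔭, hx, h2, h3, h4, h5⟩ := hc.cenA (fun q : D => q.1.1) _ x h1
  obtain ⟨ν, h6, h7⟩ := hc.cenB _ _ h𝔭 (Sum.rec h2 fun g _ => h3 ▸ Ideal.subset_span g.2)
    (h3 ▸ Ideal.span_mono fun g hg => ⟨.inr ⟨g, hg⟩, h4, rfl⟩) h5
  exact ⟨𝔭, ν, h6, hx, fun q hq => div_eq_inv_mul q.2 α ▸ h7 (.inl ⟨q, hq⟩)⟩

end Crest.Agent.R271
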