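import Crest.Agent.R271.St.Defs

/-!
# Row 271, block St: the Brunn-Minkowski chain, `bm_chain`
-/

set_option autoImplicit false
set_option linter.unusedSectionVars false

noncomputable section

namespace Crest.Agent.R271

/-- the convexity step -/
theorem bm_conv {d : ℕ} (hd : 0 < d) {N N' s : ℝ} (hN : 0 ≤ N) (hN' : 0 ≤ N') (hs : 0 ≤ s)
    (h : ((d.factorial : ℝ) * N) ^ (d : ℝ)⁻¹ + s ≤ ((d.factorial : ℝ) * N') ^ (d : ℝ)⁻¹) :
    (d : ℝ) / (d + 1) * ((d.factorial : ℝ) * N) ^ (d : ℝ)⁻¹ * N + d * N * s ≤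
      (d : ℝ) / (d + 1) * ((d.factorial : ℝ) * N') ^ (d : ℝ)⁻¹ * N' := by
  have hf : (0 : ℝ) < d.factorial := by exact_mod_cast d.factorial_pos
  have ha := Real.rpow_inv_natCast_pow (mul_nonneg hf.le hN) hd.ne'
  have hb := Real.rpow_inv_natCast_pow (mul_nonneg hf.le hN') hd.ne'
  have ha0 : 0 ≤ ((d.factorial : ℝ) * N) ^ (d : ℝ)⁻¹ := by positivity
  set a := ((d.factorial : ℝ) * N) ^ (d : ℝ)⁻¹
  set b := ((d.factorial : ℝ) * N') ^ (d : ℝ)⁻¹
  have h1 : a ^ (d + 1) + (d + 1 : ℕ) * a ^ (d + 1 - 1) * s ≤ (a + s) ^ (d + 1) :=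
    pow_add_mul_le_add_pow ha0 (by positivity) _
  have h2 : (a + s) ^ (d + 1) ≤ b ^ (d + 1) := pow_le_pow_left₀ (by positivity) h _
  rw [Nat.add_sub_cancel, pow_succ, ha] at h1
  rw [pow_succ b, hb] at h2
  have h3 : a * N + (d + 1) * N * s ≤ b * N' := by
    refine le_of_mul_le_mul_left ?_ hf
    push_cast at h1
    nlinarith
  have hd1 : (0 : ℝ) < d + 1 := by positivity
  calc (d : ℝ) / (d + 1) * a * N + d * N * s = d / (d + 1) * (a * N + (d + 1) * N * s) := by
        field_simp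
    _ ≤ d / (d + 1) * (b * N') := mul_le_mul_of_nonneg_left h3 (by positivity)
    _ = _ := by ring

theorem bm_chain' (hbm : StBM) (hdeg : StDeg) {d : ℕ} (hd : 0 < d) (P : ℕ → Finset (Fin d →₀ ℕ))
    (B : Finset (Fin d →₀ ℕ)) (hB : B.Nonempty) {k m R : ℕ} (hk : 0 < k) {q : ℝ} (hq : 0 ≤ q)
    (hqB : (q * k) ^ d ≤ d.factorial * B.card) (hmono : ∀ l l', l ≤ l' → l' ≤ m → P l ⊆ P l')
    (hstep : ∀ l, l + k ≤ m → ∀ u ∈ P l, ∀ v ∈ B, ∀ e : Fin d →₀ ℕ, (∀ i, e i ≤ 1) →
      u + v + e ∈ P (l + k)) (hR : (P m).card ≤ R) :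
    q * d * ∑ l ∈ Finset.range (m + 1 - k), ((P l).card : ℝ) - d * (P m).card ≤
      ∑ u ∈ P m, (min u.degree R : ℝ) := by
  have hf : (0 : ℝ) < d.factorial := by exact_mod_cast d.factorial_pos
  have hqk : 0 ≤ q * k := by positivity
  have hB1 : q * k ≤ ((d.factorial : ℝ) * B.card) ^ (d : ℝ)⁻¹ := by
    rw [← Real.pow_rpow_inv_natCast hqk hd.ne']
    exact Real.rpow_le_rpow (by positivity) hqB (by positivity)
  have step : ∀ l, l + k ≤ m →
      (d : ℝ) / (d + 1) * ((d.factorial : ℝ) * (P l).card) ^ (d : ℝ)⁻¹ * (P l).card +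
        d * (P l).card * (q * k) ≤
      (d : ℝ) / (d + 1) * ((d.factorial : ℝ) * (P (l + k)).card) ^ (d : ℝ)⁻¹ * (P (l + k)).card := by
    intro l hl
    rcases (P l).eq_empty_or_nonempty with h | h
    · rw [h]; simp only [Finset.card_empty, Nat.cast_zero, mul_zero, zero_mul, add_zero]; positivity
    · refine bm_conv hd (by positivity) (by positivity) hqk ?_
      have := hbm d hd (P l) B (P (l + k)) h hB (hstep l hl)
      rw [Real.mul_rpow hf.le (by positivity)] at hB1 ⊢
      rw [Real.mul_rpow hf.le (by positivity)]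
      have h2 := mul_le_mul_of_nonneg_left this (Real.rpow_nonneg hf.le (d : ℝ)⁻¹)
      linarith
  have main : ∀ l, l ≤ m → q * d * ∑ j ∈ Finset.range (l + 1 - k), ((P j).card : ℝ) ≤
      (d : ℝ) / (d + 1) * ((d.factorial : ℝ) * (P l).card) ^ (d : ℝ)⁻¹ * (P l).card := by
    intro l
    induction l using Nat.strong_induction_on with
    | _ l ih =>
      intro hl
      rcases lt_or_ge l k with h | h
      · rw [show l + 1 - k = 0 by omega, Finset.sum_range_zero, mul_zero]; positivity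
      · obtain ⟨l', rfl⟩ := Nat.exists_eq_add_of_le' h
        have h1 := ih l' (by omega) (by omega)
        have h2 := step l' hl
        have h3 : ∑ j ∈ Finset.range (l' + k + 1 - k), ((P j).card : ℝ) ≤
            ∑ j ∈ Finset.range (l' + 1 - k), ((P j).card : ℝ) + k * (P l').card := by
          rw [show l' + k + 1 - k = l' + 1 by omega,
            ← Finset.sum_range_add_sum_Ico _ (show l' + 1 - k ≤ l' + 1 by omega)]
          gcongr
          calc ∑ j ∈ Finset.Ico (l' + 1 - k) (l' + 1), ((P j).card : ℝ)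
              ≤ (Finset.Ico (l' + 1 - k) (l' + 1)).card • ((P l').card : ℝ) :=
                Finset.sum_le_card_nsmul _ _ _ fun j hj => by
                  have := Finset.mem_Ico.1 hj
                  exact_mod_cast Finset.card_le_card (hmono j l' (by omega) (by omega))
            _ ≤ k * (P l').card := by
                rw [nsmul_eq_mul]
                gcongr
                rw [Nat.card_Ico]; omega
        have h4 := mul_le_mul_of_nonneg_left h3 (show 0 ≤ q * d by positivity)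
        nlinarith
  have := hdeg d hd (P m) R hR
  linarith [main m le_rfl]

end Crest.Agent.R271
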