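import Crest.Agent.R271.St.Defs

/-!
# Row 271, block St: the combinatorial gain (`gain_comb`)
-/

set_option autoImplicit false
set_option linter.unusedSectionVars false

noncomputable section

namespace Crest.Agent.R271

/-- tangent line of `N ↦ n / (n + 1) (n! N) ^ (1 / n) N` -/
theorem gc_tangent {n : ℕ} (hn : 0 < n) {N t : ℝ} (hN : 0 ≤ N) (ht : 0 ≤ t) :
    t * N - t * (t ^ n / n.factorial) / (n + 1) ≤
      (n : ℝ) / (n + 1) * ((n.factorial : ℝ) * N) ^ (n : ℝ)⁻¹ * N := by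
  have hf : (0 : ℝ) < n.factorial := by exact_mod_cast n.factorial_pos
  set u : ℝ := ((n.factorial : ℝ) * N) ^ (n : ℝ)⁻¹ with hu
  have hu0 : 0 ≤ u := Real.rpow_nonneg (by positivity) _
  have hun : u ^ n = n.factorial * N := Real.rpow_inv_natCast_pow (by positivity) hn.ne'
  have h := pow_add_mul_le_add_pow (a := u) (b := t - u) hu0 (by linarith) (n + 1)
  rw [add_sub_cancel, Nat.add_sub_cancel, pow_succ, pow_succ, hun] at h
  push_cast at h
  have hn1 : (0 : ℝ) < n + 1 := by positivity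
  rw [div_mul_eq_mul_div, div_mul_eq_mul_div, sub_le_iff_le_add, ← add_div, le_div_iff₀ hn1]
  have e : t * (t ^ n / n.factorial) = t ^ n * t / n.factorial := by ring
  rw [e, ← sub_le_iff_le_add', le_div_iff₀ hf]
  nlinarith [h]

/-- a cube of lattice points shifted in the direction `i₀` -/
theorem gc_cube {n : ℕ} (i₀ : Fin n) (h A : ℕ) : ∃ E : Finset (Fin n →₀ ℕ), E.card = h ^ n ∧
    ∀ γ ∈ E, A ≤ γ i₀ ∧ γ.degree ≤ A + n * h ∧ γ.degree ≤ γ i₀ + n * h := by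
  classical
  refine ⟨(Fintype.piFinset fun _ : Fin n => Finset.range h).map
    ⟨fun f => Finsupp.equivFunOnFinite.symm f + Finsupp.single i₀ A, fun f g hfg =>
      Finsupp.equivFunOnFinite.symm.injective (add_right_cancel hfg)⟩, ?_, fun γ hγ => ?_⟩
  · rw [Finset.card_map, Fintype.card_piFinset_const, Finset.card_range]
  · obtain ⟨f, hf, rfl⟩ := Finset.mem_map.1 hγ
    have h1 : ∑ i, f i ≤ n * h := by
      have := Finset.sum_le_card_nsmul Finset.univ f h fun i _ =>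
        (Finset.mem_range.1 (Fintype.mem_piFinset.1 hf i)).le
      simpa using this
    have h2 : (Finsupp.equivFunOnFinite.symm f + Finsupp.single i₀ A).degree = ∑ i, f i + A := by
      rw [map_add, Finsupp.degree_single, Finsupp.degree_eq_sum]
      rfl
    have h3 : (Finsupp.equivFunOnFinite.symm f + Finsupp.single i₀ A) i₀ = f i₀ + A := by simp
    simp only [Function.Embedding.coeFn_mk, h2, h3]
    omega

theorem gain_comb' (hdeg : StDeg) {n : ℕ} (i₀ : Fin n) {κ a Cu : ℝ} (ha : 0 < a) (haκ : a < κ)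
    (e : ℕ) : ∃ γ₀ ε : ℝ, 0 < γ₀ ∧ γ₀ < 1 ∧ 0 < ε ∧ ∃ l₀ : ℕ, ∀ l ≥ l₀,
      ∀ P : Finset (Fin n →₀ ℕ), (1 - ε) * (κ * l) ^ n / n.factorial ≤ P.card →
        (P.card : ℝ) ≤ Cu * (l : ℝ) ^ n →
        (∀ γ ∈ P, (γ i₀ : ℝ) < a * (l + e * ((γ.degree : ℝ) - γ i₀))) →
        n * κ * (l * P.card) ≤ (n + 1 - γ₀) * ∑ γ ∈ P, (γ.degree : ℝ) := by
  classical
  have hn : 0 < n := i₀.pos
  have hn1 : (1 : ℝ) ≤ n := by exact_mod_cast hn
  have hκ : 0 < κ := ha.trans haκ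
  obtain ⟨g, hg⟩ : ∃ g : ℝ, g = (κ - a) / 2 := ⟨_, rfl⟩
  have hg0 : 0 < g := by rw [hg]; linarith
  have hD : 0 < a * e * n + n := by positivity
  obtain ⟨β, hβ⟩ : ∃ β : ℝ, β = g / (a * e * n + n) := ⟨_, rfl⟩
  have hβ0 : 0 < β := by rw [hβ]; positivity
  have hβD : (a * e * n + n) * β = g := by rw [hβ]; field_simp
  obtain ⟨C, hC0, hC⟩ : ∃ C : ℝ, 0 < C ∧ Cu ≤ C := ⟨max Cu 1, by positivity, le_max_left _ _⟩
  obtain ⟨η, hη⟩ : ∃ η : ℝ, η = g / 2 * (β / 2) ^ n / C / 3 := ⟨_, rfl⟩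
  have hη0 : 0 < η := by rw [hη]; positivity
  obtain ⟨ε, hε0, hε1, hε2, hε3⟩ : ∃ ε : ℝ, 0 < ε ∧ ε ≤ 1 ∧ ε * κ ≤ g / 4 ∧ ε * κ ≤ η := by
    refine ⟨min 1 (min (g / 4) η / κ), by positivity, min_le_left _ _, ?_, ?_⟩
    · exact (le_div_iff₀ hκ).1 ((min_le_right _ _).trans (by gcongr; exact min_le_left _ _))
    · exact (le_div_iff₀ hκ).1 ((min_le_right _ _).trans (by gcongr; exact min_le_right _ _))
  refine ⟨η / (κ + η), ε, by positivity, by rw [div_lt_one (by positivity)]; linarith, hε0,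
    ⌈2 / β + 4 * (n + 1) / g + n / η⌉₊, fun l hl P h1 h2 h3 => ?_⟩
  have hl' : 2 / β + 4 * (n + 1) / g + n / η ≤ l := Nat.ceil_le.1 hl
  have p1 : (0 : ℝ) ≤ 2 / β := by positivity
  have p2 : (0 : ℝ) ≤ 4 * (n + 1) / g := by positivity
  have p3 : (0 : ℝ) ≤ n / η := by positivity
  have l1 : 2 ≤ l * β := (div_le_iff₀ hβ0).1 (by linarith)
  have l2 : 4 * (n + 1) ≤ l * g := (div_le_iff₀ hg0).1 (by linarith)
  have l3 : n ≤ l * η := (div_le_iff₀ hη0).1 (by linarith)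
  have hl0 : (0 : ℝ) ≤ l := Nat.cast_nonneg l
  obtain ⟨h, hh1, hh2⟩ : ∃ h : ℕ, (h : ℝ) ≤ l * β ∧ β / 2 * l ≤ h :=
    ⟨⌊l * β⌋₊, Nat.floor_le (by positivity), by have := Nat.lt_floor_add_one (l * β); linarith⟩
  obtain ⟨A, hA1, hA2⟩ : ∃ A : ℕ, a * (l + e * (n * h)) ≤ A ∧ (A : ℝ) ≤ a * (l + e * (n * h)) + 1 :=
    ⟨⌈a * (l + e * (n * h))⌉₊, Nat.le_ceil _, (Nat.ceil_lt_add_one (by positivity)).le⟩
  obtain ⟨E, hE, hE'⟩ := gc_cube i₀ h A
  have hdis : Disjoint P E := by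
    refine Finset.disjoint_left.2 fun γ hP hγ => ?_
    obtain ⟨e1, -, e3⟩ := hE' γ hγ
    have e1' : (A : ℝ) ≤ γ i₀ := by exact_mod_cast e1
    have e3' : (γ.degree : ℝ) ≤ γ i₀ + n * h := by exact_mod_cast e3
    have : a * (l + e * ((γ.degree : ℝ) - γ i₀)) ≤ a * (l + e * (n * h)) := by
      gcongr
      linarith
    linarith [h3 γ hP]
  have hEdeg : ∑ γ ∈ E, (γ.degree : ℝ) ≤ E.card * ((κ - g) * l + 1) := by
    rw [← nsmul_eq_mul]
    refine Finset.sum_le_card_nsmul _ _ _ fun γ hγ => ?_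
    have e2 : (γ.degree : ℝ) ≤ A + n * h := by exact_mod_cast (hE' γ hγ).2.1
    have e4 : (a * e * n + n) * h ≤ (a * e * n + n) * (l * β) := by gcongr
    have e5 : (a * e * n + n) * (l * β) = g * l := by rw [← hβD]; ring
    have e6 : κ - g = a + g := by rw [hg]; ring
    rw [e6]
    nlinarith
  obtain ⟨t, ht⟩ : ∃ t : ℝ, t = (1 - ε) * (κ * l) := ⟨_, rfl⟩
  have ht0 : 0 ≤ t := by rw [ht]; have := sub_nonneg.2 hε1; positivity
  have htn : t ^ n / n.factorial ≤ P.card := by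
    refine le_trans ?_ h1
    rw [ht, mul_pow]
    gcongr
    exact pow_le_of_le_one (sub_nonneg.2 hε1) (by linarith) hn.ne'
  have k1 := hdeg n hn (P ∪ E) _ le_rfl
  have k2 := gc_tangent hn (N := ((P ∪ E).card : ℝ)) (Nat.cast_nonneg _) ht0
  have k3 : ∑ u ∈ P ∪ E, (min u.degree (P ∪ E).card : ℝ) ≤
      ∑ γ ∈ P, (γ.degree : ℝ) + ∑ γ ∈ E, (γ.degree : ℝ) := by
    rw [← Finset.sum_union hdis]
    exact Finset.sum_le_sum fun u _ => min_le_left _ _
  rw [Finset.card_union_of_disjoint hdis] at k1 k2 k3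
  push_cast at k1 k2 k3
  have hN0 : (0 : ℝ) ≤ P.card := Nat.cast_nonneg _
  have hM0 : (0 : ℝ) ≤ E.card := Nat.cast_nonneg _
  have hM : 3 * η * P.card ≤ g / 2 * E.card := by
    have e1 : (β / 2) ^ n * (l : ℝ) ^ n ≤ E.card := by
      rw [hE, ← mul_pow]
      push_cast
      gcongr
    have e2 : (P.card : ℝ) / C ≤ (l : ℝ) ^ n := by
      rw [div_le_iff₀' hC0]
      exact h2.trans (by gcongr)
    calc 3 * η * P.card = g / 2 * ((β / 2) ^ n * (P.card / C)) := by rw [hη]; ring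
      _ ≤ g / 2 * ((β / 2) ^ n * (l : ℝ) ^ n) := by gcongr
      _ ≤ g / 2 * E.card := by gcongr
  generalize (P.card : ℝ) = N at *
  generalize (E.card : ℝ) = M at *
  generalize ∑ γ ∈ P, (γ.degree : ℝ) = S at *
  have hn2 : (0 : ℝ) < n + 1 := by positivity
  have k4 : t * (t ^ n / n.factorial) / (n + 1) ≤ t * N / (n + 1) := by gcongr
  obtain ⟨r, hr⟩ : ∃ r : ℝ, r = n / (n + 1) := ⟨_, rfl⟩
  have hr1 : r ≤ 1 := by rw [hr, div_le_one hn2]; linarith
  have hr0 : 0 ≤ r := by rw [hr]; positivity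
  have hr2 : (n + 1) * r = n := by rw [hr]; field_simp
  have k5 : t * N / (n + 1) = t * N - r * t * N := by rw [hr]; field_simp; ring
  have k6 : r * t * N + t * M - n * (N + M) - M * ((κ - g) * l + 1) ≤ S := by linarith
  have k7 : g / 2 * M * l ≤ t * M - n * M - M * ((κ - g) * l + 1) := by
    have : g / 2 * l ≤ t - n - ((κ - g) * l + 1) := by
      have := mul_le_mul_of_nonneg_right hε2 hl0
      rw [ht]
      nlinarith
    nlinarith
  have k8 : r * κ * (l * N) - η * (l * N) ≤ r * t * N := by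
    have e1 : r * (ε * κ) ≤ η := by nlinarith [mul_nonneg hε0.le hκ.le]
    have e2 := mul_le_mul_of_nonneg_right e1 (mul_nonneg hl0 hN0)
    rw [ht]
    nlinarith
  have k9 : (r * κ + η) * (l * N) ≤ S := by
    have e1 := mul_le_mul_of_nonneg_right hM hl0
    have e2 := mul_le_mul_of_nonneg_right l3 hN0
    nlinarith
  have k10 : η / (κ + η) * (r * κ + η) ≤ η := by
    rw [div_mul_eq_mul_div, div_le_iff₀ (by positivity)]
    gcongr
    nlinarith
  have k11 : η / (κ + η) ≤ 1 := by rw [div_le_one (by positivity)]; linarith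
  calc n * κ * (l * N) ≤ (n + 1 - η / (κ + η)) * (r * κ + η) * (l * N) := by
        refine mul_le_mul_of_nonneg_right ?_ (mul_nonneg hl0 hN0)
        have : (n + 1) * r * κ = n * κ := by rw [hr2]
        nlinarith
    _ ≤ (n + 1 - η / (κ + η)) * S := by
        rw [mul_assoc]
        gcongr
        linarith

end Crest.Agent.R271
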