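import Crest.Agent.R271.St.Defs
import Crest.Agent.R271.St.Chain2
import Crest.Agent.R271.St.Chain1

/-!
# Row 271, block St: the Brunn-Minkowski chain
-/

set_option autoImplicit false
set_option linter.unusedSectionVars false

open MeasureTheory Filter Topology Set
open scoped ENNReal

noncomputable section

namespace Crest.Agent.R271

/-- Put `u l = (d! |P l|) ^ (1/d)`.  `StBM` (with `C = P (l + k)`) gives `u (l + k) ≥ u l + q k` if `P l ≠ ∅`.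
`Φ u = d / (d + 1) u ^ (d+1) / d!` is convex with `Φ' (u l) = d |P l|`, so `Φ (u (l + k)) ≥ Φ (u l) + d |P l| q k` (also if `P l = ∅`);
sum along `m - k, m - 2k, ...`, use monotonicity `k |P (m - r k)| ≥ ∑_{m - (r+1) k < l ≤ m - r k} |P l|`, and `StDeg`. -/
theorem bm_chain (hbm : StBM) (hdeg : StDeg) {d : ℕ} (hd : 0 < d) (P : ℕ → Finset (Fin d →₀ ℕ))
    (B : Finset (Fin d →₀ ℕ)) (hB : B.Nonempty) {k m R : ℕ} (hk : 0 < k) {q : ℝ} (hq : 0 ≤ q)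
    (hqB : (q * k) ^ d ≤ d.factorial * B.card) (hmono : ∀ l l', l ≤ l' → l' ≤ m → P l ⊆ P l')
    (hstep : ∀ l, l + k ≤ m → ∀ u ∈ P l, ∀ v ∈ B, ∀ e : Fin d →₀ ℕ, (∀ i, e i ≤ 1) →
      u + v + e ∈ P (l + k)) (hR : (P m).card ≤ R) :
    q * d * ∑ l ∈ Finset.range (m + 1 - k), ((P l).card : ℝ) - d * (P m).card ≤
      ∑ u ∈ P m, (min u.degree R : ℝ) :=
  bm_chain' hbm hdeg hd P B hB hk hq hqB hmono hstep hR

/-- `E = {γ | γ i ≤ b l / n (i ≠ i₀), a' l ≤ γ i₀ ≤ a'' l}` with `a (1 + e b) = a' < a''`, `a'' + b = κ' < κ` is disjoint from `P`,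
`|E| ≥ c l ^ n`.  Apply `StDeg` to `P ∪ E` (`R` = its cardinality): `Φ N = n/(n+1) (n! N)^(1/n) N` is convex with
`Φ' |P| = (n! |P|)^(1/n) ≥ (1 - ε) κ l`, so `∑_P deg ≥ Φ |P| + |E| ((1 - ε) κ - κ') l - n (|P| + |E|)`. -/
theorem gain_comb (hdeg : StDeg) {n : ℕ} (i₀ : Fin n) {κ a Cu : ℝ} (ha : 0 < a) (haκ : a < κ)
    (e : ℕ) : ∃ γ₀ ε : ℝ, 0 < γ₀ ∧ γ₀ < 1 ∧ 0 < ε ∧ ∃ l₀ : ℕ, ∀ l ≥ l₀,
      ∀ P : Finset (Fin n →₀ ℕ), (1 - ε) * (κ * l) ^ n / n.factorial ≤ P.card →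
        (P.card : ℝ) ≤ Cu * (l : ℝ) ^ n →
        (∀ γ ∈ P, (γ i₀ : ℝ) < a * (l + e * ((γ.degree : ℝ) - γ i₀))) →
        n * κ * (l * P.card) ≤ (n + 1 - γ₀) * ∑ γ ∈ P, (γ.degree : ℝ) :=
  gain_comb' hdeg i₀ ha haκ e

end Crest.Agent.R271
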