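import Crest.Agent.R271.St.Sml

/-!
# Row 271, block St: generic coordinates on the graded pieces of a quasi-valuation
-/

set_option autoImplicit false
set_option linter.unusedSectionVars false

open MeasureTheory Filter Topology Set
open scoped ENNReal

noncomputable section

namespace Crest.Agent.R271

variable {n : ℕ} {M : Type} [TopologicalSpace M] [T2Space M] [SecondCountableTopology M]
  [MeasurableSpace M] [BorelSpace M] {A : Type} [CommRing A] [IsDomain A] [Algebra ℂ A]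
  {S : Setup n M A}

theorem QV.le_mul' {𝔭 : Ideal A} {ν : A → ℝ≥0∞} (hν : QV S 𝔭 ν) (h f : A) : ν f ≤ ν (h * f) :=
  le_add_self.trans (hν.mul h f)

/-- the ideal `{a < ν}` -/
def QV.idGt {𝔭 : Ideal A} {ν : A → ℝ≥0∞} (hν : QV S 𝔭 ν) (a : ℝ≥0∞) (ha : a ≠ ⊤) : Ideal A where
  carrier := {f | a < ν f}
  add_mem' := fun {f g} hf hg => (lt_min hf hg).trans_le (hν.add f g)
  zero_mem' := by
    change a < ν 0
    rw [hν.zero]; exact ha.lt_top
  smul_mem' := fun c f hf => lt_of_lt_of_le hf (hν.le_mul' c f)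

/-- the subspace `{a ≤ ν}` -/
def QV.subGe {𝔭 : Ideal A} {ν : A → ℝ≥0∞} (hν : QV S 𝔭 ν) (a : ℝ≥0∞) : Submodule ℂ A where
  carrier := {f | a ≤ ν f}
  add_mem' := fun {f g} hf hg => (le_min hf hg).trans (hν.add f g)
  zero_mem' := by
    change a ≤ ν 0
    rw [hν.zero]; exact le_top
  smul_mem' := fun c f hf => by
    change a ≤ ν (c • f)
    rw [Algebra.smul_def]
    exact le_trans hf (hν.le_mul' _ f)

theorem QV.coord_fam {𝔭 : Ideal A} {ν : A → ℝ≥0∞} (hν : QV S 𝔭 ν) {q : ℕ} (e : Fin q → A)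
    (a : ℝ≥0∞) (ha : a ≠ ⊤) : ∃ (E : Finset (Fin q)) (h : A), h ∉ 𝔭 ∧ (∀ i ∈ E, a ≤ ν (e i)) ∧
      (∀ c : Fin q → A, (∀ i ∉ E, c i = 0) → a < ν (∑ i, c i * e i) → ∀ i, c i ∈ 𝔭) ∧
      ∀ f ∈ Submodule.span ℂ (e '' {j | a ≤ ν (e j)}), ∃ c : Fin q → A, (∀ i ∉ E, c i = 0) ∧
        a < ν (h * f - ∑ i, c i * e i) := by
  classical
  have hmem : ∀ f, f ∈ hν.idGt a ha ↔ a < ν f := fun f => Iff.rfl
  let P : Finset (Fin q) → Prop := fun E => (∀ i ∈ E, a ≤ ν (e i)) ∧
    ∀ c : Fin q → A, (∀ i ∉ E, c i = 0) → a < ν (∑ i, c i * e i) → ∀ i, c i ∈ 𝔭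
  have hP0 : P ∅ := ⟨by simp, fun c hc _ i => by rw [hc i (by simp)]; exact 𝔭.zero_mem⟩
  obtain ⟨E, hE, hmax⟩ := Finset.exists_max_image (Finset.univ.filter P) Finset.card
    ⟨∅, by simpa using hP0⟩
  have hPE : P E := (Finset.mem_filter.1 hE).2
  have hj : ∀ j, ∃ h : A, h ∉ 𝔭 ∧ (a ≤ ν (e j) → ∃ c : Fin q → A, (∀ i ∉ E, c i = 0) ∧
      h * e j - ∑ i, c i * e i ∈ hν.idGt a ha) := by
    intro j
    have h1 : (1 : A) ∉ 𝔭 := fun h => hν.prime.ne_top ((Ideal.eq_top_iff_one _).2 h)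
    by_cases hja : a ≤ ν (e j)
    swap
    · exact ⟨1, h1, fun h => absurd h hja⟩
    by_cases hjE : j ∈ E
    · refine ⟨1, h1, fun _ => ⟨Pi.single j 1, fun i hi => ?_, ?_⟩⟩
      · exact Pi.single_eq_of_ne (by rintro rfl; exact hi hjE) _
      · have : ∑ i, (Pi.single j (1 : A) : Fin q → A) i * e i = e j := by
          rw [Finset.sum_eq_single j]
          · simp
          · intro i _ hi; rw [Pi.single_eq_of_ne hi, zero_mul]
          · simp
        rw [this, one_mul, sub_self]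
        exact Ideal.zero_mem _
    · have hnP : ¬ P (insert j E) := fun h => by
        have := hmax _ (Finset.mem_filter.2 ⟨Finset.mem_univ _, h⟩)
        rw [Finset.card_insert_of_notMem hjE] at this
        omega
      have h2 : ¬ ∀ c : Fin q → A, (∀ i ∉ insert j E, c i = 0) → a < ν (∑ i, c i * e i) →
          ∀ i, c i ∈ 𝔭 := fun h => hnP ⟨fun i hi => by
        rcases Finset.mem_insert.1 hi with rfl | hi
        exacts [hja, hPE.1 i hi], h⟩
      push Not at h2
      obtain ⟨c, hc0, hc1, i₀, hi₀⟩ := h2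
      have hsum : ∑ i, Function.update c j 0 i * e i = ∑ i, c i * e i - c j * e j := by
        rw [← Finset.add_sum_erase _ _ (Finset.mem_univ j),
          ← Finset.add_sum_erase _ (fun i => c i * e i) (Finset.mem_univ j), Function.update_self,
          zero_mul, zero_add, add_sub_cancel_left]
        exact Finset.sum_congr rfl fun i hi => by
          rw [Function.update_of_ne (Finset.ne_of_mem_erase hi)]
      have hsupp : ∀ i ∉ E, Function.update c j 0 i = 0 := by
        intro i hi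
        by_cases hij : i = j
        · subst hij; exact Function.update_self ..
        · rw [Function.update_of_ne hij]
          exact hc0 i (by simp [hij, hi])
      have hcj : c j ∉ 𝔭 := by
        intro hcj
        have h3 : c j * e j ∈ hν.idGt a ha := by
          rw [hmem]
          have h4 : 0 < ν (c j) := (hν.pos _).2 hcj
          calc a < ν (c j) + a := by
                rw [add_comm]; exact ENNReal.lt_add_right ha h4.ne'
            _ ≤ ν (c j) + ν (e j) := by gcongr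
            _ ≤ _ := hν.mul _ _
        have h5 := hPE.2 _ hsupp (by
          rw [hsum, ← hmem]; exact Ideal.sub_mem _ ((hmem _).2 hc1) h3) i₀
        by_cases hij : i₀ = j
        · exact hi₀ (hij ▸ hcj)
        · rw [Function.update_of_ne hij] at h5
          exact hi₀ h5
      refine ⟨c j, hcj, fun _ => ⟨fun i => -Function.update c j 0 i, fun i hi => ?_, ?_⟩⟩
      · simp only [hsupp i hi, neg_zero]
      · simp only [neg_mul, Finset.sum_neg_distrib, hsum]
        rw [hmem]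
        convert hc1 using 2
        ring
  choose h hh hc using hj
  refine ⟨E, ∏ j, h j, ?_, hPE.1, hPE.2, fun f hf => ?_⟩
  · intro hp
    obtain ⟨j, -, hj⟩ := (hν.prime.prod_mem_iff).1 hp
    exact hh j hj
  · simp only [← hmem]
    induction hf using Submodule.span_induction with
    | mem f hf =>
      obtain ⟨j, hj, rfl⟩ := hf
      obtain ⟨c, hc0, hc1⟩ := hc j hj
      refine ⟨fun i => (∏ l ∈ Finset.univ.erase j, h l) * c i,
        fun i hi => by simp only [hc0 i hi, mul_zero], ?_⟩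
      have := Ideal.mul_mem_left _ (∏ l ∈ Finset.univ.erase j, h l) hc1
      convert this using 1
      rw [← Finset.mul_prod_erase _ _ (Finset.mem_univ j), mul_sub, Finset.mul_sum]
      simp only [mul_assoc]
      ring
    | zero => exact ⟨0, fun _ _ => rfl, by simp⟩
    | add f g _ _ hf hg =>
      obtain ⟨c, hc0, hc1⟩ := hf
      obtain ⟨c', hc0', hc1'⟩ := hg
      refine ⟨c + c', fun i hi => by simp [hc0 i hi, hc0' i hi], ?_⟩
      convert Ideal.add_mem _ hc1 hc1' using 1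
      simp only [Pi.add_apply, add_mul, Finset.sum_add_distrib]
      ring
    | smul r f _ hf =>
      obtain ⟨c, hc0, hc1⟩ := hf
      refine ⟨fun i => algebraMap ℂ A r * c i, fun i hi => by simp only [hc0 i hi, mul_zero], ?_⟩
      convert Ideal.mul_mem_left _ (algebraMap ℂ A r) hc1 using 1
      rw [mul_sub, Finset.mul_sum, Algebra.smul_def]
      simp only [mul_assoc]
      ring

/-- For a value `a ≤ T` of `ν` take a finite spanning family of `V ∩ {a ≤ ν}` and in it a maximal subfamily that is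
independent in the stated sense; maximality and `sat` give for each member `f` some `h_f ∉ 𝔭` and coefficients
(elements of `𝔭` times `e i` have `ν > a`); `h` = product of all `h_f` over the finitely many values; for `a` not a value
take `E a = ∅`.  Concatenate the families into one `Fin q`. -/
theorem QV.coord {𝔭 : Ideal A} {ν : A → ℝ≥0∞} (hν : QV S 𝔭 ν) (V : Submodule ℂ A)
    [FiniteDimensional ℂ V] (T : ℝ) :
    ∃ (h : A) (q : ℕ) (e : Fin q → A) (E : ℝ≥0∞ → Finset (Fin q)) (co : ℝ≥0∞ → A → Fin q → A),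
      h ∉ 𝔭 ∧ ∀ a, a ≤ ENNReal.ofReal T → (∀ i ∈ E a, a ≤ ν (e i)) ∧
        (∀ c : Fin q → A, (∀ i ∉ E a, c i = 0) → a < ν (∑ i, c i * e i) → ∀ i, c i ∈ 𝔭) ∧
        ∀ f ∈ V, a ≤ ν f → (∀ i ∉ E a, co a f i = 0) ∧ a < ν (h * f - ∑ i, co a f i * e i) := by
  classical
  have hfin := hν.disc T
  set Vals := hfin.toFinset with hVals
  have hsp : ∀ a : ℝ≥0∞, ∃ s : Finset A, Submodule.span ℂ (s : Set A) = V ⊓ hν.subGe a := by
    intro a
    haveI : FiniteDimensional ℂ (V ⊓ hν.subGe a : Submodule ℂ A) :=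
      Submodule.finiteDimensional_of_le inf_le_left
    exact (Submodule.fg_iff_finiteDimensional _).2 this
  choose s hs using hsp
  set G : Finset A := Vals.biUnion s with hG
  let e : Fin G.card → A := fun i => (G.equivFin.symm i : A)
  have he : ∀ x ∈ G, ∃ i, e i = x := fun x hx => ⟨G.equivFin ⟨x, hx⟩, by simp [e]⟩
  have hne : ∀ a ∈ Vals, a ≠ ⊤ := fun a ha =>
    ne_top_of_le_ne_top ENNReal.ofReal_ne_top (hfin.mem_toFinset.1 ha).2
  have key : ∀ a : ℝ≥0∞, ∃ (E : Finset (Fin G.card)) (h : A), h ∉ 𝔭 ∧ (a ≤ ENNReal.ofReal T →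
      (∀ i ∈ E, a ≤ ν (e i)) ∧
      (∀ c : Fin G.card → A, (∀ i ∉ E, c i = 0) → a < ν (∑ i, c i * e i) → ∀ i, c i ∈ 𝔭) ∧
      ∀ h' : A, (a ∈ Vals → h ∣ h') → ∀ f ∈ V, a ≤ ν f → ∃ c : Fin G.card → A, (∀ i ∉ E, c i = 0) ∧
        a < ν (h' * f - ∑ i, c i * e i)) := by
    intro a
    by_cases ha : a ∈ Vals
    · obtain ⟨E, h, hh, h1, h2, h3⟩ := hν.coord_fam e a (hne a ha)
      refine ⟨E, h, hh, fun _ => ⟨h1, h2, fun h' hd f hf haf => ?_⟩⟩
      obtain ⟨k, rfl⟩ := hd ha
      have hf' : f ∈ Submodule.span ℂ (e '' {j | a ≤ ν (e j)}) := by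
        have : f ∈ Submodule.span ℂ (s a : Set A) := by rw [hs]; exact ⟨hf, haf⟩
        refine Submodule.span_mono (fun x hx => ?_) this
        obtain ⟨i, rfl⟩ := he x (Finset.mem_biUnion.2 ⟨a, ha, hx⟩)
        have h4 : e i ∈ V ⊓ hν.subGe a := by rw [← hs]; exact Submodule.subset_span hx
        exact ⟨i, h4.2, rfl⟩
      obtain ⟨c, hc0, hc1⟩ := h3 f hf'
      refine ⟨fun i => k * c i, fun i hi => by simp only [hc0 i hi, mul_zero], ?_⟩
      refine lt_of_lt_of_le hc1 ((hν.le_mul' k _).trans_eq ?_)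
      congr 1
      rw [mul_sub, Finset.mul_sum]
      simp only [mul_assoc]
      ring
    · refine ⟨∅, 1, fun h => hν.prime.ne_top ((Ideal.eq_top_iff_one _).2 h), fun haT =>
        ⟨by simp, fun c hc _ i => by rw [hc i (by simp)]; exact 𝔭.zero_mem,
          fun h' _ f _ haf => ⟨0, fun _ _ => rfl, ?_⟩⟩⟩
      have : a ≠ ν f := fun h => ha (hfin.mem_toFinset.2 ⟨⟨f, h.symm⟩, haT⟩)
      simpa using (lt_of_le_of_ne haf this).trans_le (hν.le_mul' h' f)
  choose E h hh hE using key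
  have key2 : ∀ (a : ℝ≥0∞) (f : A), ∃ c : Fin G.card → A, a ≤ ENNReal.ofReal T → f ∈ V → a ≤ ν f →
      (∀ i ∉ E a, c i = 0) ∧ a < ν ((∏ b ∈ Vals, h b) * f - ∑ i, c i * e i) := by
    intro a f
    by_cases H : a ≤ ENNReal.ofReal T ∧ f ∈ V ∧ a ≤ ν f
    · obtain ⟨c, hc⟩ := (hE a H.1).2.2 (∏ b ∈ Vals, h b) (fun ha => Finset.dvd_prod_of_mem _ ha) f
        H.2.1 H.2.2
      exact ⟨c, fun _ _ _ => hc⟩
    · exact ⟨0, fun h1 h2 h3 => absurd ⟨h1, h2, h3⟩ H⟩
  choose co hco using key2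
  refine ⟨∏ b ∈ Vals, h b, G.card, e, E, co, ?_, fun a ha =>
    ⟨(hE a ha).1, (hE a ha).2.1, fun f hf haf => hco a f ha hf haf⟩⟩
  intro hp
  obtain ⟨b, -, hb⟩ := (hν.prime.prod_mem_iff).1 hp
  exact hh b hb

end Crest.Agent.R271
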