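import Crest.Agent.R271.St.Sml

/-!
# Row 271, block St: linear algebra of bases modulo `𝔭`
-/

set_option autoImplicit false
set_option linter.unusedSectionVars false

open MeasureTheory Filter Topology Set
open scoped ENNReal

noncomputable section

namespace Crest.Agent.R271

variable {n : ℕ} {M : Type} [TopologicalSpace M] [T2Space M] [SecondCountableTopology M]
  [MeasurableSpace M] [BorelSpace M] {A : Type} [CommRing A] [IsDomain A] [Algebra ℂ A]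
  {S : Setup n M A}

namespace Stage
variable (σ : Stage S)

theorem b_isBas : σ.IsBas σ.b := ⟨σ.b_mem, σ.b_ind⟩

variable {σ} in
theorem IsBas.span_eq {s : Fin σ.N → A} (hs : σ.IsBas s) :
    Submodule.span ℂ (range fun i => Ideal.Quotient.mkₐ ℂ σ.𝔭 (s i)) =
      (S.F σ.m).map (Ideal.Quotient.mkₐ ℂ σ.𝔭).toLinearMap := by
  have := S.filt.fd σ.m
  refine Submodule.eq_of_le_of_finrank_eq (Submodule.span_le.2 ?_) ?_
  · rintro _ ⟨i, rfl⟩
    exact Submodule.mem_map_of_mem (hs.1 i)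
  · rw [finrank_span_eq_card hs.2, Fintype.card_fin]
    exact σ.N_eq

/-- coordinates modulo `𝔭` -/
def T : EuclideanSpace ℂ (Fin σ.N) →ₗ[ℂ] A ⧸ σ.𝔭 :=
  Fintype.linearCombination ℂ (fun i => Ideal.Quotient.mkₐ ℂ σ.𝔭 (σ.b i)) ∘ₗ
    (WithLp.linearEquiv 2 ℂ (Fin σ.N → ℂ)).toLinearMap

theorem T_apply (v : EuclideanSpace ℂ (Fin σ.N)) :
    σ.T v = Ideal.Quotient.mkₐ ℂ σ.𝔭 (∑ k, v k • σ.b k) := by
  simp only [map_sum, map_smul]
  rfl

theorem T_ker : LinearMap.ker σ.T = ⊥ :=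
  LinearMap.ker_eq_bot.2 (σ.b_ind.fintypeLinearCombination_injective.comp
    (WithLp.linearEquiv 2 ℂ (Fin σ.N → ℂ)).injective)

theorem sm_of_span {sm : A → ℝ → Prop} (hsm : Ultra sm) {τ α : ℝ} (hτ : ∀ g ∈ σ.gens, sm g τ)
    (hα : α ≤ τ) {ι : Type} {s : ι → A} {Z : Set ι} (hZ : ∀ j ∈ Z, sm (s j) α) {x : A}
    (hx : Ideal.Quotient.mkₐ ℂ σ.𝔭 x ∈
      Submodule.span ℂ ((fun j => Ideal.Quotient.mkₐ ℂ σ.𝔭 (s j)) '' Z)) : sm x α := by
  obtain ⟨y, hy, hxy⟩ : _ ∈ (Submodule.span ℂ (s '' Z)).map (Ideal.Quotient.mkₐ ℂ σ.𝔭).toLinearMap := by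
    rw [← Submodule.span_image, image_image]
    exact hx
  have h1 : x - y ∈ Ideal.span (σ.gens : Set A) := σ.span_gens.symm ▸ Ideal.Quotient.eq.1 hxy.symm
  have h2 := hsm.add ((hsm.mono (hsm.span hτ h1) hα)) (hsm.cspan (by
    rintro _ ⟨j, hj, rfl⟩; exact hZ j hj) hy)
  rwa [sub_add_cancel] at h2

variable {σ} in
theorem IsBas.perm {s : Fin σ.N → A} (hs : σ.IsBas s) (π : Equiv.Perm (Fin σ.N)) :
    σ.IsBas fun i => s (π i) := ⟨fun _ => hs.1 _, hs.2.comp π π.injective⟩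

theorem exists_sort {N : ℕ} (a : Fin N → ℝ) :
    ∃ π : Equiv.Perm (Fin N), Antitone fun i => a (π i) :=
  ⟨Tuple.sort fun i => -a i, fun _ _ h => neg_le_neg_iff.1 (Tuple.monotone_sort (fun i => -a i) h)⟩

/-- two complete flags have a common adapted basis -/
theorem two_flags {Q : Type} [AddCommGroup Q] [Module ℂ Q] {N : ℕ} {e e' : Fin N → Q}
    (he : LinearIndependent ℂ e) (h : ∀ i, e i ∈ Submodule.span ℂ (range e')) :
    ∃ (x : Fin N → Q) (ρ : Equiv.Perm (Fin N)), LinearIndependent ℂ x ∧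
      ∀ i, x i ∈ Submodule.span ℂ (e '' Iic i) ∧ x i ∈ Submodule.span ℂ (e' '' Iic (ρ i)) := by
  classical
  let E' : ℕ → Submodule ℂ Q := fun k => Submodule.span ℂ (e' '' {l | (l : ℕ) < k})
  let P : Fin N → ℕ → Prop := fun i k => ∃ x ∈ Submodule.span ℂ (e '' Iic i), x ∈ E' k ∧
    x ∉ Submodule.span ℂ (e '' Iio i)
  have hP : ∀ i, P i N := fun i => ⟨e i, Submodule.subset_span ⟨i, self_mem_Iic, rfl⟩, by
    simpa [E'] using h i, he.notMem_span_image (by simp)⟩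
  let k : Fin N → ℕ := fun i => Nat.find ⟨N, hP i⟩
  have hk0 : ∀ i, k i ≠ 0 := fun i h0 => by
    obtain ⟨x, -, h2, h3⟩ : P i 0 := h0 ▸ Nat.find_spec ⟨N, hP i⟩
    have : x = 0 := by simpa [E'] using h2
    exact h3 (this ▸ Submodule.zero_mem _)
  have hkN : ∀ i, k i - 1 < N := fun i => by
    have : k i ≤ N := Nat.find_min' _ (hP i)
    have := hk0 i
    omega
  let ρ : Fin N → Fin N := fun i => ⟨k i - 1, hkN i⟩
  have hE : ∀ i, {l : Fin N | (l : ℕ) < k i} = Iic (ρ i) := fun i => by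
    ext l
    have := hk0 i
    simp only [mem_ofPred_eq, mem_Iic, Fin.le_def, ρ]
    omega
  have hmin : ∀ i, ∀ y ∈ Submodule.span ℂ (e '' Iic i), y ∈ Submodule.span ℂ (e' '' Iio (ρ i)) →
      y ∈ Submodule.span ℂ (e '' Iio i) := fun i y h1 h2 => by
    by_contra h3
    exact Nat.find_min ⟨N, hP i⟩ (Nat.sub_one_lt (hk0 i)) ⟨y, h1, h2, h3⟩
  choose x hx1 hx2 hx3 using fun i => (Nat.find_spec ⟨N, hP i⟩ : P i (k i))
  have hx2' : ∀ i, x i ∈ Submodule.span ℂ (e' '' Iic (ρ i)) := fun i => hE i ▸ hx2 i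
  have hlt : ∀ i j, i < j → x i ∈ Submodule.span ℂ (e '' Iio j) := fun i j hij =>
    Submodule.span_mono (image_mono (Iic_subset_Iio.2 hij)) (hx1 i)
  have hinj : ∀ i j, i < j → ρ i ≠ ρ j := by
    intro i j hij hρ
    have h1 := hx2' i
    have h2 := hx2' j
    rw [← hρ] at h2
    rw [← Iio_insert, image_insert_eq, Submodule.mem_span_insert] at h1 h2
    obtain ⟨a, y, hy, ea⟩ := h1
    obtain ⟨b, z, hz, eb⟩ := h2
    have ha : a ≠ 0 := fun h0 => hx3 i (hmin i _ (hx1 i) (by simpa [ea, h0] using hy))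
    have h3 : x j - (b / a) • x i = z - (b / a) • y := by
      rw [ea, eb, smul_add, smul_smul, div_mul_cancel₀ _ ha]; abel
    have h4 := hmin j (x j - (b / a) • x i) (Submodule.sub_mem _ (hx1 j) (Submodule.smul_mem _ _
      (Submodule.span_mono (image_mono Iio_subset_Iic_self) (hlt i j hij))))
      (by rw [h3, ← hρ]; exact Submodule.sub_mem _ hz (Submodule.smul_mem _ _ hy))
    exact hx3 j (by simpa using Submodule.add_mem _ h4 (Submodule.smul_mem _ (b / a) (hlt i j hij)))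
  have hρ : Function.Injective ρ := fun i j hij => by
    rcases lt_trichotomy i j with h1 | h1 | h1
    exacts [absurd hij (hinj i j h1), h1, absurd hij.symm (hinj j i h1)]
  refine ⟨x, Equiv.ofBijective ρ (Finite.injective_iff_bijective.1 hρ), ?_,
    fun i => ⟨hx1 i, hx2' i⟩⟩
  rw [Fintype.linearIndependent_iff]
  intro c hc
  by_contra! hne
  obtain ⟨i, hi, hmax⟩ := (Finset.univ.filter fun i => c i ≠ 0).exists_max_image id
    (by simpa [Finset.filter_nonempty_iff] using hne)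
  have hci : c i ≠ 0 := (Finset.mem_filter.1 hi).2
  rw [← Finset.add_sum_erase _ _ (Finset.mem_univ i), add_eq_zero_iff_eq_neg] at hc
  refine hx3 i ((Submodule.smul_mem_iff _ hci).1 (hc ▸ Submodule.neg_mem _
    (Submodule.sum_mem _ fun j hj => ?_)))
  by_cases hcj : c j = 0
  · simp [hcj]
  · exact Submodule.smul_mem _ _ (hlt j i (lt_of_le_of_ne (hmax j (by simpa using hcj))
      (Finset.ne_of_mem_erase hj)))

/-- a basis spans `F m` modulo `𝔭` (dimension count, `N_eq`, `S.filt.fd`) -/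
theorem IsBas.exists_repr {s : Fin σ.N → A} (hs : σ.IsBas s) {f : A} (hf : f ∈ S.F σ.m) :
    ∃ c : Fin σ.N → ℂ, f - ∑ i, c i • s i ∈ σ.𝔭 := by
  obtain ⟨c, hc⟩ := (Submodule.mem_span_range_iff_exists_fun ℂ).1
    (hs.span_eq ▸ Submodule.mem_map_of_mem hf :
      Ideal.Quotient.mkₐ ℂ σ.𝔭 f ∈ Submodule.span ℂ (range fun i => Ideal.Quotient.mkₐ ℂ σ.𝔭 (s i)))
  refine ⟨c, Ideal.Quotient.eq.1 ?_⟩
  change Ideal.Quotient.mkₐ ℂ σ.𝔭 f = Ideal.Quotient.mkₐ ℂ σ.𝔭 _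
  simp only [← hc, map_sum, map_smul]

theorem IsBas.not_mem {s : Fin σ.N → A} (hs : σ.IsBas s) (i : Fin σ.N) : s i ∉ σ.𝔭 := by
  exact fun h => hs.2.ne_zero i (Ideal.Quotient.eq_zero_iff_mem.2 h)

theorem sec_isBas (u : σ.Fr) : σ.IsBas (σ.sec u) := by
  refine ⟨fun i => Submodule.sum_mem _ fun k _ => Submodule.smul_mem _ _ (σ.b_mem k), ?_⟩
  have := u.2.linearIndependent.map' σ.T σ.T_ker
  simp only [Function.comp_def, T_apply] at this
  exact this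

theorem fr_nonempty : Nonempty σ.Fr := by
  exact ⟨⟨_, (EuclideanSpace.basisFun (Fin σ.N) ℂ).orthonormal⟩⟩

/-- exchange lemma -/
theorem exch {s : Fin σ.N → A} (hs : σ.IsBas s) {f : A} (hf : f ∈ S.F σ.m) (hf' : f ∉ σ.𝔭) :
    ∃ i, σ.IsBas (Function.update s i f) := by
  obtain ⟨c, hc⟩ := IsBas.exists_repr σ hs hf
  obtain ⟨i, hi⟩ : ∃ i, c i ≠ 0 := by
    by_contra! h
    exact hf' (by simpa [h] using hc)
  refine ⟨i, fun j => ?_, ?_⟩
  · rcases eq_or_ne j i with rfl | h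
    · simpa using hf
    · simpa [h] using hs.1 j
  · have := hs.2.update i (Ideal.Quotient.mkₐ ℂ σ.𝔭 f) ⟨1, one_mem _,
      (Finsupp.linearEquivFunOnFinite ℂ ℂ _).symm c, mem_nonZeroDivisors_of_ne_zero hi, by
        rw [one_smul, Finsupp.linearCombination_eq_fintype_linearCombination_apply,
          Fintype.linearCombination_apply]
        have h1 : Ideal.Quotient.mkₐ ℂ σ.𝔭 f = Ideal.Quotient.mkₐ ℂ σ.𝔭 _ := Ideal.Quotient.eq.2 hc
        simpa only [map_sum, map_smul] using h1⟩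
    change LinearIndependent ℂ (Ideal.Quotient.mkₐ ℂ σ.𝔭 ∘ Function.update s i f)
    rw [Function.comp_update]
    exact this

/-- Sort `a` decreasingly (`Tuple.sort`), take coordinates in `b`, Gram-Schmidt
(`InnerProductSpace.gramSchmidtOrthonormalBasis` / `gramSchmidtNormed`, `span_gramSchmidt_Iic`). -/
theorem orth {s : Fin σ.N → A} (hs : σ.IsBas s) (a : Fin σ.N → ℝ) :
    ∃ (u : σ.Fr) (π : Equiv.Perm (Fin σ.N)), ∀ sm : A → ℝ → Prop, Ultra sm → ∀ τ : ℝ,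
      (∀ g ∈ σ.gens, sm g τ) → (∀ i, a i ≤ τ) → (∀ i, sm (s i) (a i)) →
      ∀ i, sm (σ.sec u i) (a (π i)) := by
  obtain ⟨π, hπ⟩ := exists_sort a
  choose c hc using fun i => IsBas.exists_repr σ σ.b_isBas (hs.1 (π i))
  let v : Fin σ.N → EuclideanSpace ℂ (Fin σ.N) := fun i => WithLp.toLp 2 (c i)
  have hv : ∀ i, σ.T (v i) = Ideal.Quotient.mkₐ ℂ σ.𝔭 (s (π i)) := fun i =>
    (σ.T_apply _).trans (Ideal.Quotient.eq.2 (hc i)).symm
  have hi : LinearIndependent ℂ v := LinearIndependent.of_comp σ.T (by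
    simpa only [Function.comp_def, hv] using (hs.perm π).2)
  refine ⟨⟨_, InnerProductSpace.gramSchmidtNormed_orthonormal hi⟩, π,
    fun sm hsm τ hτ ha h i => σ.sm_of_span hsm hτ (ha _) (s := fun j => s (π j)) (Z := Iic i)
      (fun j hj => hsm.mono (h _) (hπ hj)) ?_⟩
  have h1 := Submodule.mem_map_of_mem (f := σ.T) (Submodule.smul_mem _
    (‖InnerProductSpace.gramSchmidt ℂ v i‖ : ℂ)⁻¹
    (InnerProductSpace.gramSchmidt_mem_span ℂ v (le_refl i)))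
  rw [← Submodule.span_image, image_image, T_apply] at h1
  simp only [hv] at h1
  exact h1

/-- Two complete flags have a common adapted basis: sort both families decreasingly, `E i`, `E' k` the spans of the
first vectors (modulo `𝔭`); `π i = min {k | E i ∩ E' k ⊄ E (i-1)}` is injective; pick `s i ∈ E i ∩ E' (π i) \ E (i-1)`. -/
theorem dbl {s₁ s₂ : Fin σ.N → A} (h₁ : σ.IsBas s₁) (h₂ : σ.IsBas s₂) (a₁ a₂ : Fin σ.N → ℝ) :
    ∃ (s : Fin σ.N → A) (π₁ π₂ : Equiv.Perm (Fin σ.N)), σ.IsBas s ∧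
      ∀ sm : A → ℝ → Prop, Ultra sm → ∀ τ : ℝ, (∀ g ∈ σ.gens, sm g τ) →
        ((∀ i, a₁ i ≤ τ) → (∀ i, sm (s₁ i) (a₁ i)) → ∀ i, sm (s i) (a₁ (π₁ i))) ∧
        ((∀ i, a₂ i ≤ τ) → (∀ i, sm (s₂ i) (a₂ i)) → ∀ i, sm (s i) (a₂ (π₂ i))) := by
  obtain ⟨π₁, hπ₁⟩ := exists_sort a₁
  obtain ⟨π₂, hπ₂⟩ := exists_sort a₂
  obtain ⟨x, ρ, hx, h⟩ := two_flags (e' := fun i => Ideal.Quotient.mkₐ ℂ σ.𝔭 (s₂ (π₂ i)))
    (h₁.perm π₁).2 fun i => (h₂.perm π₂).span_eq ▸ Submodule.mem_map_of_mem (h₁.1 _)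
  have h1 : ∀ i, x i ∈ (S.F σ.m).map (Ideal.Quotient.mkₐ ℂ σ.𝔭).toLinearMap := fun i =>
    (h₁.perm π₁).span_eq ▸ Submodule.span_mono (image_subset_range _ _) (h i).1
  choose s hs hsx using h1
  have hsx' : ∀ i, Ideal.Quotient.mkₐ ℂ σ.𝔭 (s i) = x i := hsx
  refine ⟨s, π₁, ρ.trans π₂, ⟨hs, by simpa only [hsx'] using hx⟩, fun sm hsm τ hτ =>
    ⟨fun ha h' i => σ.sm_of_span hsm hτ (ha _) (s := fun j => s₁ (π₁ j)) (Z := Iic i)
      (fun j hj => hsm.mono (h' _) (hπ₁ hj)) (hsx' i ▸ (h i).1),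
    fun ha h' i => σ.sm_of_span hsm hτ (ha _) (s := fun j => s₂ (π₂ j)) (Z := Iic (ρ i))
      (fun j hj => hsm.mono (h' _) (hπ₂ hj)) (hsx' i ▸ (h i).2)⟩⟩

end Stage

end Crest.Agent.R271
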