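import Crest.Agent.R271.St.Defs

/-!
# Row 271, block St: initial terms and dimension
-/

set_option autoImplicit false
set_option linter.unusedSectionVars false

open MeasureTheory Filter Topology Set
open scoped ENNReal

noncomputable section

namespace Crest.Agent.R271

/-- A key with one-dimensional leaves.  Elements with distinct finite keys are independent modulo `ker φ` and the key of a
combination is the least key that occurs; a maximal such family spans (induction on the number of keys above);
for another basis the determinant of the coordinate matrix is nonzero, so some permutation has nonzero entries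
(`Matrix.det_apply`), which gives the comparison after reindexing. -/
theorem okounkov {V Q Ω : Type} [AddCommGroup V] [Module ℂ V] [AddCommGroup Q] [Module ℂ Q]
    [LinearOrder Ω] [OrderTop Ω] (φ : V →ₗ[ℂ] Q) (W : Submodule ℂ V) [FiniteDimensional ℂ W]
    (key : V → Ω) (hadd : ∀ f ∈ W, ∀ g ∈ W, min (key f) (key g) ≤ key (f + g))
    (hsmul : ∀ (c : ℂ), ∀ f ∈ W, key f ≤ key (c • f))
    (htop : ∀ f ∈ W, key f = ⊤ ↔ φ f = 0)
    (hleaf : ∀ f ∈ W, ∀ g ∈ W, key f = key g → key f ≠ ⊤ → ∃ c : ℂ, key f < key (f - c • g)) :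
    ∃ Kf : Finset Ω, (∀ ω, ω ∈ Kf ↔ ∃ f ∈ W, φ f ≠ 0 ∧ key f = ω) ∧
      Kf.card = Module.finrank ℂ (W.map φ) ∧
      ∀ (N : ℕ) (s₀ : Fin N → V), N = Module.finrank ℂ (W.map φ) → (∀ i, s₀ i ∈ W) →
        LinearIndependent ℂ (fun i => φ (s₀ i)) →
        ∃ s : Fin N → V, (∀ i, s i ∈ W) ∧ LinearIndependent ℂ (fun i => φ (s i)) ∧
          Function.Injective (fun i => key (s i)) ∧ ∀ i, key (s₀ i) ≤ key (s i) := by
  classical
  have h0 : key 0 = ⊤ := (htop 0 W.zero_mem).2 (map_zero φ)
  have hs : ∀ (c : ℂ), c ≠ 0 → ∀ f ∈ W, key (c • f) = key f := fun c hc f hf =>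
    le_antisymm (by simpa [hc] using hsmul c⁻¹ _ (W.smul_mem c hf)) (hsmul c f hf)
  have hlt : ∀ f ∈ W, ∀ g ∈ W, key f < key g → key (f + g) = key f := by
    intro f hf g hg h
    refine le_antisymm ?_ (le_trans (le_min le_rfl h.le) (hadd f hf g hg))
    have h1 := hadd _ (W.add_mem hf hg) _ (W.smul_mem (-1) hg)
    rw [hs _ (by norm_num) g hg, neg_one_smul, add_neg_cancel_right] at h1
    exact (min_le_iff.1 h1).resolve_right (not_le.2 h)
  have hsum : ∀ {ι : Type} (t : Finset ι) (f : ι → V) (ω : Ω), ω ≠ ⊤ → (∀ i ∈ t, f i ∈ W) →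
      (∀ i ∈ t, ω < key (f i)) → ω < key (∑ i ∈ t, f i) := by
    intro ι t f ω hω hW h
    induction t using Finset.induction_on with
    | empty => simpa [h0] using hω.lt_top
    | insert a t ha ih =>
      rw [Finset.sum_insert ha]
      exact (lt_min (h a (by simp)) (ih (fun i hi => hW i (by simp [hi]))
        fun i hi => h i (by simp [hi]))).trans_le
        (hadd _ (hW a (by simp)) _ (W.sum_mem fun i hi => hW i (by simp [hi])))
  let K : Set Ω := {ω | ∃ f ∈ W, φ f ≠ 0 ∧ key f = ω}
  choose r hrW hr0 hrk using fun ω : K => ω.2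
  have hind : LinearIndependent ℂ fun ω : K => φ (r ω) := by
    rw [linearIndependent_iff']
    intro t c hc
    by_contra! hne
    obtain ⟨ω, hω, hmin⟩ := (t.filter fun ω => c ω ≠ 0).exists_min_image id
      (by simpa [Finset.filter_nonempty_iff] using hne)
    obtain ⟨hωt, hcω⟩ := Finset.mem_filter.1 hω
    have hT : (ω : Ω) ≠ ⊤ := fun h => hr0 ω ((htop _ (hrW ω)).1 ((hrk ω).trans h))
    have h1 : (ω : Ω) < key (∑ i ∈ t.erase ω, c i • r i) := by
      refine hsum _ _ _ hT (fun i _ => W.smul_mem _ (hrW i)) fun i hi => ?_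
      by_cases hci : c i = 0
      · simpa [hci, h0] using hT.lt_top
      · rw [hs _ hci _ (hrW i), hrk]
        exact lt_of_le_of_ne (hmin i (Finset.mem_filter.2 ⟨Finset.mem_of_mem_erase hi, hci⟩))
          fun h => Finset.ne_of_mem_erase hi (Subtype.ext h.symm)
    have h2 := hlt _ (W.smul_mem (c ω) (hrW ω)) _ (W.sum_mem fun i _ => W.smul_mem (c i) (hrW i))
      (by rwa [hs _ hcω _ (hrW ω), hrk])
    rw [Finset.add_sum_erase t (fun i => c i • r i) hωt, hs _ hcω _ (hrW ω), hrk] at h2
    exact hT (h2.symm.trans ((htop _ (W.sum_mem fun i _ => W.smul_mem _ (hrW i))).2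
      (by simpa using hc)))
  have hfin : Finite K := by
    have h1 : LinearIndependent ℂ fun ω : K =>
        (⟨φ (r ω), Submodule.mem_map_of_mem (hrW ω)⟩ : W.map φ) :=
      LinearIndependent.of_comp (W.map φ).subtype hind
    exact h1.finite
  let _ := Fintype.ofFinite K
  have hspan : ∀ (m : ℕ), ∀ f ∈ W, (Finset.univ.filter fun ω : K => key f ≤ ω).card = m →
      φ f ∈ Submodule.span ℂ ((fun ω : K => φ (r ω)) '' {ω | key f ≤ ω}) := by
    intro m
    induction m using Nat.strong_induction_on with
    | _ m ih =>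
      intro f hf hm
      by_cases hf0 : φ f = 0
      · exact hf0 ▸ Submodule.zero_mem _
      let ω : K := ⟨key f, f, hf, hf0, rfl⟩
      obtain ⟨c, hc⟩ := hleaf f hf (r ω) (hrW ω) (hrk ω).symm fun h => hf0 ((htop f hf).1 h)
      have h1 := ih _ (hm ▸ Finset.card_lt_card ⟨fun ω' h => by
        simpa using hc.le.trans (by simpa using h), fun h => by
          have := h (Finset.mem_filter.2 ⟨Finset.mem_univ ω, le_rfl⟩)
          exact hc.not_ge (Finset.mem_filter.1 this).2⟩) (f - c • r ω)
        (W.sub_mem hf (W.smul_mem c (hrW ω))) rfl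
      have h2 : φ f = φ (f - c • r ω) + c • φ (r ω) := by simp
      rw [h2]
      exact Submodule.add_mem _ (Submodule.span_mono (image_mono fun ω' h => hc.le.trans h) h1)
        (Submodule.smul_mem _ _ (Submodule.subset_span ⟨ω, le_rfl, rfl⟩))
  refine ⟨K.toFinset, fun ω => mem_toFinset, ?_, fun N s₀ _ hW hi => ?_⟩
  · have h1 : W.map φ = Submodule.span ℂ (range fun ω : K => φ (r ω)) := by
      refine le_antisymm ?_ (Submodule.span_le.2 ?_)
      · rintro _ ⟨f, hf, rfl⟩
        exact Submodule.span_mono (image_subset_range _ _) (hspan _ f hf rfl)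
      · rintro _ ⟨ω, rfl⟩
        exact Submodule.mem_map_of_mem (hrW ω)
    rw [h1, finrank_span_eq_card hind, toFinset_card]
  · obtain ⟨π, hπ, hle⟩ := (Finset.all_card_le_biUnion_card_iff_exists_injective
      fun i : Fin N => Finset.univ.filter fun ω : K => key (s₀ i) ≤ ω).1 fun T => by
      set B := T.biUnion fun i => Finset.univ.filter fun ω : K => key (s₀ i) ≤ ω
      have h1 := linearIndependent_le_span_aux' (fun i : T => φ (s₀ i))
        (hi.comp _ Subtype.val_injective) (B.image fun ω => φ (r ω) : Finset Q) (by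
          rintro _ ⟨i, rfl⟩
          refine Submodule.span_mono ?_ (hspan _ _ (hW i) rfl)
          rintro _ ⟨ω, h, rfl⟩
          exact Finset.mem_coe.2 (Finset.mem_image_of_mem _
            (Finset.mem_biUnion.2 ⟨i, i.2, by simpa using h⟩)))
      simpa using h1.trans (by simpa using Finset.card_image_le)
    refine ⟨fun i => r (π i), fun i => hrW _, hind.comp π hπ, fun i j h => hπ (Subtype.ext ?_),
      fun i => ?_⟩
    · simpa [hrk] using h
    · simpa [hrk] using hle i

end Crest.Agent.R271
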