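import Crest.Agent.R271.St.Key
import Crest.Agent.R271.St.Okou
import Crest.Agent.R271.St.Chain
import Crest.Agent.R271.St.LinA

/-!
# Row 271, block St: counting initial terms
-/

set_option autoImplicit false
set_option linter.unusedSectionVars false

open MeasureTheory Filter Topology Set
open scoped ENNReal

noncomputable section

namespace Crest.Agent.R271

variable {n : ℕ} {M : Type} [TopologicalSpace M] [T2Space M] [SecondCountableTopology M]
  [MeasurableSpace M] [BorelSpace M] {A : Type} [CommRing A] [IsDomain A] [Algebra ℂ A]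
  {S : Setup n M A}

/-- initial exponents of a subspace -/
theorem okou_inM {d : ℕ} (mo : MonomialOrder.{0, 0} (Fin d)) {𝔭 : Ideal A}
    (T : A →ₐ[ℂ] MvPowerSeries (Fin d) ℂ) (hT : ∀ g, T g = 0 ↔ g ∈ 𝔭) (W : Submodule ℂ A)
    [FiniteDimensional ℂ W] :
    ∃ B : Finset (Fin d →₀ ℕ), (∀ β ∈ B, ∃ g ∈ W, inM mo (T g) β) ∧
      B.card = Module.finrank ℂ (W.map (Ideal.Quotient.mkₐ ℂ 𝔭).toLinearMap) := by
  classical
  let ini : A → Fin d →₀ ℕ := fun g => if h : T g = 0 then 0 else (exists_inM mo h).choose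
  have hini : ∀ g, T g ≠ 0 → inM mo (T g) (ini g) := fun g h => by
    simp only [ini, dif_neg h]
    exact (exists_inM mo h).choose_spec
  let key : A → WithTop mo.syn := fun g => if T g = 0 then ⊤ else ↑(mo.toSyn (ini g))
  have k0 : ∀ g, T g = 0 → key g = ⊤ := fun g h => if_pos h
  have k1 : ∀ g, T g ≠ 0 → key g = ↑(mo.toSyn (ini g)) := fun g h => if_neg h
  have kle : ∀ g β, MvPowerSeries.coeff β (T g) ≠ 0 → key g ≤ ↑(mo.toSyn β) := by
    intro g β h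
    have h0 : T g ≠ 0 := fun h0 => h (by rw [h0, map_zero])
    rw [k1 g h0]
    exact WithTop.coe_le_coe.2 ((hini g h0).2 β h)
  have ktop : ∀ g, key g = ⊤ ↔ T g = 0 := fun g =>
    ⟨fun h => by_contra fun h0 => WithTop.coe_ne_top ((k1 g h0).symm.trans h), k0 g⟩
  obtain ⟨Kf, hKf, hcard, -⟩ := okounkov (Ideal.Quotient.mkₐ ℂ 𝔭).toLinearMap W key
    (fun f _ g _ => by
      by_cases h : T (f + g) = 0
      · rw [k0 _ h]; exact le_top
      · have h1 := (hini _ h).1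
        rw [k1 _ h]
        rw [map_add, map_add] at h1
        by_cases h2 : MvPowerSeries.coeff (ini (f + g)) (T f) = 0
        · rw [h2, zero_add] at h1
          exact (min_le_right _ _).trans (kle g _ h1)
        · exact (min_le_left _ _).trans (kle f _ h2))
    (fun c f _ => by
      by_cases h : T (c • f) = 0
      · rw [k0 _ h]; exact le_top
      · have h1 := (hini _ h).1
        rw [k1 _ h]
        rw [map_smul, map_smul, smul_eq_mul] at h1
        exact kle f _ (right_ne_zero_of_mul h1))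
    (fun f _ => by
      rw [ktop, hT]
      exact Ideal.Quotient.eq_zero_iff_mem.symm)
    (fun f _ g _ hfg hf => by
      have hf0 : T f ≠ 0 := fun h => hf (k0 f h)
      have hg0 : T g ≠ 0 := fun h => hf (hfg.trans (k0 g h))
      have he : ini f = ini g := by
        rw [k1 f hf0, k1 g hg0] at hfg
        exact mo.toSyn.injective (WithTop.coe_injective hfg)
      have hg1 : MvPowerSeries.coeff (ini f) (T g) ≠ 0 := he ▸ (hini g hg0).1
      refine ⟨MvPowerSeries.coeff (ini f) (T f) / MvPowerSeries.coeff (ini f) (T g), ?_⟩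
      set c := MvPowerSeries.coeff (ini f) (T f) / MvPowerSeries.coeff (ini f) (T g) with hc
      by_cases h : T (f - c • g) = 0
      · rw [k0 _ h]; exact hf.lt_top
      · have h1 := (hini _ h).1
        have h2 : ini (f - c • g) ≠ ini f := by
          intro h2
          rw [h2, map_sub, map_smul, map_sub, map_smul, smul_eq_mul, hc,
            div_mul_cancel₀ _ hg1, sub_self] at h1
          exact h1 rfl
        have h3 : key f ≤ key (f - c • g) := by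
          rw [k1 _ h]
          rw [map_sub, map_smul, map_sub, map_smul, smul_eq_mul] at h1
          by_cases h3 : MvPowerSeries.coeff (ini (f - c • g)) (T f) = 0
          · rw [h3, zero_sub, neg_ne_zero] at h1
            exact hfg.le.trans (kle g _ (right_ne_zero_of_mul h1))
          · exact kle f _ h3
        refine lt_of_le_of_ne h3 fun h4 => h2 ?_
        rw [k1 _ h, k1 _ hf0] at h4
        exact (mo.toSyn.injective (WithTop.coe_injective h4)).symm)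
  let enc : (Fin d →₀ ℕ) → WithTop mo.syn := fun β => ↑(mo.toSyn β)
  have henc : Function.Injective enc := fun a b h => mo.toSyn.injective (WithTop.coe_injective h)
  have hmem : ∀ ω ∈ Kf, ∃ g ∈ W, T g ≠ 0 ∧ enc (ini g) = ω := by
    intro ω hω
    obtain ⟨g, hg, hg0, rfl⟩ := (hKf ω).1 hω
    have h0 : T g ≠ 0 := fun h => hg0 (Ideal.Quotient.eq_zero_iff_mem.2 ((hT g).1 h))
    exact ⟨g, hg, h0, (k1 g h0).symm⟩
  refine ⟨Kf.preimage enc henc.injOn, fun β hβ => ?_, ?_⟩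
  · obtain ⟨g, hg, h0, he⟩ := hmem _ (Finset.mem_preimage.1 hβ)
    exact ⟨g, hg, henc he ▸ hini g h0⟩
  · rw [← hcard, Finset.card_preimage, Finset.filter_true_of_mem]
    intro ω hω
    obtain ⟨g, -, -, he⟩ := hmem ω hω
    exact ⟨_, he⟩

/-- initial terms modulo a second ideal -/
theorem okou_key {d : ℕ} {mo : MonomialOrder.{0, 0} (Fin d)} {ν : A → ℝ≥0∞} {V : Submodule ℂ A}
    {T₀ : ℝ} {T : A →ₐ[ℂ] MvPowerSeries (Fin d) ℂ} {γ : A → Fin d →₀ ℕ} {pos : A → ℕ}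
    (hK : KeyData mo ν V T₀ T γ pos) {𝔮 : Ideal A} {τ : ℝ≥0∞} (hτ : τ ≤ ENNReal.ofReal T₀)
    (W : Submodule ℂ A) [FiniteDimensional ℂ W] (hWV : W ≤ V) (hp : ∀ f ∈ 𝔮, τ ≤ ν f)
    (hu : ∀ f ∈ W, f ∉ 𝔮 → ν f < τ) :
    ∃ K : Finset ((ℝ≥0∞ × ℕ) × (Fin d →₀ ℕ)),
      (∀ x, x ∈ K ↔ ∃ f ∈ W, f ∉ 𝔮 ∧ ((ν f, pos f), γ f) = x) ∧
      K.card = Module.finrank ℂ (W.map (Ideal.Quotient.mkₐ ℂ 𝔮).toLinearMap) ∧
      ∀ (N : ℕ) (s₀ : Fin N → A),
        N = Module.finrank ℂ (W.map (Ideal.Quotient.mkₐ ℂ 𝔮).toLinearMap) → (∀ i, s₀ i ∈ W) →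
        LinearIndependent ℂ (fun i => Ideal.Quotient.mkₐ ℂ 𝔮 (s₀ i)) →
        ∃ s : Fin N → A, (∀ i, s i ∈ W) ∧
          LinearIndependent ℂ (fun i => Ideal.Quotient.mkₐ ℂ 𝔮 (s i)) ∧
          Function.Injective (fun i => ((ν (s i), pos (s i)), γ (s i))) ∧
          ∀ i, ν (s₀ i) ≤ ν (s i) := by
  classical
  let key : A → WithTop (ℝ≥0∞ ×ₗ mo.syn ×ₗ ℕ) := fun f =>
    if f ∈ 𝔮 then ⊤ else ↑(keyOf mo ν γ pos f)
  have k0 : ∀ f, f ∈ 𝔮 → key f = ⊤ := fun f h => if_pos h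
  have k1 : ∀ f, f ∉ 𝔮 → key f = ↑(keyOf mo ν γ pos f) := fun f h => if_neg h
  have hle : ∀ f ∈ W, f ∉ 𝔮 → ν f ≤ ENNReal.ofReal T₀ := fun f hf h => (hu f hf h).le.trans hτ
  have hq0 : ∀ f, (Ideal.Quotient.mkₐ ℂ 𝔮).toLinearMap f = 0 ↔ f ∈ 𝔮 := fun f =>
    Ideal.Quotient.eq_zero_iff_mem
  obtain ⟨Kf, hKf, hcard, hbas⟩ := okounkov (Ideal.Quotient.mkₐ ℂ 𝔮).toLinearMap W key
    (fun f hf g hg => by
      by_cases h : f + g ∈ 𝔮
      · rw [k0 _ h]; exact le_top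
      · rw [k1 _ h]
        by_cases h1 : f ∈ 𝔮
        · have h2 : g ∉ 𝔮 := fun h2 => h (𝔮.add_mem h1 h2)
          rw [add_comm, hK.add' g (hWV hg) f (hWV hf) (hle g hg h2)
            ((hu g hg h2).trans_le (hp f h1)), k1 g h2]
          exact min_le_right _ _
        · by_cases h2 : g ∈ 𝔮
          · rw [hK.add' f (hWV hf) g (hWV hg) (hle f hf h1)
              ((hu f hf h1).trans_le (hp g h2)), k1 f h1]
            exact min_le_left _ _
          · rw [k1 f h1, k1 g h2, ← WithTop.coe_min]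
            exact WithTop.coe_le_coe.2 (hK.add f (hWV hf) g (hWV hg) (hle f hf h1) (hle g hg h2)))
    (fun c f hf => by
      by_cases h : c • f ∈ 𝔮
      · rw [k0 _ h]; exact le_top
      · have hc : c ≠ 0 := fun hc => h (by rw [hc, zero_smul]; exact 𝔮.zero_mem)
        have h1 : f ∉ 𝔮 := fun h1 => h (by rw [Algebra.smul_def]; exact 𝔮.mul_mem_left _ h1)
        rw [k1 _ h, k1 _ h1, hK.smul f (hWV hf) (hle f hf h1) c hc])
    (fun f _ => by
      rw [hq0]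
      exact ⟨fun h => by_contra fun h0 => WithTop.coe_ne_top ((k1 f h0).symm.trans h), k0 f⟩)
    (fun f hf g hg hfg hf' => by
      have h1 : f ∉ 𝔮 := fun h => hf' (k0 f h)
      have h2 : g ∉ 𝔮 := fun h => hf' (hfg.trans (k0 g h))
      rw [k1 f h1, k1 g h2] at hfg
      obtain ⟨c, hc⟩ := hK.leaf f (hWV hf) g (hWV hg) (hle f hf h1) (WithTop.coe_injective hfg)
      refine ⟨c, ?_⟩
      by_cases h : f - c • g ∈ 𝔮
      · rw [k0 _ h]; exact hf'.lt_top
      · rw [k1 _ h, k1 _ h1]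
        exact WithTop.coe_lt_coe.2 hc)
  let enc : (ℝ≥0∞ × ℕ) × (Fin d →₀ ℕ) → WithTop (ℝ≥0∞ ×ₗ mo.syn ×ₗ ℕ) := fun x =>
    ↑(toLex (x.1.1, toLex (mo.toSyn x.2, x.1.2)) : ℝ≥0∞ ×ₗ mo.syn ×ₗ ℕ)
  have henc : Function.Injective enc := by
    rintro ⟨⟨a, p⟩, u⟩ ⟨⟨a', p'⟩, u'⟩ h
    have h1 := toLex.injective (WithTop.coe_injective h)
    have h2 := toLex.injective (congrArg Prod.snd h1)
    have h3 : a = a' := congrArg Prod.fst h1
    have h4 : u = u' := mo.toSyn.injective (congrArg Prod.fst h2)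
    have h5 : p = p' := congrArg Prod.snd h2
    rw [h3, h4, h5]
  have k2 : ∀ f, f ∉ 𝔮 → key f = enc ((ν f, pos f), γ f) := k1
  refine ⟨Kf.preimage enc henc.injOn, fun x => ?_, ?_, fun N s₀ hN h₀ hi₀ => ?_⟩
  · rw [Finset.mem_preimage, hKf]
    refine exists_congr fun f => and_congr_right fun _ => ?_
    rw [Ne, hq0]
    refine and_congr_right fun h => ?_
    rw [k2 f h, henc.eq_iff]
  · rw [← hcard, Finset.card_preimage, Finset.filter_true_of_mem]
    intro ω hω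
    obtain ⟨f, -, h0, he⟩ := (hKf ω).1 hω
    exact ⟨_, (k2 f fun h => h0 ((hq0 f).2 h)).symm.trans he⟩
  · obtain ⟨s, hs, hi, hinj, hle'⟩ := hbas N s₀ hN h₀ hi₀
    have hn : ∀ i, s i ∉ 𝔮 := fun i h => hi.ne_zero i ((hq0 _).2 h)
    have hn₀ : ∀ i, s₀ i ∉ 𝔮 := fun i h => hi₀.ne_zero i ((hq0 _).2 h)
    refine ⟨s, hs, hi, fun i j h => hinj ?_, fun i => ?_⟩
    · show key (s i) = key (s j)
      rw [k2 _ (hn i), k2 _ (hn j)]
      exact congrArg enc h
    · have h := hle' i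
      rw [k1 _ (hn i), k1 _ (hn₀ i)] at h
      exact Prod.Lex.monotone_fst _ _ (WithTop.coe_le_coe.1 h)

theorem sum_fib {L G : Type} [DecidableEq L] [DecidableEq G] (K : Finset (L × G)) (Lb : Finset L)
    (h : ∀ x ∈ K, x.1 ∈ Lb) (f : G → ℝ) :
    ∑ a ∈ Lb, ∑ u ∈ (K.filter fun x => x.1 = a).image Prod.snd, f u = ∑ x ∈ K, f x.2 := by
  rw [← Finset.sum_fiberwise_of_maps_to h]
  refine Finset.sum_congr rfl fun a _ => Finset.sum_image ?_
  intro x hx x' hx' he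
  exact Prod.ext ((Finset.mem_filter.1 hx).2.trans (Finset.mem_filter.1 hx').2.symm) he

theorem Setup.prod_zc_mem (S : Setup n M A) {e' : ℕ} (hz : ∀ i, S.z i ∈ S.F e') (y : M) {d : ℕ}
    (ι : Fin d → Fin n) (e : Fin d →₀ ℕ) (he : ∀ i, e i ≤ 1) :
    ∏ i, S.zc y (ι i) ^ e i ∈ S.F (d * e') := by
  classical
  have h1 : (1 : A) ∈ S.F e' := S.filt.mono (Nat.zero_le _) S.filt.one_mem
  have h2 : ∀ i, S.zc y (ι i) ^ e i ∈ S.F e' := by
    intro i
    rcases Nat.le_one_iff_eq_zero_or_eq_one.1 (he i) with h | h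
    · rw [h, pow_zero]; exact h1
    · rw [h, pow_one]
      refine Submodule.sub_mem _ (hz _) ?_
      rw [Algebra.algebraMap_eq_smul_one]
      exact Submodule.smul_mem _ _ h1
  have key : ∀ t : Finset (Fin d), ∏ i ∈ t, S.zc y (ι i) ^ e i ∈ S.F (t.card * e') := by
    intro t
    induction t using Finset.induction_on with
    | empty => simpa using S.filt.one_mem
    | insert i t hi ih =>
      rw [Finset.prod_insert hi, Finset.card_insert_of_notMem hi, add_mul, one_mul, add_comm]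
      exact S.filt.mul_mem _ _ _ (h2 i) _ ih
  simpa using key Finset.univ

/-- Elements of `σ.𝔭` have `ν ≥ τ` (`Ultra.span`), elements of `F m \ σ.𝔭` have `ν < τ`.  Apply `okounkov` to `W = F l` (`l ≤ m`),
`φ = mk σ.𝔭`, `key f = if f ∈ σ.𝔭 then ⊤ else ↑(keyOf f)` in `WithTop`: finsets `Kf l` of cardinality `hf σ.𝔭 l`.  For a label `(a, p)` let
`P l (a, p) = {γ | (a, γ, p) ∈ Kf l}`.  `B` = initial exponents of `T g`, `g ∈ F k₁ \ 𝔭` (`okounkov` again with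
`key g = toSyn (inM (T g))`), `|B| = hf 𝔭 k₁`.  Step: multiply `f` by `g ∏ zc ^ e ∈ F (k₁ + n e')` (`inM.mul`, `inM_monomial`, `KeyData.mul`).  Sum `bm_chain` with
`q = (1 - ε) κ` over the finitely many labels occurring in `Kf m` and use `Big`.  The basis `s` has injective keys, hence
its keys are exactly `Kf m`. -/
theorem Cx.count (hc : Cx S) {ε : ℝ} (hε' : ε < 1) {k : ℕ} (hk : S.StepOK ε k) {𝔭 : Ideal A}
    {ν : A → ℝ≥0∞} (hν : QV S 𝔭 ν) (hd : 0 < S.dm 𝔭) (ι : Fin (S.dm 𝔭) → Fin n) (y : M)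
    (T : A →ₐ[ℂ] MvPowerSeries (Fin (S.dm 𝔭)) ℂ) (hT : ∀ g, T g = 0 ↔ g ∈ 𝔭)
    (hTz : ∀ i, T (S.zc y (ι i)) = MvPowerSeries.X i) (mo : MonomialOrder.{0, 0} (Fin (S.dm 𝔭)))
    {M₀ : ℕ} {T₀ : ℝ} {γ : A → Fin (S.dm 𝔭) →₀ ℕ} {pos : A → ℕ}
    (hK : KeyData mo ν (S.F M₀) T₀ T γ pos) (σ : Stage S) (hm : σ.m ≤ M₀) {τ : ℝ} (hτ : τ ≤ T₀)
    (hg : ∀ g ∈ σ.gens, vle ν g τ) (hu : ∀ s ∈ S.F σ.m, s ∉ σ.𝔭 → ν s < ENNReal.ofReal τ)
    (hb : S.Big ε k σ.𝔭 σ.m) {R : ℕ} (hR : σ.N ≤ R) {s₀ : Fin σ.N → A} (hs₀ : σ.IsBas s₀) :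
    ∃ s, σ.IsBas s ∧ (∀ i, ν (s₀ i) ≤ ν (s i)) ∧
      S.dm 𝔭 * ((1 - 2 * ε) * S.κ * (σ.m * σ.N) / (S.dm σ.𝔭 + 1)) ≤
        ∑ i, (min (γ (s i)).degree R : ℝ) := by
  classical
  obtain ⟨hk0, k₁, e', hke, hz, hB⟩ := hk
  have hdn : S.dm 𝔭 ≤ n := by
    rcases eq_or_ne 𝔭 ⊥ with h | h
    · rw [h, S.filt.dm_bot]
    · exact ((S.filt.dm_lt ⊥ 𝔭 Ideal.isPrime_bot hν.prime (bot_lt_iff_ne_bot.2 h)).trans_eq
        S.filt.dm_bot).le
  have hp : ∀ f ∈ σ.𝔭, ENNReal.ofReal τ ≤ ν f := fun f hf =>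
    hν.ultra.span (s := (σ.gens : Set A)) (fun g hg' => hg g hg') (σ.span_gens.symm ▸ hf)
  have hτ' := ENNReal.ofReal_le_ofReal hτ
  have := S.filt.fd
  have hex := fun l : ℕ => okou_key hK hτ' (S.F (min l σ.m))
    (S.filt.mono ((min_le_right _ _).trans hm)) hp
    fun f hf => hu f (S.filt.mono (min_le_right _ _) hf)
  choose K hKm hKc hKb using hex
  have hKm' : ∀ l ≤ σ.m, ∀ x, x ∈ K l ↔ ∃ f ∈ S.F l, f ∉ σ.𝔭 ∧ ((ν f, pos f), γ f) = x := by
    intro l hl x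
    rw [hKm, min_eq_left hl]
  have hKc' : ∀ l ≤ σ.m, (K l).card = hf S.F σ.𝔭 l := by
    intro l hl
    rw [hKc, min_eq_left hl]
    rfl
  have hKs : ∀ l l', l ≤ l' → l' ≤ σ.m → K l ⊆ K l' := by
    intro l l' h h' x hx
    obtain ⟨f, hf, h1⟩ := (hKm' l (h.trans h') x).1 hx
    exact (hKm' l' h' x).2 ⟨f, S.filt.mono h hf, h1⟩
  obtain ⟨s, hs, hi, hinj, hle⟩ := hKb σ.m σ.N s₀ (by rw [min_self]; exact σ.N_eq)
    (by rw [min_self]; exact hs₀.1) hs₀.2
  rw [min_self] at hs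
  have hbas : σ.IsBas s := ⟨hs, hi⟩
  refine ⟨s, hbas, hle, ?_⟩
  obtain ⟨B, hBm, hBc⟩ := okou_inM mo T hT (S.F k₁)
  have hq : 0 < (1 - ε) * S.κ := mul_pos (sub_pos.2 hε') S.κ_pos
  have hqB : ((1 - ε) * S.κ * k) ^ S.dm 𝔭 ≤ (S.dm 𝔭).factorial * B.card := by
    rw [hBc]
    exact hB 𝔭 hν.prime hd
  have hBne : B.Nonempty := by
    rw [Finset.nonempty_iff_ne_empty]
    rintro rfl
    have h1 : 0 < ((1 - ε) * S.κ * k) ^ S.dm 𝔭 := by positivity
    simp only [Finset.card_empty, Nat.cast_zero, mul_zero] at hqB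
    exact h1.not_ge hqB
  let P : ℝ≥0∞ × ℕ → ℕ → Finset (Fin (S.dm 𝔭) →₀ ℕ) := fun a l =>
    ((K l).filter fun x => x.1 = a).image Prod.snd
  have hP : ∀ a l u, u ∈ P a l ↔ (a, u) ∈ K l := by
    intro a l u
    simp only [P, Finset.mem_image, Finset.mem_filter]
    constructor
    · rintro ⟨x, ⟨hx, rfl⟩, rfl⟩
      exact hx
    · intro h
      exact ⟨_, ⟨h, rfl⟩, rfl⟩
  have hchain : ∀ a, (1 - ε) * S.κ * S.dm 𝔭 * ∑ l ∈ Finset.range (σ.m + 1 - k), ((P a l).card : ℝ) -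
      S.dm 𝔭 * (P a σ.m).card ≤ ∑ u ∈ P a σ.m, (min u.degree R : ℝ) := by
    intro a
    refine bm_chain hc.al.bm hc.al.deg hd (P a) B hBne hk0 hq.le hqB ?_ ?_ ?_
    · intro l l' h h' u hu'
      exact (hP _ _ _).2 (hKs l l' h h' ((hP _ _ _).1 hu'))
    · intro l hl u hu' v hv e he
      obtain ⟨f, hf, hf', h1⟩ := (hKm' l (le_of_add_le_left hl) _).1 ((hP _ _ _).1 hu')
      obtain ⟨g, hg', hgv⟩ := hBm v hv
      have h2 : inM mo (T (g * ∏ i, S.zc y (ι i) ^ e i)) (v + e) := by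
        rw [map_mul, map_prod]
        simp only [map_pow, hTz]
        exact hgv.mul (inM_monomial mo e)
      have h3 : (g * ∏ i, S.zc y (ι i) ^ e i) * f ∈ S.F (l + k) := by
        refine S.filt.mono ?_ (S.filt.mul_mem _ _ _
          (S.filt.mul_mem _ _ _ hg' _ (S.prod_zc_mem hz y ι e he)) _ hf)
        have := Nat.mul_le_mul_right e' hdn
        omega
      have hfm : f ∈ S.F σ.m := S.filt.mono (le_of_add_le_left hl) hf
      obtain ⟨h4, h5, h6⟩ := hK.mul f (S.filt.mono hm hfm) ((hu f hfm hf').le.trans hτ') _ _ h2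
        (S.filt.mono (hl.trans hm) h3)
      refine (hP _ _ _).2 ((hKm' _ hl _).2 ⟨_, h3, fun h => ?_, ?_⟩)
      · exact (hu f hfm hf').not_ge (h4 ▸ hp _ h)
      · rw [h4, h5, h6, add_assoc]
        rw [Prod.mk.injEq] at h1
        rw [h1.1, h1.2]
    · refine Finset.card_image_le.trans ((Finset.card_filter_le _ _).trans ?_)
      rw [hKc' _ le_rfl, ← σ.N_eq]
      exact hR
  let Lb := (K σ.m).image Prod.fst
  have hcard : ∀ l ≤ σ.m, ∑ a ∈ Lb, ((P a l).card : ℝ) = hf S.F σ.𝔭 l := by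
    intro l hl
    have h := sum_fib (K l) Lb
      (fun x hx => Finset.mem_image_of_mem _ (hKs l _ hl le_rfl hx)) fun _ => 1
    simp only [Finset.sum_const, nsmul_eq_mul, mul_one] at h
    rw [← hKc' l hl]
    exact h
  have hsum := Finset.sum_le_sum fun a (_ : a ∈ Lb) => hchain a
  rw [Finset.sum_sub_distrib, ← Finset.mul_sum, ← Finset.mul_sum, Finset.sum_comm,
    hcard _ le_rfl, Finset.sum_congr rfl fun l hl => hcard l (by
      have := Finset.mem_range.1 hl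
      omega),
    sum_fib (K σ.m) Lb (fun x hx => Finset.mem_image_of_mem _ hx)
      fun u => (min u.degree R : ℝ)] at hsum
  have himg : Finset.univ.image (fun i => ((ν (s i), pos (s i)), γ (s i))) = K σ.m := by
    refine Finset.eq_of_subset_of_card_le (fun x hx => ?_) ?_
    · obtain ⟨i, -, rfl⟩ := Finset.mem_image.1 hx
      exact (hKm' _ le_rfl _).2 ⟨s i, hs i, Stage.IsBas.not_mem σ hbas i, rfl⟩
    · rw [Finset.card_image_of_injective _ hinj, hKc' _ le_rfl, ← σ.N_eq, Finset.card_univ,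
        Fintype.card_fin]
  rw [← himg, Finset.sum_image fun i _ j _ h => hinj h] at hsum
  refine le_trans ?_ hsum
  have hb' := mul_le_mul_of_nonneg_left hb (Nat.cast_nonneg (α := ℝ) (S.dm 𝔭))
  rw [← σ.N_eq] at hb' ⊢
  refine hb'.trans_eq ?_
  ring

end Crest.Agent.R271
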