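import Crest.Agent.R271.H.Meas

/-!
# Row 271, block St: definitions (owner helper27; FROZEN)
-/

set_option autoImplicit false
set_option linter.unusedSectionVars false

open MeasureTheory Filter Topology Set
open scoped ENNReal

noncomputable section

namespace Crest.Agent.R271

variable {n : ℕ} {M : Type} [TopologicalSpace M] [MeasurableSpace M] {A : Type} [CommRing A]
  [Algebra ℂ A]

/-- volume rate of a family of sets -/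
def Dom.RateS (D : Dom n M) (P : ℝ → Set M) (y : M) (α : ℝ) : Prop :=
  ∀ δ : ℝ, 0 < δ → ∀ U ∈ 𝓝 y, ∃ c : ℝ, 0 < c ∧ ∀ t : ℝ, 0 ≤ t →
    ENNReal.ofReal (c * Real.exp (-(α + δ) * t)) ≤ D.μ (U ∩ P t)

/-- the polyhedra of `Dom.Rate` -/
def poly {ι : Type} (h : ι → M → ℝ) (a : ι → ℝ) (t : ℝ) : Set M :=
  {x | ∀ i, 0 < a i → h i x < Real.exp (-(a i) * t)}

theorem Dom.rate_iff (D : Dom n M) {ι : Type} (h : ι → M → ℝ) (a : ι → ℝ) (y : M) (α : ℝ) :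
    D.Rate h a y α ↔ D.RateS (poly h a) y α := Iff.rfl

/-- `g = O(exp (-a t))` on `P t`, near `y` -/
def Small (P : ℝ → Set M) (y : M) (g : M → ℝ) (a : ℝ) : Prop :=
  ∃ U ∈ 𝓝 y, ∃ C : ℝ, ∀ t : ℝ, 0 ≤ t → ∀ x ∈ U ∩ P t, g x ≤ C * Real.exp (-a * t)

/-- weighted product -/
def prodW {K : Type} [Fintype K] (h : K → M → ℝ) (w : K → ℝ) (y : M) : ℝ := ∏ k, h k y ^ w k

/-- everything the block uses from the other blocks -/
structure Cx (S : Setup n M A) : Prop where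
  hn : 1 ≤ n
  lp : StLP S.toAff
  vol : StVol S.toAff
  rate : StRate S.toAff
  sum : StSum S.toAff
  lim : StLim S.toAff
  zar : StZar S.toAff
  co : StCo S.toAff
  al : AlB

namespace Setup
variable (S : Setup n M A)

/-- growth `G ^ t` -/
def Gr (g : M → ℝ) (t : ℝ) : Prop := ∃ C : ℝ, ∀ y, g y ≤ C * S.G y ^ t

/-- `∑ |f| ^ (2 e)` -/
def fanF (Φ : Finset (A × ℝ)) (y : M) : ℝ := ∑ q ∈ Φ, S.sq q.1 y ^ q.2

/-- the coordinate `z i` centred at `y` -/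
def zc (y : M) (i : Fin n) : A := S.z i - algebraMap ℂ A (S.p y i)

/-- the conclusion of the block -/
def Concl (x : M) : Prop := ∃ (g : M → ℝ) (t C : ℝ), S.LP g ∧ 0 ≤ t ∧ t * S.κ < n + 1 ∧
  (∀ y, g y ≤ C * S.G y ^ t) ∧ S.Sing g x ∧ ∀ᶠ y in 𝓝[≠] x, ¬ S.Sing g y

/-- the uniform step of the Brunn-Minkowski chain -/
def StepOK (ε : ℝ) (k : ℕ) : Prop := 0 < k ∧ ∃ k₁ e : ℕ, k₁ + n * e ≤ k ∧ (∀ i, S.z i ∈ S.F e) ∧
  ∀ 𝔭 : Ideal A, 𝔭.IsPrime → 0 < S.dm 𝔭 →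
    ((1 - ε) * S.κ * k) ^ S.dm 𝔭 ≤ (S.dm 𝔭).factorial * hf S.F 𝔭 k₁

/-- the level `m` is large for `𝔭` -/
def Big (ε : ℝ) (k : ℕ) (𝔭 : Ideal A) (m : ℕ) : Prop :=
  (1 - 2 * ε) * S.κ * (m * hf S.F 𝔭 m) / (S.dm 𝔭 + 1) ≤
    (1 - ε) * S.κ * ∑ l ∈ Finset.range (m + 1 - k), (hf S.F 𝔭 l : ℝ) - hf S.F 𝔭 m

end Setup

/-- a saturated quasi-valuation with centre `𝔭` and volume rate at most one along `V 𝔭` -/
structure QV (S : Setup n M A) (𝔭 : Ideal A) (ν : A → ℝ≥0∞) : Prop where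
  prime : 𝔭.IsPrime
  add : ∀ f g, min (ν f) (ν g) ≤ ν (f + g)
  mul : ∀ f g, ν f + ν g ≤ ν (f * g)
  zero : ν 0 = ⊤
  sat : ∀ h f, h ∉ 𝔭 → ν (h * f) ≤ ν f
  pos : ∀ f, 0 < ν f ↔ f ∈ 𝔭
  disc : ∀ T : ℝ, {r | r ∈ range ν ∧ r ≤ ENNReal.ofReal T}.Finite
  rate : ∀ y ∈ S.V 𝔭, ∀ (ι : Type) [Fintype ι] (f : ι → A) (a : ι → ℝ),
    (∀ i, ENNReal.ofReal (a i) ≤ ν (f i)) → S.Rate (fun i => S.sq (f i)) a y 1

/-- a subvariety `V 𝔭`, a level `m`, a basis of `F m` modulo `𝔭` -/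
structure Stage (S : Setup n M A) where
  𝔭 : Ideal A
  prime : 𝔭.IsPrime
  m : ℕ
  m_pos : 0 < m
  N : ℕ
  N_pos : 0 < N
  N_eq : N = hf S.F 𝔭 m
  b : Fin N → A
  b_mem : ∀ i, b i ∈ S.F m
  b_ind : LinearIndependent ℂ fun i => Ideal.Quotient.mkₐ ℂ 𝔭 (b i)
  gens : Finset A
  span_gens : Ideal.span (gens : Set A) = 𝔭
  gens_mem : ∀ g ∈ gens, g ∈ S.F m

namespace Stage
variable {S : Setup n M A} (σ : Stage S)

/-- lifts of a basis of `F m` modulo `𝔭` -/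
def IsBas (s : Fin σ.N → A) : Prop :=
  (∀ i, s i ∈ S.F σ.m) ∧ LinearIndependent ℂ fun i => Ideal.Quotient.mkₐ ℂ σ.𝔭 (s i)

/-- orthonormal frames -/
def Fr : Type := {u : Fin σ.N → EuclideanSpace ℂ (Fin σ.N) // Orthonormal ℂ u}

/-- the basis given by a frame -/
def sec (u : σ.Fr) (i : Fin σ.N) : A := ∑ k, u.1 i k • σ.b k

/-- `|s i|² + ∑ |g|²` -/
def atom (u : σ.Fr) (i : Fin σ.N) (y : M) : ℝ := S.sq (σ.sec u i) y + ∑ g ∈ σ.gens, S.sq g y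

end Stage

/-- stages and fans -/
structure Shape (S : Setup n M A) where
  J : Type
  [fJ : Fintype J]
  [dJ : DecidableEq J]
  st : J → Stage S
  I : Type
  [fI : Fintype I]
  fan : I → Finset (A × ℝ)
  fan_pos : ∀ k, ∀ q ∈ fan k, 0 < q.2
  fan_ne : ∀ k, ∃ q ∈ fan k, q.1 ≠ 0

attribute [instance] Shape.fJ Shape.dJ Shape.fI

namespace Shape
variable {S : Setup n M A} (sh : Shape S)

/-- index type of the atoms -/
abbrev At : Type := (Σ j : sh.J, Fin (sh.st j).N) ⊕ sh.I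

/-- configurations -/
def Cfg : Type := ∀ j, (sh.st j).Fr

/-- the atoms of a configuration -/
def atom (c : sh.Cfg) : sh.At → M → ℝ :=
  Sum.elim (fun q => (sh.st q.1).atom (c q.1) q.2) fun k => S.fanF (sh.fan k)

/-- the weights of the atoms -/
def wt (lam : sh.J → ℝ) (μ : sh.I → ℝ) : sh.At → ℝ :=
  Sum.elim (fun q => lam q.1 / ((sh.st q.1).m * (sh.st q.1).N)) μ

/-- all configurations are log canonical at `x` -/
def LC (w : sh.At → ℝ) (x : M) : Prop :=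
  ∀ (c : sh.Cfg) (β : ℝ), 0 ≤ β → β < 1 → ¬ S.Sing (prodW (sh.atom c) fun k => β * w k) x

/-- bases with exponents -/
structure WD where
  s : ∀ j, Fin (sh.st j).N → A
  bas : ∀ j, (sh.st j).IsBas (s j)
  a : sh.At → ℝ
  nonneg : ∀ k, 0 ≤ a k
  τ : sh.J → ℝ
  le_τ : ∀ j i, a (Sum.inl ⟨j, i⟩) ≤ τ j

variable {sh}

/-- the exponents are lower bounds in the sense of `sm` -/
structure WD.Sat (W : sh.WD) (sm : A → ℝ → Prop) : Prop where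
  hs : ∀ j i, sm (W.s j i) (W.a (Sum.inl ⟨j, i⟩))
  hτ : ∀ j, ∀ g ∈ (sh.st j).gens, sm g (W.τ j)
  hf : ∀ k, ∀ q ∈ sh.fan k, sm q.1 (W.a (Sum.inr k) / q.2)

/-- weighted sum of the exponents -/
def WD.val (W : sh.WD) (w : sh.At → ℝ) : ℝ := ∑ k, w k * W.a k

variable (sh)

/-- add one stage and one fan -/
def ext (σ : Stage S) (χ : Finset (A × ℝ)) (hpos : ∀ q ∈ χ, 0 < q.2) (hne : ∃ q ∈ χ, q.1 ≠ 0) :
    Shape S where
  J := Option sh.J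
  st := fun j => j.elim σ sh.st
  I := Option sh.I
  fan := fun k => k.elim χ sh.fan
  fan_pos := by rintro (_ | k); exacts [hpos, sh.fan_pos k]
  fan_ne := by rintro (_ | k); exacts [hne, sh.fan_ne k]

end Shape

/-- `a ≤ ν f` -/
def vle (ν : A → ℝ≥0∞) (f : A) (a : ℝ) : Prop := ENNReal.ofReal a ≤ ν f

/-- smallness of `|f|²` -/
def Setup.sml (S : Setup n M A) (P : ℝ → Set M) (y : M) (f : A) (a : ℝ) : Prop :=
  Small P y (S.sq f) a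

/-- smallness with respect to the test valuation `ν ⊕ θ · ord_y` -/
def Setup.TSm (S : Setup n M A) (ν : A → ℝ≥0∞) {d : ℕ} (ι : Fin d → Fin n) (θ : ℝ) (y : M) (f : A)
    (a : ℝ) : Prop :=
  ∃ D : Finset (A × ℝ), (∀ q ∈ D, vle ν q.1 q.2) ∧ ∀ P : ℝ → Set M,
    (∀ q ∈ D, S.sml P y q.1 q.2) → (∀ i, S.sml P y (S.zc y (ι i)) θ) → S.sml P y f a

/-- the invariant of the induction -/
structure State (S : Setup n M A) (x : M) (ε γ₀ : ℝ) (k : ℕ) where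
  sh : Shape S
  lam : sh.J → ℝ
  μ : sh.I → ℝ
  lam_nonneg : ∀ j, 0 ≤ lam j
  μ_nonneg : ∀ i, 0 ≤ μ i
  𝔭 : Ideal A
  ν : A → ℝ≥0∞
  qv : QV S 𝔭 ν
  x_mem : x ∈ S.V 𝔭
  dm_lt : S.dm 𝔭 < n
  lc : sh.LC (sh.wt lam μ) x
  W : sh.WD
  sat : W.Sat (vle ν)
  tight : 1 ≤ W.val (sh.wt lam μ)
  untr : ∀ j, 0 < lam j → ∀ s ∈ S.F (sh.st j).m, s ∉ (sh.st j).𝔭 → ν s < ENNReal.ofReal (W.τ j)
  big : ∀ j, S.Big ε k (sh.st j).𝔭 (sh.st j).m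
  i1 : ∑ j, lam j * S.κ / (S.dm (sh.st j).𝔭 + 1) ≤ (1 + ε) / (1 - 2 * ε)
  i2 : ∑ j, (if S.dm (sh.st j).𝔭 < n then 0 else lam j * S.κ) ≤ n + 1 - γ₀
  i3 : ∃ tk : sh.I → ℝ, (∀ i, 0 ≤ tk i ∧ S.Gr (S.fanF (sh.fan i)) (tk i)) ∧
    ∑ i, μ i * tk i ≤ ε * (n - S.dm 𝔭)

/-- the initial exponent of a power series for a monomial order -/
def inM {d : ℕ} (mo : MonomialOrder (Fin d)) (φ : MvPowerSeries (Fin d) ℂ) (γ : Fin d →₀ ℕ) : Prop :=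
  MvPowerSeries.coeff γ φ ≠ 0 ∧
    ∀ γ', MvPowerSeries.coeff γ' φ ≠ 0 → mo.toSyn γ ≤ mo.toSyn γ'

end Crest.Agent.R271
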