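import Crest.Agent.R271.St.TayW
import Crest.Agent.R271.St.Big
import Crest.Agent.R271.St.Pts

/-!
# Row 271, block St: the base locus dichotomy
-/

set_option autoImplicit false
set_option linter.unusedSectionVars false

open MeasureTheory Filter Topology Set
open scoped ENNReal

noncomputable section

namespace Crest.Agent.R271

variable {n : ℕ} {M : Type} [TopologicalSpace M] [T2Space M] [SecondCountableTopology M]
  [MeasurableSpace M] [BorelSpace M] {A : Type} [CommRing A] [IsDomain A] [Algebra ℂ A]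
  {S : Setup n M A}

theorem ceil_le_order {φ : MvPowerSeries (Fin n) ℂ} {r : ℝ}
    (h : ∀ γ, MvPowerSeries.coeff γ φ ≠ 0 → r ≤ (γ.degree : ℝ)) : (⌈r⌉₊ : ℕ∞) ≤ φ.order :=
  MvPowerSeries.nat_le_order fun γ hγ => not_not.1 fun hc =>
    (h γ hc).not_gt (Nat.lt_ceil.1 (by exact_mod_cast hγ))

/-- vanishing order gives smallness on the coordinate polydiscs -/
theorem Cx.tay_sml (hc : Cx S) {x : M} {T : A →ₐ[ℂ] MvPowerSeries (Fin n) ℂ} (hT : TayX S x T)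
    {s : A} {r : ℝ} (h : ∀ γ, MvPowerSeries.coeff γ (T s) ≠ 0 → r ≤ (γ.degree : ℝ)) :
    S.sml (poly (fun i => S.sq (S.zc x i)) fun _ => 1) x s r := by
  obtain ⟨h', h1, h2⟩ := hT.ord s _ (ceil_le_order h)
  have h3 := hc.sml_pow (a := 1) (fun g hg => (hc.ultra _ x).span (by
    rintro _ ⟨i, rfl⟩
    exact hc.sml_poly (S.zc x) (fun _ => 1) x i) hg) _ _ h2
  exact (hc.ultra _ x).mono (hc.sml_of_mul h1 h3) (by simpa using Nat.le_ceil r)

/-- sections of level `l` vanishing to order `a l` -/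
def vanU (S : Setup n M A) (T : A →ₐ[ℂ] MvPowerSeries (Fin n) ℂ) (a : ℝ) (l : ℕ) : Submodule ℂ A where
  carrier := {s | s ∈ S.F l ∧ ∀ γ : Fin n →₀ ℕ, (γ.degree : ℝ) < a * l → MvPowerSeries.coeff γ (T s) = 0}
  add_mem' := fun hf hg => ⟨add_mem hf.1 hg.1, fun γ h => by simp [hf.2 γ h, hg.2 γ h]⟩
  zero_mem' := ⟨zero_mem _, fun γ _ => by simp⟩
  smul_mem' := fun c f hf => ⟨Submodule.smul_mem _ c hf.1, fun γ h => by simp [hf.2 γ h]⟩

theorem mem_vanU {T : A →ₐ[ℂ] MvPowerSeries (Fin n) ℂ} {a : ℝ} {l : ℕ} {s : A} :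
    s ∈ vanU S T a l ↔
      s ∈ S.F l ∧ ∀ γ, MvPowerSeries.coeff γ (T s) ≠ 0 → a * l ≤ (γ.degree : ℝ) :=
  and_congr_right fun _ => forall_congr' fun _ => by rw [← not_lt, not_imp_not]

theorem pow_mem_vanU {T : A →ₐ[ℂ] MvPowerSeries (Fin n) ℂ} {a : ℝ} {l : ℕ} {s : A}
    (hs : s ∈ vanU S T a l) (k : ℕ) : s ^ k ∈ vanU S T a (k * l) := by
  rw [mem_vanU] at hs ⊢
  refine ⟨?_, fun γ hγ => ?_⟩
  · induction k with
    | zero => simpa using S.filt.one_mem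
    | succ k ih => rw [pow_succ, Nat.succ_mul]; exact S.filt.mul_mem _ _ _ ih _ hs.1
  · rw [map_pow] at hγ
    have h1 := ((nsmul_le_nsmul_right (ceil_le_order hs.2) k).trans
      (MvPowerSeries.le_order_pow k)).trans (MvPowerSeries.order_le hγ)
    rw [nsmul_eq_mul] at h1
    have h2 : ((k * ⌈a * l⌉₊ : ℕ) : ℝ) ≤ γ.degree := by exact_mod_cast h1
    have h3 := mul_le_mul_of_nonneg_left (Nat.le_ceil (a * l)) (Nat.cast_nonneg (α := ℝ) k)
    push_cast at h2 ⊢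
    linarith

theorem Cx.concl_of_isolated (hc : Cx S) {x : M} {T : A →ₐ[ℂ] MvPowerSeries (Fin n) ℂ}
    (hT : TayX S x T) {a : ℝ} (ha : 0 < a) (han : n * S.κ < a * (n + 1)) {l : ℕ} (hl : 0 < l)
    (h : ∀ᶠ y in 𝓝[≠] x, ∃ s ∈ vanU S T a l, S.ev y s ≠ 0) : S.Concl x := by
  classical
  have := S.filt.fd l
  have : FiniteDimensional ℂ (vanU S T a l) :=
    Submodule.finiteDimensional_of_le (S₂ := S.F l) fun _ hs => hs.1
  obtain ⟨Φ, hΦ⟩ := (Submodule.fg_iff_finiteDimensional _).2 this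
  have hmem : ∀ s ∈ Φ, s ∈ vanU S T a l := fun s hs => hΦ ▸ Submodule.subset_span hs
  have key : ∀ Ψ : Finset A, (∀ s ∈ Ψ, s ∈ S.F l) →
      S.LP (fun y => ∑ s ∈ Ψ, S.sq s y) ∧ S.Gr (fun y => ∑ s ∈ Ψ, S.sq s y) l := by
    intro Ψ hΨ
    induction Ψ using Finset.induction_on with
    | empty => exact ⟨by simpa using hc.lp.const 0 le_rfl, 0, by simp⟩
    | insert s Ψ hs ih =>
      simp only [Finset.sum_insert hs]
      have := ih fun s hs => hΨ s (by simp [hs])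
      exact ⟨hc.lp.add _ _ (hc.lp.sq s) this.1, (S.gr_sq (hΨ s (by simp))).add this.2⟩
  obtain ⟨hlp, hgr⟩ := key Φ fun s hs => (hmem s hs).1
  have h0 : ∀ y, 0 ≤ ∑ s ∈ Φ, S.sq s y := fun y => Finset.sum_nonneg fun s _ => S.sq_nonneg s y
  obtain ⟨t, ht1, ht2⟩ := exists_between (show n / a < (n + 1) / S.κ by
    rw [div_lt_div_iff₀ ha S.κ_pos]; linarith)
  have ht0 : 0 ≤ t := le_trans (by positivity) ht1.le
  have hl' : (l : ℝ) ≠ 0 := by positivity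
  have he : 0 ≤ t / l := by positivity
  have hg := hc.lp.rpow _ _ hlp he
  obtain ⟨C, hC⟩ := hgr.rpow h0 he
  rw [div_mul_cancel₀ _ hl'] at hC
  refine ⟨_, t, C, hg, ht0, (lt_div_iff₀ S.κ_pos).1 ht2, hC, ?_, h.mono ?_⟩
  · refine sing_of_rate _ (hc.co n id x 1 zero_le_one) hg.1 ((Small.sum Φ (fun s => S.sq s)
      fun s hs => hc.tay_sml hT (mem_vanU.1 (hmem s hs)).2).rpow h0 he) ?_
    rw [div_lt_iff₀ ha] at ht1
    rwa [one_mul, mul_comm a, ← mul_assoc, div_mul_cancel₀ _ hl']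
  · rintro y ⟨s, hs, hy⟩
    refine not_sing_of_pos _ hg.1 (Real.rpow_pos_of_pos (lt_of_le_of_ne (h0 y) fun h1 => hy ?_) _)
    have h2 := (Finset.sum_eq_zero_iff_of_nonneg fun s _ => S.sq_nonneg s y).1 h1.symm
    have h3 : Submodule.span ℂ (Φ : Set A) ≤ LinearMap.ker (S.ev y).toLinearMap :=
      Submodule.span_le.2 fun s hs => by simpa [Aff.sq] using h2 s hs
    exact h3 (hΦ ▸ hs)

theorem Cx.base_dich' (hc : Cx S) {x : M} {T : A →ₐ[ℂ] MvPowerSeries (Fin n) ℂ} (hT : TayX S x T)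
    {a : ℝ} (ha : 0 < a) (han : n * S.κ < a * (n + 1)) :
    S.Concl x ∨ ∃ (𝔮 : Ideal A) (h : A), 𝔮.IsPrime ∧ x ∈ S.V 𝔮 ∧ S.ev x h = 0 ∧ h ∉ 𝔮 ∧
      ∀ l : ℕ, 0 < l → ∀ s ∈ S.F l,
        (∀ γ, MvPowerSeries.coeff γ (T s) ≠ 0 → a * l ≤ (γ.degree : ℝ)) → s ∈ 𝔮 := by
  refine or_iff_not_imp_left.2 fun hn => ?_
  have := S.noeth
  let J : ℕ → Ideal A := fun l => (Ideal.span (vanU S T a l : Set A)).radical
  have hJ : ∀ k l, J l ≤ J (k * l) := fun k l =>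
    Ideal.radical_le_radical_iff.2 (Ideal.span_le.2 fun s hs =>
      ⟨k, Ideal.subset_span (pow_mem_vanU hs k)⟩)
  obtain ⟨_, ⟨L, hL, rfl⟩, hmax⟩ := set_has_maximal_iff_noetherian.2 (inferInstance : IsNoetherian A A)
    (J '' {l | 0 < l}) ⟨_, 1, Nat.one_pos, rfl⟩
  have hle : ∀ l, 0 < l → J l ≤ J L := fun l hl => by
    have h1 : J L = J (l * L) := (hJ l L).eq_of_not_lt (hmax _ ⟨_, Nat.mul_pos hl hL, rfl⟩)
    rw [h1, mul_comm]
    exact hJ L l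
  have hfin := (J L).finite_minimalPrimes_of_isNoetherianRing
  have h1 : ∀ᶠ y in 𝓝 x, ∀ 𝔮 ∈ (J L).minimalPrimes, x ∉ S.V 𝔮 → y ∉ S.V 𝔮 :=
    (eventually_all_finite hfin).2 fun 𝔮 _ => by
      by_cases hx : x ∈ S.V 𝔮
      · simp [hx]
      · filter_upwards [(S.isClosed_V 𝔮).isOpen_compl.mem_nhds hx] with y hy _ using hy
  obtain ⟨y, h2, h3, hyx⟩ := ((not_eventually.1 fun h => hn (hc.concl_of_isolated hT ha han hL h)).and_eventually
    ((h1.filter_mono nhdsWithin_le_nhds).and self_mem_nhdsWithin)).exists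
  have hp : (RingHom.ker (S.ev y)).IsPrime := RingHom.ker_isPrime _
  obtain ⟨𝔮, h𝔮, hq⟩ := Ideal.exists_minimalPrimes_le (I := J L) (J := RingHom.ker (S.ev y))
    (hp.radical_le_iff.2 (Ideal.span_le.2 fun s hs => not_not.1 fun h => h2 ⟨s, hs, h⟩))
  have hx : x ∈ S.V 𝔮 := not_not.1 fun h => h3 𝔮 h𝔮 h fun s hs => hq hs
  obtain ⟨h, h4, h5⟩ : ∃ h, S.ev x h = 0 ∧ h ∉ 𝔮 := by
    by_contra! h4
    exact hyx (S.eq_of_ker fun s hs => hq (h4 s hs))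
  exact ⟨𝔮, h, h𝔮.1.1, hx, h4, h5, fun l hl s hs hs' => h𝔮.1.2 (hle l hl
    (Ideal.le_radical (Ideal.subset_span (mem_vanU.2 ⟨hs, hs'⟩))))⟩

end Crest.Agent.R271
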