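import Crest.Agent.R271.St.Lim

/-!
# Row 271, block St: adding a stage and a fan
-/

set_option autoImplicit false
set_option linter.unusedSectionVars false

open MeasureTheory Filter Topology Set
open scoped ENNReal

noncomputable section

namespace Crest.Agent.R271

variable {n : ℕ} {M : Type} [TopologicalSpace M] [T2Space M] [SecondCountableTopology M]
  [MeasurableSpace M] [BorelSpace M] {A : Type} [CommRing A] [IsDomain A] [Algebra ℂ A]
  {S : Setup n M A}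

namespace Shape
variable {sh : Shape S} {σ : Stage S} {χ : Finset (A × ℝ)} {hpos : ∀ q ∈ χ, 0 < q.2}
  {hne : ∃ q ∈ χ, q.1 ≠ 0}

/-- weights on an `Option` type -/
def optW {J : Type} (l c : ℝ) (lam : J → ℝ) : Option J → ℝ := fun j => j.elim l fun j => c * lam j

theorem optW_nonneg {J : Type} {l c : ℝ} {lam : J → ℝ} (hl : 0 ≤ l) (hc : 0 ≤ c)
    (h : ∀ j, 0 ≤ lam j) : ∀ j, 0 ≤ optW l c lam j := by
  rintro (_ | j)
  · exact hl
  · exact mul_nonneg hc (h j)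

/-- old atoms among the new ones -/
def emb (σ : Stage S) (χ : Finset (A × ℝ)) (hpos : ∀ q ∈ χ, 0 < q.2) (hne : ∃ q ∈ χ, q.1 ≠ 0) :
    sh.At → (sh.ext σ χ hpos hne).At :=
  Sum.elim (fun q => Sum.inl ⟨some q.1, q.2⟩) fun k => Sum.inr (some k)

theorem sum_ext (l b c : ℝ) (lam : sh.J → ℝ) (μ : sh.I → ℝ) (a : (sh.ext σ χ hpos hne).At → ℝ) :
    ∑ k, (sh.ext σ χ hpos hne).wt (optW l c lam) (optW b c μ) k * a k =
      c * ∑ k, sh.wt lam μ k * a (emb σ χ hpos hne k) +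
        l / (σ.m * σ.N) * ∑ i : Fin σ.N, a (Sum.inl ⟨none, i⟩) + b * a (Sum.inr none) := by
  rw [sum_wt, sum_wt]
  erw [Fintype.sum_option, Fintype.sum_option]
  simp only [optW, emb, Option.elim, Sum.elim_inl, Sum.elim_inr, mul_add, Finset.mul_sum]
  have h1 : ∀ x : sh.J, ∑ i : Fin ((sh.ext σ χ hpos hne).st (some x)).N,
      c * lam x / ((((sh.ext σ χ hpos hne).st (some x)).m : ℝ) *
        ((sh.ext σ χ hpos hne).st (some x)).N) * a (Sum.inl ⟨some x, i⟩) =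
      ∑ i : Fin (sh.st x).N, c * (lam x / ((sh.st x).m * (sh.st x).N) * a (Sum.inl ⟨some x, i⟩)) := by
    intro x
    refine Finset.sum_congr rfl fun i _ => ?_
    change c * lam x / (((sh.st x).m : ℝ) * (sh.st x).N) * _ = _
    ring
  have h2 : ∀ x : sh.I, c * μ x * a (Sum.inr (some x)) = c * (μ x * a (Sum.inr (some x))) :=
    fun x => by ring
  simp only [h1, h2]
  change (∑ i : Fin σ.N, l / ((σ.m : ℝ) * σ.N) * a (Sum.inl ⟨none, i⟩)) + _ + _ = _
  ring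

/-- forget the new stage and the new fan -/
def WD.res (W : (sh.ext σ χ hpos hne).WD) : sh.WD where
  s := fun j => W.s (some j)
  bas := fun j => W.bas (some j)
  a := fun k => W.a (emb σ χ hpos hne k)
  nonneg := fun _ => W.nonneg _
  τ := fun j => W.τ (some j)
  le_τ := fun j i => W.le_τ (some j) i

theorem WD.Sat.res {W : (sh.ext σ χ hpos hne).WD} {sm : A → ℝ → Prop} (h : W.Sat sm) :
    W.res.Sat sm :=
  ⟨fun j i => h.hs (some j) i, fun j => h.hτ (some j), fun k => h.hf (some k)⟩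

theorem WD.val_ext (W : (sh.ext σ χ hpos hne).WD) (l b c : ℝ) (lam : sh.J → ℝ) (μ : sh.I → ℝ) :
    W.val ((sh.ext σ χ hpos hne).wt (optW l c lam) (optW b c μ)) =
      c * W.res.val (sh.wt lam μ) +
        l / (σ.m * σ.N) * ∑ i : Fin σ.N, W.a (Sum.inl ⟨none, i⟩) + b * W.a (Sum.inr none) :=
  sum_ext l b c lam μ W.a

/-- extend by the trivial exponents on the new stage -/
def WD.extend (W : sh.WD) (σ : Stage S) (χ : Finset (A × ℝ)) (hpos : ∀ q ∈ χ, 0 < q.2)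
    (hne : ∃ q ∈ χ, q.1 ≠ 0) (τ₀ v₀ : ℝ) (hτ : 0 ≤ τ₀) (hv : 0 ≤ v₀) :
    (sh.ext σ χ hpos hne).WD where
  s := fun j => match j with
    | none => σ.b
    | some j => W.s j
  bas := fun j => match j with
    | none => σ.b_isBas
    | some j => W.bas j
  a := fun k => match k with
    | Sum.inl ⟨none, _⟩ => 0
    | Sum.inl ⟨some j, i⟩ => W.a (Sum.inl ⟨j, i⟩)
    | Sum.inr none => v₀
    | Sum.inr (some k) => W.a (Sum.inr k)
  nonneg := fun k => match k with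
    | Sum.inl ⟨none, _⟩ => le_rfl
    | Sum.inl ⟨some _, _⟩ => W.nonneg _
    | Sum.inr none => hv
    | Sum.inr (some _) => W.nonneg _
  τ := fun j => j.elim τ₀ W.τ
  le_τ := fun j => match j with
    | none => fun _ => hτ
    | some j => W.le_τ j

theorem WD.Sat.extend {W : sh.WD} {sm : A → ℝ → Prop} (hu : Ultra sm) (h : W.Sat sm) {τ₀ v₀ : ℝ}
    (hτ : 0 ≤ τ₀) (hv : 0 ≤ v₀) (hg : ∀ g ∈ σ.gens, sm g τ₀) (hf : ∀ q ∈ χ, sm q.1 (v₀ / q.2)) :
    (W.extend σ χ hpos hne τ₀ v₀ hτ hv).Sat sm := by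
  refine ⟨?_, ?_, ?_⟩
  · rintro (_ | j) i
    · exact hu.nonpos _ le_rfl
    · exact h.hs j i
  · rintro (_ | j)
    · exact hg
    · exact h.hτ j
  · rintro (_ | k)
    · exact hf
    · exact h.hf k

theorem WD.extend_res_val (W : sh.WD) {τ₀ v₀ : ℝ} (hτ : 0 ≤ τ₀) (hv : 0 ≤ v₀) (w : sh.At → ℝ) :
    (W.extend σ χ hpos hne τ₀ v₀ hτ hv).res.val w = W.val w := by
  refine Finset.sum_congr rfl ?_
  rintro (q | k) _ <;> rfl

theorem WD.extend_val (W : sh.WD) {τ₀ v₀ : ℝ} (hτ : 0 ≤ τ₀) (hv : 0 ≤ v₀) (l b c : ℝ)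
    (lam : sh.J → ℝ) (μ : sh.I → ℝ) :
    (W.extend σ χ hpos hne τ₀ v₀ hτ hv).val
      ((sh.ext σ χ hpos hne).wt (optW l c lam) (optW b c μ)) = c * W.val (sh.wt lam μ) + b * v₀ := by
  rw [WD.val_ext, WD.extend_res_val]
  simp [WD.extend]

theorem wt_ext_add (l b c : ℝ) (lam : sh.J → ℝ) (μ : sh.I → ℝ) :
    (fun k => (sh.ext σ χ hpos hne).wt (optW 0 c lam) (optW b c μ) k +
      l * (sh.ext σ χ hpos hne).wt (optW 1 0 lam) (optW 0 0 μ) k) =
      (sh.ext σ χ hpos hne).wt (optW l c lam) (optW b c μ) := by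
  funext k
  rcases k with ⟨_ | j, i⟩ | _ | k <;> simp [wt, optW, div_eq_mul_inv]

theorem prod_ext (c : (sh.ext σ χ hpos hne).Cfg) (w : (sh.ext σ χ hpos hne).At → ℝ) (y : M) :
    prodW ((sh.ext σ χ hpos hne).atom c) w y =
      (∏ i : Fin σ.N, σ.atom (c none) i y ^ w (Sum.inl ⟨none, i⟩)) *
        S.fanF χ y ^ w (Sum.inr none) *
        prodW (sh.atom fun j => c (some j)) (fun k => w (emb σ χ hpos hne k)) y := by
  unfold prodW
  rw [Fintype.prod_sum_type, Fintype.prod_sum_type, Fintype.prod_sigma, Fintype.prod_sigma]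
  erw [Fintype.prod_option, Fintype.prod_option]
  change (∏ i : Fin σ.N, σ.atom (c none) i y ^ w (Sum.inl ⟨none, i⟩)) *
    (∏ j : sh.J, ∏ i : Fin (sh.st j).N,
      (sh.st j).atom (c (some j)) i y ^ w (Sum.inl ⟨some j, i⟩)) *
    (S.fanF χ y ^ w (Sum.inr none) * ∏ k : sh.I, S.fanF (sh.fan k) y ^ w (Sum.inr (some k))) =
    (∏ i : Fin σ.N, σ.atom (c none) i y ^ w (Sum.inl ⟨none, i⟩)) * S.fanF χ y ^ w (Sum.inr none) *
    ((∏ j : sh.J, ∏ i : Fin (sh.st j).N,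
      (sh.st j).atom (c (some j)) i y ^ w (Sum.inl ⟨some j, i⟩)) *
      ∏ k : sh.I, S.fanF (sh.fan k) y ^ w (Sum.inr (some k)))
  ring

end Shape

/-- Hoelder: the convex combination of the old family and the fan is log canonical -/
theorem Cx.lc_ext (hc : Cx S) {sh : Shape S} {σ : Stage S} {χ : Finset (A × ℝ)}
    {hpos : ∀ q ∈ χ, 0 < q.2} {hne : ∃ q ∈ χ, q.1 ≠ 0} {lam : sh.J → ℝ} {μ : sh.I → ℝ}
    (hl : ∀ j, 0 ≤ lam j) (hμ : ∀ k, 0 ≤ μ k) {x : M} (h : sh.LC (sh.wt lam μ) x)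
    (hχ : ∀ β : ℝ, 0 ≤ β → β < 1 → ¬ S.Sing (fun y => S.fanF χ y ^ β) x) {η b : ℝ} (hη : 0 < η)
    (hη' : η ≤ 1) (hb : 0 ≤ b) (hb' : b ≤ η) :
    (sh.ext σ χ hpos hne).LC
      ((sh.ext σ χ hpos hne).wt (Shape.optW 0 (1 - η) lam) (Shape.optW b (1 - η) μ)) x := by
  intro c β hβ hβ'
  have hw : ∀ k, 0 ≤ β * sh.wt lam μ k := fun k => mul_nonneg hβ (Shape.wt_nonneg hl hμ k)
  have hLP := hc.prodW_lp (hc.atom_lp sh fun j => c (some j)) hw
  have hb0 : 0 ≤ β * b / η := by positivity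
  have hb1 : β * b / η < 1 := by
    rw [div_lt_one hη]
    nlinarith
  have hχLP := hc.lp.rpow _ _ (hc.fan_lp hpos) hb0
  have := not_sing_hold S.toDom hLP.1 hχLP.1 (hc.lp.nonneg _ hLP) (hc.lp.nonneg _ hχLP) hη.le hη'
    (h _ β hβ hβ') (hχ _ hb0 hb1)
  convert this using 2
  funext y
  rw [Shape.prod_ext]
  have h1 : ∏ i : Fin σ.N, σ.atom (c none) i y ^ (β * (sh.ext σ χ hpos hne).wt
      (Shape.optW 0 (1 - η) lam) (Shape.optW b (1 - η) μ) (Sum.inl ⟨none, i⟩)) = 1 := by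
    refine Finset.prod_eq_one fun i _ => ?_
    simp [Shape.wt, Shape.optW]
  rw [h1, one_mul, mul_comm]
  congr 1
  · unfold prodW
    rw [← Real.finsetProd_rpow _ _ fun k _ =>
      Real.rpow_nonneg (hc.lp.nonneg _ (hc.atom_lp sh _ k) y) _]
    refine Finset.prod_congr rfl fun k _ => ?_
    rw [← Real.rpow_mul (hc.lp.nonneg _ (hc.atom_lp sh _ k) y)]
    congr 1
    rcases k with q | k
    · change β * ((1 - η) * lam q.1 / (((sh.st q.1).m : ℝ) * (sh.st q.1).N)) =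
        β * (lam q.1 / (((sh.st q.1).m : ℝ) * (sh.st q.1).N)) * (1 - η)
      ring
    · change β * ((1 - η) * μ k) = β * μ k * (1 - η)
      ring
  · rw [← Real.rpow_mul (hc.lp.nonneg _ (hc.fan_lp hpos) y)]
    congr 1
    change β * b = β * b / η * η
    field_simp

theorem rateS_scale (D : Dom n M) {P : ℝ → Set M} {y : M} {α s : ℝ} (hs : 0 < s)
    (hP : D.RateS P y α) : D.RateS (fun t => P (s * t)) y (s * α) := by
  intro δ hδ U hU
  obtain ⟨c, hc, H⟩ := hP (δ / s) (by positivity) U hU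
  refine ⟨c, hc, fun t ht => ?_⟩
  convert H (s * t) (by positivity) using 4
  field_simp

theorem Small.scale {P : ℝ → Set M} {y : M} {g : M → ℝ} {a s : ℝ} (hs : 0 < s)
    (h : Small P y g a) : Small (fun t => P (s * t)) y g (s * a) := by
  obtain ⟨U, hU, C, H⟩ := h
  refine ⟨U, hU, C, fun t ht x hx => ?_⟩
  convert H (s * t) (by positivity) x hx using 3
  ring

theorem exists_pos_lb {ι : Type} [Fintype ι] (f : ι → ℝ) (p : ι → Prop) (h : ∀ i, p i → 0 < f i) :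
    ∃ g : ℝ, 0 < g ∧ ∀ i, p i → g ≤ f i := by
  have : ∀ i, ∀ᶠ g in 𝓝[>] (0 : ℝ), p i → g ≤ f i := fun i => by
    by_cases hp : p i
    · exact ((eventually_le_nhds (h i hp)).filter_mono nhdsWithin_le_nhds).mono fun g hg _ => hg
    · exact Eventually.of_forall fun g hg => absurd hg hp
  obtain ⟨g, hg, hg'⟩ := ((eventually_all.2 this).and self_mem_nhdsWithin).exists
  exact ⟨g, hg', hg⟩

theorem exists_tau {ν : A → ℝ≥0∞} (s : Finset A) (h : ∀ g ∈ s, 0 < ν g) :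
    ∃ τ₀ : ℝ, 0 < τ₀ ∧ ∀ g ∈ s, vle ν g τ₀ := by
  obtain ⟨τ, hτ, H⟩ := exists_pos_lb (fun g : s => (min (ν g) 1).toReal) (fun _ => True)
    fun g _ => ENNReal.toReal_pos (lt_min (h g g.2) one_pos).ne'
      (ne_top_of_le_ne_top ENNReal.one_ne_top (min_le_right _ _))
  refine ⟨τ, hτ, fun g hg => ?_⟩
  refine (ENNReal.ofReal_le_ofReal (H ⟨g, hg⟩ trivial)).trans ?_
  rw [ENNReal.ofReal_toReal (ne_top_of_le_ne_top ENNReal.one_ne_top (min_le_right _ _))]
  exact min_le_left _ _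

end Crest.Agent.R271
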