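import Crest.Agent.R271.St.Lim
import Crest.Agent.R271.St.Big

/-!
# Row 271, block St: the last stage
-/

set_option autoImplicit false
set_option linter.unusedSectionVars false

open MeasureTheory Filter Topology Set
open scoped ENNReal

noncomputable section

namespace Crest.Agent.R271

variable {n : ℕ} {M : Type} [TopologicalSpace M] [T2Space M] [SecondCountableTopology M]
  [MeasurableSpace M] [BorelSpace M] {A : Type} [CommRing A] [IsDomain A] [Algebra ℂ A]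
  {S : Setup n M A}

theorem exists_vle {ν : A → ℝ≥0∞} (gens : Finset A) (h : ∀ g ∈ gens, 0 < ν g) :
    ∃ τ : ℝ, 0 < τ ∧ ∀ g ∈ gens, vle ν g τ := by
  have h1 : ∀ᶠ τ : ℝ in 𝓝 0, ∀ g ∈ gens, vle ν g τ := by
    rw [Filter.eventually_all_finset]
    intro g hg
    have : Tendsto ENNReal.ofReal (𝓝 0) (𝓝 0) := by
      simpa using ENNReal.continuous_ofReal.tendsto 0
    exact (this.eventually (gt_mem_nhds (h g hg))).mono fun τ hτ => le_of_lt hτ
  obtain ⟨τ, h2, h3⟩ := ((h1.filter_mono (nhdsWithin_le_nhds (s := Ioi 0))).and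
    self_mem_nhdsWithin).exists
  exact ⟨τ, h3, h2⟩

theorem State.cost {x : M} {ε γ₀ : ℝ} {k : ℕ} (st : State S x ε γ₀ k) :
    (∑ j, st.lam j) * S.κ ≤ n * ((1 + ε) / (1 - 2 * ε)) + (n + 1 - γ₀) / (n + 1) := by
  have hκ := S.κ_pos
  have h1 := mul_le_mul_of_nonneg_left st.i1 (Nat.cast_nonneg (α := ℝ) n)
  have h2 := div_le_div_of_nonneg_right st.i2 (by positivity : (0 : ℝ) ≤ n + 1)
  refine le_trans ?_ (add_le_add h1 h2)
  rw [Finset.sum_mul, Finset.mul_sum, Finset.sum_div, ← Finset.sum_add_distrib]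
  refine Finset.sum_le_sum fun j _ => ?_
  have h3 : 0 ≤ st.lam j * S.κ := mul_nonneg (st.lam_nonneg j) hκ.le
  have h4 := S.dm_le (st.sh.st j).prime
  split_ifs with h
  · have h5 : (S.dm (st.sh.st j).𝔭 : ℝ) + 1 ≤ n := by exact_mod_cast h
    rw [zero_div, add_zero, ← mul_div_assoc, le_div_iff₀ (by positivity)]
    nlinarith
  · have h5 : S.dm (st.sh.st j).𝔭 = n := by omega
    rw [h5]
    apply le_of_eq
    field_simp

/-- `𝔭` is maximal (`dm_zero`), so `𝔭 = ker (ev x)`.  Generators `g ∈ gens` of `𝔭` have `ν g ≥ τ₀ > 0` and `H = ∑ |g|²` has growth `t₀`.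
`qv_small` for `pairs ∪ {(g, τ₀)}`; `atom_small` gives `c` with `Small P x (atom c k) (a k)`, `∑ w a ≥ 1`.  `g* = prodW (atom c) (β w) · H ^ b` with `b > 0` small, `β < 1`, `β + b τ₀ > 1`: singular at `x`
(`sing_of_rate`), not singular at `y ≠ x` near `x` (`lc`, `not_sing_nhds`, `H y > 0`, `sing_mono`).  Growth `t = β (∑ lam + ∑ μ tk) + b t₀` (`gr_prodW`, `sum_wt`), and
`∑ lam j κ ≤ n · i1 + i2 / (n + 1)` because `dm + 1 ≤ n` when `dm < n` and `dm = n` otherwise (`dm_le`). -/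
theorem Cx.final (hc : Cx S) {x : M} {ε γ₀ : ℝ} {k : ℕ} (hε : 0 < ε) (hε' : ε < 1 / 2)
    (hnum : n * ((1 + ε) / (1 - 2 * ε)) + (n + 1 - γ₀) / (n + 1) + S.κ * (ε * n) < n + 1)
    (st : State S x ε γ₀ k) (h0 : S.dm st.𝔭 = 0) : S.Concl x := by
  classical
  haveI := S.noeth
  have hκ := S.κ_pos
  have hmax : st.𝔭.IsMaximal := S.filt.dm_zero _ st.qv.prime h0
  obtain ⟨gens, hgens⟩ := (IsNoetherian.noetherian st.𝔭 : st.𝔭.FG)
  have hgens' : Ideal.span (gens : Set A) = st.𝔭 := hgens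
  have hgm : ∀ g ∈ gens, g ∈ st.𝔭 := fun g hg => hgens' ▸ Ideal.subset_span hg
  obtain ⟨τ₀, hτ₀, hτ⟩ := exists_vle (ν := st.ν) gens fun g hg => (st.qv.pos g).2 (hgm g hg)
  set Φ : Finset (A × ℝ) := gens.image fun g => (g, 1) with hΦ
  have hΦpos : ∀ q ∈ Φ, 0 < q.2 := by
    intro q hq
    obtain ⟨g, -, rfl⟩ := Finset.mem_image.1 hq
    exact one_pos
  have hHlp := hc.fan_lp hΦpos
  have hH0 := hc.lp.nonneg _ hHlp
  obtain ⟨t₀, ht₀, hHgr⟩ := S.gr_fan hΦpos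
  have hHpos : ∀ y, y ≠ x → 0 < S.fanF Φ y := by
    intro y hy
    have h1 : ∃ g ∈ gens, S.ev y g ≠ 0 := by
      by_contra hcon
      push Not at hcon
      refine hy (S.eq_of_ker fun a ha => ?_)
      have h2 : st.𝔭 = RingHom.ker (S.ev x) :=
        hmax.eq_of_le (RingHom.ker_ne_top _) fun b hb => st.x_mem b hb
      have h3 : st.𝔭 ≤ RingHom.ker (S.ev y) := by
        rw [← hgens', Ideal.span_le]
        exact fun g hg => hcon g hg
      exact h3 (h2 ▸ ha)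
    obtain ⟨g, hg, hgy⟩ := h1
    refine Finset.sum_pos' (fun q _ => Real.rpow_nonneg (S.sq_nonneg _ _) _)
      ⟨(g, 1), Finset.mem_image_of_mem _ hg, Real.rpow_pos_of_pos ?_ _⟩
    exact pow_pos (norm_pos_iff.2 hgy) 2
  obtain ⟨D, -, hD⟩ := st.W.pairs
  obtain ⟨P, hP, hs⟩ := hc.qv_small st.qv st.x_mem (D ∪ gens.image fun g => (g, τ₀)) (by
    intro q hq
    rcases Finset.mem_union.1 hq with hq | hq
    · exact (hD _).1 st.sat q hq
    · obtain ⟨g, hg, rfl⟩ := Finset.mem_image.1 hq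
      exact hτ g hg)
  obtain ⟨c, a, ha0, ha1, ha2⟩ := hc.atom_small st.W
    ((hD _).2 fun q hq => hs q (Finset.mem_union_left _ hq))
  have hHs : Small P x (S.fanF Φ) τ₀ := hc.small_fan hΦpos (by
    intro q hq
    obtain ⟨g, hg, rfl⟩ := Finset.mem_image.1 hq
    rw [div_one]
    exact hs (g, τ₀) (Finset.mem_union_right _ (Finset.mem_image_of_mem _ hg)))
  obtain ⟨tk, htk, hi3⟩ := st.i3
  rw [h0, Nat.cast_zero, sub_zero] at hi3
  set w := st.sh.wt st.lam st.μ with hw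
  have hw0 : ∀ k, 0 ≤ w k := Shape.wt_nonneg st.lam_nonneg st.μ_nonneg
  set s : ℝ := n + 1 - (n * ((1 + ε) / (1 - 2 * ε)) + (n + 1 - γ₀) / (n + 1) + S.κ * (ε * n)) with hs'
  have hs0 : 0 < s := by linarith
  set b : ℝ := s / (t₀ * S.κ + 1) with hb
  have hb0 : 0 < b := by positivity
  have hb1 : b * t₀ * S.κ < s := by
    have : b * (t₀ * S.κ + 1) = s := by rw [hb]; field_simp
    nlinarith
  set β : ℝ := max 0 (1 - b * τ₀ / 2) with hβ
  have hbτ : 0 < b * τ₀ := by positivity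
  have hβ0 : 0 ≤ β := le_max_left _ _
  have hβ1 : β < 1 := max_lt one_pos (by linarith)
  have hβ2 : 1 - b * τ₀ / 2 ≤ β := le_max_right _ _
  have hβw : ∀ k, 0 ≤ β * w k := fun k => mul_nonneg hβ0 (hw0 k)
  have hat0 : ∀ k y, 0 ≤ st.sh.atom c k y := fun k => hc.lp.nonneg _ (hc.atom_lp _ c k)
  set g₁ := prodW (st.sh.atom c) fun k => β * w k with hg₁
  have hg₁lp : S.LP g₁ := hc.prodW_lp (hc.atom_lp _ c) hβw
  have hg₁0 := hc.lp.nonneg _ hg₁lp
  have hg₂lp := hc.lp.rpow _ b hHlp hb0.le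
  have hg₂0 := hc.lp.nonneg _ hg₂lp
  have hglp := hc.lp.mul _ _ hg₁lp hg₂lp
  let tt : st.sh.At → ℝ := Sum.elim (fun q => ((st.sh.st q.1).m : ℝ)) tk
  have htt : ∀ k, S.Gr (st.sh.atom c k) (tt k) := by
    rintro (q | k)
    · exact (st.sh.st q.1).gr_atom _ _
    · exact (htk k).2
  have hsum : ∑ k, w k * tt k = ∑ j, st.lam j + ∑ i, st.μ i * tk i := by
    rw [hw, Shape.sum_wt]
    congr 1
    refine Finset.sum_congr rfl fun j _ => ?_
    have h1 : ((st.sh.st j).m : ℝ) ≠ 0 := by exact_mod_cast (st.sh.st j).m_pos.ne'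
    have h2 : ((st.sh.st j).N : ℝ) ≠ 0 := by exact_mod_cast (st.sh.st j).N_pos.ne'
    simp only [tt, Sum.elim_inl, Finset.sum_const, Finset.card_univ, Fintype.card_fin, nsmul_eq_mul]
    field_simp
  have hgr := (S.gr_prodW _ (fun k => β * w k) tt hat0 hβw htt).mul (hHgr.rpow hH0 hb0.le) hg₁0 hg₂0
  have hsum' : ∑ k, β * w k * tt k = β * (∑ j, st.lam j + ∑ i, st.μ i * tk i) := by
    rw [← hsum, Finset.mul_sum]
    simp only [mul_assoc]
  rw [hsum'] at hgr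
  obtain ⟨C, hC⟩ := hgr
  have hl0 : 0 ≤ ∑ j, st.lam j := Finset.sum_nonneg fun j _ => st.lam_nonneg j
  have hm0 : 0 ≤ ∑ i, st.μ i * tk i :=
    Finset.sum_nonneg fun i _ => mul_nonneg (st.μ_nonneg i) (htk i).1
  refine ⟨fun y => g₁ y * S.fanF Φ y ^ b, _, C, hglp, by positivity, ?_, hC, ?_, ?_⟩
  · have h1 := st.cost
    have h2 : β * (∑ j, st.lam j + ∑ i, st.μ i * tk i) ≤ ∑ j, st.lam j + ε * n := by nlinarith
    have h3 := mul_le_mul_of_nonneg_right h2 hκ.le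
    nlinarith
  · refine sing_of_rate _ hP hglp.1
      ((Small.prodW _ (fun k => β * w k) a hat0 hβw ha2).mul (hHs.rpow hH0 hb0.le) hg₁0 hg₂0) ?_
    have h1 : ∑ k, β * w k * a k = β * st.W.val w := by
      rw [hw, ← ha1, Finset.mul_sum]
      simp only [mul_assoc]
    have h2 := st.tight
    rw [h1]
    nlinarith
  · have h1 := not_sing_nhds _ (st.lc c β hβ0 hβ1)
    filter_upwards [h1.filter_mono nhdsWithin_le_nhds, self_mem_nhdsWithin] with y hy hyx hsing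
    have h2 := hHpos y hyx
    refine hy (sing_mono _ hsing (fun y => mul_nonneg (hg₁0 y) (hg₂0 y))
      ⟨((S.fanF Φ y / 2) ^ b)⁻¹, ?_⟩)
    have h3 : ∀ᶠ y' in 𝓝 y, S.fanF Φ y / 2 < S.fanF Φ y' :=
      hHlp.1.continuousAt.eventually (lt_mem_nhds (by linarith))
    filter_upwards [h3] with y' hy'
    have h4 : 0 < (S.fanF Φ y / 2) ^ b := Real.rpow_pos_of_pos (by linarith) _
    rw [le_inv_mul_iff₀ h4, mul_comm]
    exact mul_le_mul_of_nonneg_left (Real.rpow_le_rpow (by linarith) hy'.le hb0.le) (hg₁0 y')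

end Crest.Agent.R271
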