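import Crest.Agent.R271.St.Gain1
import Crest.Agent.R271.St.Okou
import Crest.Agent.R271.St.Chain
import Crest.Agent.R271.St.LinA
import Crest.Agent.R271.St.Big

/-!
# Row 271, block St: the definite gain at the first stage
-/

set_option autoImplicit false
set_option linter.unusedSectionVars false

open MeasureTheory Filter Topology Set
open scoped ENNReal

noncomputable section

namespace Crest.Agent.R271

variable {n : ℕ} {M : Type} [TopologicalSpace M] [T2Space M] [SecondCountableTopology M]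
  [MeasurableSpace M] [BorelSpace M] {A : Type} [CommRing A] [IsDomain A] [Algebra ℂ A]
  {S : Setup n M A}

/-- a basis with distinct initial exponents -/
theorem TayX.exists_basis {x : M} {T : A →ₐ[ℂ] MvPowerSeries (Fin n) ℂ} (hT : TayX S x T)
    (mo : MonomialOrder.{0, 0} (Fin n)) (σ : Stage S) (hσ : σ.𝔭 = ⊥) :
    ∃ (s : Fin σ.N → A) (γ : Fin σ.N → Fin n →₀ ℕ), σ.IsBas s ∧ (∀ i, inM mo (T (s i)) (γ i)) ∧
      Function.Injective γ := by
  classical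
  choose ini hini using fun (φ : MvPowerSeries (Fin n) ℂ) (h : φ ≠ 0) => exists_inM mo h
  let key : A → WithTop mo.syn := fun s => if h : T s = 0 then ⊤ else ↑(mo.toSyn (ini _ h))
  have hk0 : ∀ s, T s = 0 → key s = ⊤ := fun s h => dif_pos h
  have hk1 : ∀ s (h : T s ≠ 0), key s = ↑(mo.toSyn (ini _ h)) := fun s h => dif_neg h
  have hle : ∀ s (ω : WithTop mo.syn), ω ≤ key s ↔
      ∀ γ, MvPowerSeries.coeff γ (T s) ≠ 0 → ω ≤ ↑(mo.toSyn γ) := by
    intro s ω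
    by_cases h : T s = 0
    · simp [hk0 s h, h]
    · rw [hk1 s h]
      exact ⟨fun h1 γ hγ => h1.trans (WithTop.coe_le_coe.2 ((hini _ h).2 γ hγ)),
        fun h1 => h1 _ (hini _ h).1⟩
  have htop : ∀ s, key s = ⊤ ↔ T s = 0 := fun s =>
    ⟨fun h => not_not.1 fun h1 => WithTop.coe_ne_top ((hk1 s h1).symm.trans h), hk0 s⟩
  have hadd : ∀ f g, min (key f) (key g) ≤ key (f + g) := fun f g => (hle _ _).2 fun γ hγ => by
    by_cases h : MvPowerSeries.coeff γ (T f) = 0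
    · exact (min_le_right _ _).trans ((hle g _).1 le_rfl γ (by simpa [h] using hγ))
    · exact (min_le_left _ _).trans ((hle f _).1 le_rfl γ h)
  have hsmul : ∀ (c : ℂ) f, key f ≤ key (c • f) := fun c f => (hle _ _).2 fun γ hγ =>
    (hle f _).1 le_rfl γ fun h => hγ (by simp [h])
  have hz : ∀ f, Ideal.Quotient.mkₐ ℂ σ.𝔭 f = 0 ↔ T f = 0 := fun f => by
    rw [Ideal.Quotient.mkₐ_eq_mk, Ideal.Quotient.eq_zero_iff_mem, hσ, Ideal.mem_bot,
      map_eq_zero_iff _ hT.inj]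
  have := S.filt.fd σ.m
  obtain ⟨-, -, -, H⟩ := okounkov (Ideal.Quotient.mkₐ ℂ σ.𝔭).toLinearMap (S.F σ.m) key
    (fun f _ g _ => hadd f g) (fun c f _ => hsmul c f) (fun f _ => (htop f).trans (hz f).symm)
    fun f _ g _ hfg hf => by
      have hf0 : T f ≠ 0 := mt (hk0 f) hf
      have hg0 : T g ≠ 0 := mt (hk0 g) (hfg ▸ hf)
      have h1 : ini _ hf0 = ini _ hg0 := mo.toSyn.injective
        (WithTop.coe_injective (((hk1 f hf0).symm.trans hfg).trans (hk1 g hg0)))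
      let c := MvPowerSeries.coeff (ini _ hf0) (T f) / MvPowerSeries.coeff (ini _ hf0) (T g)
      refine ⟨c, lt_of_le_of_ne ?_ fun h2 => ?_⟩
      · rw [sub_eq_add_neg, ← neg_smul]
        exact (le_min le_rfl (hfg.trans_le (hsmul _ g))).trans (hadd _ _)
      · have h3 : T (f - c • g) ≠ 0 := mt (hk0 _) (h2 ▸ hf)
        have h4 : ini _ hf0 = ini _ h3 := mo.toSyn.injective
          (WithTop.coe_injective (((hk1 f hf0).symm.trans h2).trans (hk1 _ h3)))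
        have h5 := (hini _ h3).1
        have h6 := (hini _ hg0).1
        rw [← h4] at h5
        rw [← h1] at h6
        exact h5 (by simp [c, h6])
  obtain ⟨s, h1, h2, h3, -⟩ := H σ.N σ.b σ.N_eq σ.b_mem σ.b_ind
  have h0 : ∀ i, T (s i) ≠ 0 := fun i => mt (hz _).2 (h2.ne_zero i)
  exact ⟨s, fun i => ini _ (h0 i), ⟨h1, h2⟩, fun i => hini _ _, fun i j h => h3 (by
    simp only [hk1 _ (h0 _)]
    exact congrArg (fun γ => ((mo.toSyn γ : mo.syn) : WithTop mo.syn)) h)⟩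

/-- Choose `n κ / (n+1) < a < κ`; `tayX`, `base_dich`, `tangent`, `exists_mo i₀`, `S.filt.der`, `gain_comb` (with `Cu` from `hf1 ⊥`, `dm_bot`, and `hf2`).
`okounkov` for `W = F m`, `φ = mk σ.𝔭` (`σ.𝔭 = ⊥`), `key s = toSyn (inM (T s))` in `WithTop`: a basis `s` whose initial exponents form a set `P` with
`|P| = N`; `excl`; `a i = deg γ i`, smallness by `inM.order`, `hT.ord`, `sml_pow`, `sml_of_mul`, `sml_poly`. -/
theorem Cx.gain (hc : Cx S) (x : M) : S.Concl x ∨ ∃ γ₀ : ℝ, 0 < γ₀ ∧ γ₀ < 1 ∧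
    ∀ᶠ m in atTop, ∀ σ : Stage S, σ.𝔭 = ⊥ → σ.m = m →
      ∃ (s : Fin σ.N → A) (a : Fin σ.N → ℝ), σ.IsBas s ∧
        (∀ i, 0 ≤ a i ∧ S.sml (poly (fun i => S.sq (S.zc x i)) fun _ => 1) x (s i) (a i)) ∧
        n * S.κ * (σ.m * σ.N) ≤ (n + 1 - γ₀) * ∑ i, a i := by
  classical
  have hκ := S.κ_pos
  obtain ⟨a, ha1, ha2⟩ := exists_between (show n * S.κ / (n + 1) < S.κ by
    rw [div_lt_iff₀ (by positivity)]; linarith)
  have ha : 0 < a := lt_of_le_of_lt (by positivity) ha1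
  obtain ⟨T, hT⟩ := hc.tayX x
  refine (hc.base_dich hT ha ((div_lt_iff₀ (by positivity)).1 ha1)).imp_right ?_
  rintro ⟨𝔮, h, h𝔮, hx, hh, hh', hq⟩
  obtain ⟨i₀, htan⟩ := hc.tangent hT h𝔮 hx hh hh'
  obtain ⟨mo, hdeg, hmo⟩ := exists_mo i₀
  obtain ⟨e, he⟩ := S.filt.der
  obtain ⟨E, -, hE⟩ := S.filt.hf1 ⊥ Ideal.isPrime_bot
  obtain ⟨γ₀, ε, h0, h1, hε, l₀, hl₀⟩ := gain_comb hc.al.deg (Cu := E + 1) i₀ ha ha2 e
  obtain ⟨j₀, hj₀⟩ := S.filt.hf2 ε hε
  refine ⟨γ₀, h0, h1, ?_⟩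
  filter_upwards [eventually_ge_atTop l₀, eventually_ge_atTop j₀,
    hE.eventually (gt_mem_nhds (lt_add_one E))] with m hm1 hm2 hm3 σ hσ hm
  subst hm
  obtain ⟨s, γ, hs, hγ, hinj⟩ := hT.exists_basis mo σ hσ
  have hN : ((Finset.univ.image γ).card : ℝ) = σ.N := by
    rw [Finset.card_image_of_injective _ hinj, Finset.card_fin]
  have hN' : (hf S.F ⊥ σ.m : ℝ) = σ.N := by rw [σ.N_eq, hσ]
  have hm0 : (0 : ℝ) < σ.m := Nat.cast_pos.2 σ.m_pos
  have h2 := hj₀ _ hm2 ⊥ Ideal.isPrime_bot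
  rw [S.filt.dm_bot, hN'] at h2 hm3
  have h3 := hl₀ _ hm1 (Finset.univ.image γ) (hN ▸ h2)
    (hN ▸ ((div_lt_iff₀ (by positivity)).1 hm3).le) fun γ' hγ' => by
      obtain ⟨i, -, rfl⟩ := Finset.mem_image.1 hγ'
      exact hT.excl hdeg hmo he htan hq σ.m_pos (hs.1 i) (hγ i)
  rw [hN, Finset.sum_image fun i _ j _ h => hinj h] at h3
  exact ⟨s, fun i => (γ i).degree, hs, fun i => ⟨Nat.cast_nonneg _, hc.tay_sml hT fun γ' hγ' =>
    Nat.cast_le.2 (hdeg _ _ ((hγ i).2 γ' hγ'))⟩, h3⟩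

end Crest.Agent.R271
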