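import Crest.Agent.R271.St.Defs

/-!
# Row 271, block St: initial exponents of power series
-/

set_option autoImplicit false
set_option linter.unusedSectionVars false

open MeasureTheory Filter Topology Set
open scoped ENNReal

noncomputable section

namespace Crest.Agent.R271

variable {d : ℕ} {mo : MonomialOrder (Fin d)} {φ ψ : MvPowerSeries (Fin d) ℂ} {γ γ' : Fin d →₀ ℕ}

theorem exists_inM (mo : MonomialOrder (Fin d)) (h : φ ≠ 0) : ∃ γ, inM mo φ γ := by
  have hne : (mo.toSyn '' {γ | MvPowerSeries.coeff γ φ ≠ 0}).Nonempty := by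
    by_contra hc
    exact h (MvPowerSeries.ext fun γ => not_not.1 fun hγ => hc ⟨_, γ, hγ, rfl⟩)
  obtain ⟨_, ⟨γ, hγ, rfl⟩, hmin⟩ := wellFounded_lt.has_min _ hne
  exact ⟨γ, hγ, fun γ' hγ' => not_lt.1 (hmin _ ⟨γ', hγ', rfl⟩)⟩

theorem inM.unique (h : inM mo φ γ) (h' : inM mo φ γ') : γ = γ' := by
  exact mo.toSyn.injective (le_antisymm (h.2 _ h'.1) (h'.2 _ h.1))

theorem inM.mul (h : inM mo φ γ) (h' : inM mo ψ γ') : inM mo (φ * ψ) (γ + γ') := by
  classical
  refine ⟨?_, fun e he => ?_⟩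
  · rw [MvPowerSeries.coeff_mul, Finset.sum_eq_single (γ, γ')]
    · exact mul_ne_zero h.1 h'.1
    · rintro ⟨a, b⟩ hab hne
      by_contra hc
      have h1 := h.2 a (left_ne_zero_of_mul hc)
      have h2 := h'.2 b (right_ne_zero_of_mul hc)
      have h3 : mo.toSyn a + mo.toSyn b = mo.toSyn γ + mo.toSyn γ' := by
        rw [← map_add, ← map_add, show a + b = _ from Finset.HasAntidiagonal.mem_antidiagonal.1 hab]
      obtain ⟨h4, h5⟩ := (add_eq_add_iff_eq_and_eq h1 h2).1 h3.symm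
      exact hne (Prod.ext (mo.toSyn.injective h4.symm) (mo.toSyn.injective h5.symm))
    · simp
  · rw [MvPowerSeries.coeff_mul] at he
    obtain ⟨⟨a, b⟩, hab, hc⟩ := Finset.exists_ne_zero_of_sum_ne_zero he
    rw [← show a + b = _ from Finset.HasAntidiagonal.mem_antidiagonal.1 hab, map_add, map_add]
    exact add_le_add (h.2 a (left_ne_zero_of_mul hc)) (h'.2 b (right_ne_zero_of_mul hc))

theorem inM_monomial (mo : MonomialOrder (Fin d)) (e : Fin d →₀ ℕ) :
    inM mo (∏ i, MvPowerSeries.X i ^ e i : MvPowerSeries (Fin d) ℂ) e := by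
  classical
  have : (∏ i, MvPowerSeries.X i ^ e i : MvPowerSeries (Fin d) ℂ) = MvPowerSeries.monomial e 1 := by
    rw [MvPowerSeries.monomial_one_eq, Finsupp.prod_fintype _ _ fun _ => pow_zero _]
  rw [this]
  refine ⟨by simp, fun γ hγ => ?_⟩
  rw [MvPowerSeries.coeff_monomial] at hγ
  split_ifs at hγ with h
  · rw [h]
  · exact absurd rfl hγ

theorem inM.order (hdeg : ∀ a b : Fin d →₀ ℕ, mo.toSyn a ≤ mo.toSyn b → a.degree ≤ b.degree)
    (h : inM mo φ γ) : (γ.degree : ℕ∞) ≤ φ.order := by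
  refine MvPowerSeries.nat_le_order fun e he => ?_
  by_contra hc
  exact absurd (hdeg _ _ (h.2 e hc)) (not_le.2 he)

theorem inM.deriv (h : inM mo φ γ) (i : Fin d) (hi : γ i ≠ 0)
    (hψ : ∀ e : Fin d →₀ ℕ, MvPowerSeries.coeff e ψ =
      ((e i : ℂ) + 1) * MvPowerSeries.coeff (e + Finsupp.single i 1) φ) :
    inM mo ψ (γ - Finsupp.single i 1) := by
  have h1 : γ - Finsupp.single i 1 + Finsupp.single i 1 = γ :=
    tsub_add_cancel_of_le (Finsupp.single_le_iff.2 (Nat.one_le_iff_ne_zero.2 hi))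
  refine ⟨?_, fun e he => ?_⟩
  · rw [hψ, h1]
    exact mul_ne_zero (Nat.cast_add_one_ne_zero _) h.1
  · rw [hψ] at he
    have h2 := h.2 _ (right_ne_zero_of_mul he)
    rw [← h1, map_add, map_add] at h2
    exact le_of_add_le_add_right h2

/-- `MonomialOrder.degLex` for the order on `Fin d` pulled back by `Equiv.swap`, in which `i₀` is least -/
theorem exists_mo (i₀ : Fin d) : ∃ mo : MonomialOrder.{0, 0} (Fin d),
    (∀ a b : Fin d →₀ ℕ, mo.toSyn a ≤ mo.toSyn b → a.degree ≤ b.degree) ∧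
    ∀ a b : Fin d →₀ ℕ, a.degree = b.degree → mo.toSyn a ≤ mo.toSyn b → a i₀ ≤ b i₀ := by
  let o : Fin d := ⟨0, i₀.pos⟩
  let e : (Fin d →₀ ℕ) ≃+ (Fin d →₀ ℕ) := Finsupp.domCongr (Equiv.swap i₀ o)
  have he : ∀ a j, e a j = a (Equiv.swap i₀ o j) := fun a j => by simp [e]
  have hd : ∀ a, (e a).degree = a.degree := fun a => by
    simp only [Finsupp.degree_eq_sum, he]
    exact Equiv.sum_comp (Equiv.swap i₀ o) a
  let m₀ : MonomialOrder (Fin d) := MonomialOrder.degLex
  refine ⟨{ syn := m₀.syn, toSyn := e.trans m₀.toSyn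
            toSyn_monotone := fun a b h => m₀.toSyn_monotone (show e a ≤ e b from fun j => by
              rw [he a, he b]; exact h _) }, fun a b h => ?_, fun a b hab h => ?_⟩
  · rw [← hd a, ← hd b]
    exact Finsupp.DegLex.monotone_degree h
  · have h1 : toLex (e a) ≤ toLex (e b) := by
      rcases Finsupp.DegLex.le_iff.1 h with h1 | h1
      · exact absurd (show (e a).degree < (e b).degree from h1) (by rw [hd, hd, hab]; exact lt_irrefl _)
      · exact h1.2
    have h2 : e a o ≤ e b o := by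
      rcases h1.eq_or_lt with h2 | h2
      · exact (congrArg (fun f : Lex (Fin d →₀ ℕ) => ofLex f o) h2).le
      · obtain ⟨i, h3, h4⟩ := Finsupp.Lex.lt_iff.1 h2
        rcases (show o ≤ i from Nat.zero_le _).eq_or_lt with h5 | h5
        · exact h5 ▸ h4.le
        · exact (h3 o h5).le
    simpa [he] using h2

end Crest.Agent.R271
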