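import Crest.Agent.R271.St.TayW
import Crest.Agent.R271.St.InM

/-!
# Row 271, block St: proofs of `Cx.tangent` and `TayX.excl`
-/

set_option autoImplicit false
set_option linter.unusedSectionVars false

open MeasureTheory Filter Topology Set
open scoped ENNReal

noncomputable section

namespace Crest.Agent.R271

variable {n : ℕ} {M : Type} [TopologicalSpace M] [T2Space M] [SecondCountableTopology M]
  [MeasurableSpace M] [BorelSpace M] {A : Type} [CommRing A] [IsDomain A] [Algebra ℂ A]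
  {S : Setup n M A}

theorem g1a_ev_zc (S : Setup n M A) (x y : M) (i : Fin n) :
    S.ev y (S.zc x i) = S.p y i - S.p x i := by
  rw [Setup.zc, map_sub, AlgHom.commutes, S.p_eq y i]
  rfl

theorem g1a_bigO_one (S : Setup n M A) (x : M) (a : A) :
    (fun y => S.ev y a) =O[𝓝 x] (fun _ => (1 : ℝ)) :=
  ((S.cont_ev a).tendsto x).isBigO_one ℝ

theorem g1a_bigO_span (S : Setup n M A) (x : M) {g : A}
    (hg : g ∈ Ideal.span (range (S.zc x))) :
    (fun y => S.ev y g) =O[𝓝 x] (fun y => ‖S.p y - S.p x‖) := by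
  induction hg using Submodule.span_induction with
  | mem g hg =>
    obtain ⟨i, rfl⟩ := hg
    refine Asymptotics.IsBigO.of_bound' (Eventually.of_forall fun y => ?_)
    rw [g1a_ev_zc, norm_norm]
    exact norm_le_pi_norm (S.p y - S.p x) i
  | zero => simpa using Asymptotics.isBigO_zero _ _
  | add g h _ _ hg hh => simpa only [map_add] using hg.add hh
  | smul a g _ hg =>
    simpa only [smul_eq_mul, map_mul, one_mul] using (g1a_bigO_one S x a).mul hg

theorem g1a_bigO_pow (S : Setup n M A) (x : M) (N : ℕ) {g : A}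
    (hg : g ∈ Ideal.span (range (S.zc x)) ^ N) :
    (fun y => S.ev y g) =O[𝓝 x] (fun y => ‖S.p y - S.p x‖ ^ N) := by
  induction N generalizing g with
  | zero => simpa only [pow_zero] using g1a_bigO_one S x g
  | succ N ih =>
    rw [pow_succ] at hg
    refine Submodule.mul_induction_on hg (fun a ha b hb => ?_) (fun a b ha hb => ?_)
    · simpa only [map_mul, pow_succ] using (ih ha).mul (g1a_bigO_span S x hb)
    · simpa only [map_add] using ha.add hb

theorem g1a_exists_coord (hn : 1 ≤ n) (v : Fin n → ℂ) : ∃ i, ‖v‖ ≤ ‖v i‖ := by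
  have : Nonempty (Fin n) := ⟨⟨0, hn⟩⟩
  obtain ⟨i, -, hi⟩ := Finset.exists_max_image Finset.univ (fun i => ‖v i‖) Finset.univ_nonempty
  exact ⟨i, (pi_norm_le_iff_of_nonneg (norm_nonneg _)).2 fun j => hi j (Finset.mem_univ _)⟩

theorem g1a_tangent (hc : Cx S) {x : M} {T : A →ₐ[ℂ] MvPowerSeries (Fin n) ℂ} (hT : TayX S x T)
    {𝔮 : Ideal A} (h𝔮 : 𝔮.IsPrime) (hx : x ∈ S.V 𝔮) {h : A} (hh : S.ev x h = 0) (hh' : h ∉ 𝔮) :
    ∃ i₀ : Fin n, ∀ f ∈ 𝔮, ∀ N : ℕ, (∀ γ, MvPowerSeries.coeff γ (T f) ≠ 0 →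
      N ≤ γ.degree ∧ (γ.degree = N → γ = Finsupp.single i₀ N)) →
      MvPowerSeries.coeff (Finsupp.single i₀ N) (T f) = 0 := by
  classical
  obtain ⟨y, hy, hlim⟩ := hc.dens_pts h𝔮 hx hh'
  have hne : ∀ ν, y ν ≠ x := fun ν hν => (hy ν).2 (hν ▸ hh)
  obtain ⟨U, hUo, hxU, hU⟩ := S.loc.isLocallyInjective x
  have hpos : ∀ᶠ ν in atTop, 0 < ‖S.p (y ν) - S.p x‖ := by
    filter_upwards [hlim.eventually (hUo.mem_nhds hxU)] with ν hν
    exact norm_pos_iff.2 (sub_ne_zero.2 fun h => hne ν (hU hν hxU h))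
  have hr : Tendsto (fun ν => ‖S.p (y ν) - S.p x‖) atTop (𝓝 0) :=
    tendsto_iff_norm_sub_tendsto_zero.1 ((S.loc.continuous.tendsto x).comp hlim)
  obtain ⟨i₀, hi₀⟩ : ∃ i₀ : Fin n, ∃ᶠ ν in atTop,
      ‖S.p (y ν) - S.p x‖ ≤ ‖(S.p (y ν) - S.p x) i₀‖ := by
    by_contra hcon
    have h1 : ∀ i : Fin n, ∀ᶠ ν in atTop, ¬ ‖S.p (y ν) - S.p x‖ ≤ ‖(S.p (y ν) - S.p x) i‖ :=
      fun i => not_frequently.1 fun h => hcon ⟨i, h⟩
    obtain ⟨ν, hν⟩ := (eventually_all.2 h1).exists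
    obtain ⟨i, hi⟩ := g1a_exists_coord hc.hn (S.p (y ν) - S.p x)
    exact hν i hi
  refine ⟨i₀, fun f hf N hN => ?_⟩
  set c := MvPowerSeries.coeff (Finsupp.single i₀ N) (T f) with hc'
  have hord : ((N + 1 : ℕ) : ℕ∞) ≤ (T (f - algebraMap ℂ A c * S.zc x i₀ ^ N)).order := by
    refine MvPowerSeries.nat_le_order fun e he => ?_
    rw [map_sub, map_mul, map_pow, hT.coord, AlgHom.commutes, ← Algebra.smul_def, map_sub,
      map_smul, MvPowerSeries.coeff_X_pow]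
    split_ifs with h1
    · rw [h1, ← hc', smul_eq_mul, mul_one, sub_self]
    · rw [smul_zero, sub_zero]
      by_contra h2
      obtain ⟨h3, h4⟩ := hN e h2
      exact h1 (h4 (by omega))
  obtain ⟨h', hh'0, hmem⟩ := hT.ord _ _ hord
  obtain ⟨C, hC⟩ := (g1a_bigO_pow S x (N + 1) hmem).bound
  have h1 : Tendsto (fun ν => ‖S.ev (y ν) h'‖ * ‖c‖) atTop (𝓝 (‖S.ev x h'‖ * ‖c‖)) :=
    (((S.cont_ev h').tendsto x).comp hlim).norm.mul_const _
  have h2 : Tendsto (fun ν => C * ‖S.p (y ν) - S.p x‖) atTop (𝓝 (C * 0)) := hr.const_mul _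
  have h3 := le_of_tendsto_of_tendsto_of_frequently h1 h2 (by
    refine (hi₀.and_eventually (hpos.and (hlim.eventually hC))).mono fun ν ⟨h4, h5, h6⟩ => ?_
    rw [map_mul, map_sub, (hy ν).1 f hf, zero_sub, map_mul, map_pow, AlgHom.commutes, g1a_ev_zc,
      norm_mul, norm_neg, norm_mul, norm_pow, norm_pow, norm_norm] at h6
    have h7 : ‖S.p (y ν) - S.p x‖ ^ N ≤ ‖S.p (y ν) i₀ - S.p x i₀‖ ^ N :=
      pow_le_pow_left₀ h5.le h4 N
    have h8 : ‖S.ev (y ν) h'‖ * ‖c‖ * ‖S.p (y ν) - S.p x‖ ^ N ≤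
        C * ‖S.p (y ν) - S.p x‖ * ‖S.p (y ν) - S.p x‖ ^ N :=
      calc ‖S.ev (y ν) h'‖ * ‖c‖ * ‖S.p (y ν) - S.p x‖ ^ N
          ≤ ‖S.ev (y ν) h'‖ * ‖c‖ * ‖S.p (y ν) i₀ - S.p x i₀‖ ^ N :=
            mul_le_mul_of_nonneg_left h7 (by positivity)
        _ ≤ C * ‖S.p (y ν) - S.p x‖ ^ (N + 1) := by
            rw [mul_assoc]; exact h6
        _ = _ := by ring
    exact le_of_mul_le_mul_right h8 (pow_pos h5 N))
  rw [mul_zero] at h3
  have h4 : ‖S.ev x h'‖ * ‖c‖ = 0 := le_antisymm h3 (by positivity)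
  rcases mul_eq_zero.1 h4 with h5 | h5
  · exact absurd (norm_eq_zero.1 h5) hh'0
  · exact norm_eq_zero.1 h5

theorem g1a_eq_single {γ : Fin n →₀ ℕ} {i₀ : Fin n} (h : γ.degree ≤ γ i₀) :
    γ = Finsupp.single i₀ (γ i₀) := by
  have h1 := Finsupp.single_add_erase i₀ γ
  have h2 := congrArg Finsupp.degree h1
  rw [map_add, Finsupp.degree_single] at h2
  have h3 : γ.erase i₀ = 0 := (Finsupp.degree_eq_zero_iff _).1 (by omega)
  rw [h3, add_zero] at h1
  exact h1.symm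

theorem g1a_excl {x : M} {T : A →ₐ[ℂ] MvPowerSeries (Fin n) ℂ} (hT : TayX S x T) {𝔮 : Ideal A}
    {i₀ : Fin n} {a : ℝ} {e : ℕ} {mo : MonomialOrder.{0, 0} (Fin n)}
    (hdeg : ∀ a b : Fin n →₀ ℕ, mo.toSyn a ≤ mo.toSyn b → a.degree ≤ b.degree)
    (hmo : ∀ a b : Fin n →₀ ℕ, a.degree = b.degree → mo.toSyn a ≤ mo.toSyn b → a i₀ ≤ b i₀)
    (he : ∀ i, ∃ δ : Derivation ℂ A A, (∀ i', δ (S.z i') = if i' = i then 1 else 0) ∧
      ∀ j, ∀ s ∈ S.F j, δ s ∈ S.F (j + e))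
    (htan : ∀ f ∈ 𝔮, ∀ N : ℕ, (∀ γ, MvPowerSeries.coeff γ (T f) ≠ 0 →
      N ≤ γ.degree ∧ (γ.degree = N → γ = Finsupp.single i₀ N)) →
      MvPowerSeries.coeff (Finsupp.single i₀ N) (T f) = 0)
    (hq : ∀ l : ℕ, 0 < l → ∀ s ∈ S.F l,
      (∀ γ, MvPowerSeries.coeff γ (T s) ≠ 0 → a * l ≤ (γ.degree : ℝ)) → s ∈ 𝔮)
    {l : ℕ} (hl : 0 < l) {s : A} (hs : s ∈ S.F l) {γ : Fin n →₀ ℕ} (hγ : inM mo (T s) γ) :
    (γ i₀ : ℝ) < a * (l + e * ((γ.degree : ℝ) - γ i₀)) := by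
  have key : ∀ r l : ℕ, 0 < l → ∀ s ∈ S.F l, ∀ γ : Fin n →₀ ℕ, inM mo (T s) γ →
      γ.degree = γ i₀ + r → (γ i₀ : ℝ) < a * (l + e * (r : ℝ)) := by
    intro r
    induction r with
    | zero =>
      intro l hl s hs γ hγ hr
      rw [add_zero] at hr
      by_contra hcon
      rw [Nat.cast_zero, mul_zero, add_zero, not_lt] at hcon
      have h1 : s ∈ 𝔮 := hq l hl s hs fun γ' hγ' => hcon.trans (by
        have := hdeg _ _ (hγ.2 γ' hγ')
        rw [hr] at this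
        exact_mod_cast this)
      have h2 := htan s h1 (γ i₀) fun γ' hγ' => by
        have h3 := hγ.2 γ' hγ'
        refine ⟨hr ▸ hdeg _ _ h3, fun h4 => ?_⟩
        have h5 := hmo _ _ (hr.trans h4.symm) h3
        have h6 := Finsupp.le_degree i₀ γ'
        have h7 : γ' i₀ = γ i₀ := by omega
        rw [← h7]
        exact g1a_eq_single (by omega)
      rw [← g1a_eq_single hr.le] at h2
      exact hγ.1 h2
    | succ r ih =>
      intro l hl s hs γ hγ hr
      obtain ⟨i, hi, hγi⟩ : ∃ i, i ≠ i₀ ∧ γ i ≠ 0 := by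
        by_contra hcon
        have h1 : γ = Finsupp.single i₀ (γ i₀) := by
          ext j
          by_cases hj : j = i₀
          · rw [hj, Finsupp.single_eq_same]
          · rw [Finsupp.single_eq_of_ne hj]
            by_contra h2
            exact hcon ⟨j, hj, h2⟩
        have h2 := congrArg Finsupp.degree h1
        rw [Finsupp.degree_single] at h2
        omega
      obtain ⟨δ, hδ, hδF⟩ := he i
      have h1 := hγ.deriv i hγi (hT.der i δ hδ s)
      have h2 : γ - Finsupp.single i 1 + Finsupp.single i 1 = γ :=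
        tsub_add_cancel_of_le (Finsupp.single_le_iff.2 (Nat.one_le_iff_ne_zero.2 hγi))
      have h3 : (γ - Finsupp.single i 1 : Fin n →₀ ℕ) i₀ = γ i₀ := by
        rw [Finsupp.tsub_apply, Finsupp.single_eq_of_ne hi.symm, tsub_zero]
      have h4 := congrArg Finsupp.degree h2
      rw [map_add, Finsupp.degree_single] at h4
      have h5 := ih (l + e) (by omega) (δ s) (hδF l s hs) _ h1 (by rw [h3]; omega)
      rw [h3] at h5
      push_cast at h5 ⊢
      convert h5 using 2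
      ring
  have h1 := Finsupp.le_degree i₀ γ
  have h2 := key (γ.degree - γ i₀) l hl s hs γ hγ (by omega)
  rwa [Nat.cast_sub h1] at h2

end Crest.Agent.R271
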