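import Crest.Agent.R271.St.TayW
import Crest.Agent.R271.St.InM
import Crest.Agent.R271.St.Gain1a
import Crest.Agent.R271.St.Dich

/-!
# Row 271, block St: tangent directions and base loci
-/

set_option autoImplicit false
set_option linter.unusedSectionVars false

open MeasureTheory Filter Topology Set
open scoped ENNReal

noncomputable section

namespace Crest.Agent.R271

variable {n : ℕ} {M : Type} [TopologicalSpace M] [T2Space M] [SecondCountableTopology M]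
  [MeasurableSpace M] [BorelSpace M] {A : Type} [CommRing A] [IsDomain A] [Algebra ℂ A]
  {S : Setup n M A}

/-- Points `y ν ∈ V 𝔮`, `y ν → x`, `y ν ≠ x` (`dens_pts` with `h`); `p (y ν) ≠ p x` for large `ν` (`p` is locally injective); pick `i₀` with
`‖p (y ν) - p x‖ = |p (y ν) i₀ - p x i₀|` for infinitely many `ν`.  If `T f = c X_{i₀}^N + (order > N)`, then `T (f - c zc_{i₀}^N)` has order `≥ N + 1`,
`h' (f - c zc^N) ∈ (zc)^(N+1)`, so `|c| r^N ≤ C r^(N+1)` with `r = ‖p (y ν) - p x‖ → 0`. -/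
theorem Cx.tangent (hc : Cx S) {x : M} {T : A →ₐ[ℂ] MvPowerSeries (Fin n) ℂ} (hT : TayX S x T)
    {𝔮 : Ideal A} (h𝔮 : 𝔮.IsPrime) (hx : x ∈ S.V 𝔮) {h : A} (hh : S.ev x h = 0) (hh' : h ∉ 𝔮) :
    ∃ i₀ : Fin n, ∀ f ∈ 𝔮, ∀ N : ℕ, (∀ γ, MvPowerSeries.coeff γ (T f) ≠ 0 →
      N ≤ γ.degree ∧ (γ.degree = N → γ = Finsupp.single i₀ N)) →
      MvPowerSeries.coeff (Finsupp.single i₀ N) (T f) = 0 := by
  exact g1a_tangent hc hT h𝔮 hx hh hh'

/-- `U l = {s ∈ F l | a l ≤ order (T s)}` is a finite dimensional subspace, `I l` the ideal it spans.  If `x` is isolated in `V (I l)` for some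
`l > 0`: `g = (∑ |s i|²) ^ ((n + δ) / (a l))` over a spanning family of `U l`, `t = (n + δ) / a`, `t κ < n + 1`; singular at `x` by `hc.co` (`θ = 1`, rate `n`),
`hT.ord`, `sml_pow`, `sing_of_rate`; positive near `x` off `x`.  Otherwise: `s ∈ U l → s ^ j ∈ U (j l)`, so the radicals of `I (j!)` increase and
stabilise at some `L`; finitely many minimal primes over `I L`; if every one through `x` contained `ker (ev x)`, then `x` would be isolated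
in `V (I L)` (`isClosed_V`, `eq_of_ker`). -/
theorem Cx.base_dich (hc : Cx S) {x : M} {T : A →ₐ[ℂ] MvPowerSeries (Fin n) ℂ} (hT : TayX S x T)
    {a : ℝ} (ha : 0 < a) (han : n * S.κ < a * (n + 1)) :
    S.Concl x ∨ ∃ (𝔮 : Ideal A) (h : A), 𝔮.IsPrime ∧ x ∈ S.V 𝔮 ∧ S.ev x h = 0 ∧ h ∉ 𝔮 ∧
      ∀ l : ℕ, 0 < l → ∀ s ∈ S.F l,
        (∀ γ, MvPowerSeries.coeff γ (T s) ≠ 0 → a * l ≤ (γ.degree : ℝ)) → s ∈ 𝔮 :=
  hc.base_dich' hT ha han

/-- Induction on `r = deg γ - γ i₀`: if `γ i ≠ 0` for some `i ≠ i₀` replace `s` by `δ_i s ∈ F (l + e)` (`inM.deriv`).  For `r = 0`,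
`γ = single i₀ N`, every exponent of degree `N` is `γ` (`hmo`), so `s ∉ 𝔮` by `htan`, hence some exponent, so also `γ`, has degree `< a l`. -/
theorem TayX.excl {x : M} {T : A →ₐ[ℂ] MvPowerSeries (Fin n) ℂ} (hT : TayX S x T) {𝔮 : Ideal A}
    {i₀ : Fin n} {a : ℝ} {e : ℕ} {mo : MonomialOrder.{0, 0} (Fin n)}
    (hdeg : ∀ a b : Fin n →₀ ℕ, mo.toSyn a ≤ mo.toSyn b → a.degree ≤ b.degree)
    (hmo : ∀ a b : Fin n →₀ ℕ, a.degree = b.degree → mo.toSyn a ≤ mo.toSyn b → a i₀ ≤ b i₀)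
    (he : ∀ i, ∃ δ : Derivation ℂ A A, (∀ i', δ (S.z i') = if i' = i then 1 else 0) ∧
      ∀ j, ∀ s ∈ S.F j, δ s ∈ S.F (j + e))
    (htan : ∀ f ∈ 𝔮, ∀ N : ℕ, (∀ γ, MvPowerSeries.coeff γ (T f) ≠ 0 →
      N ≤ γ.degree ∧ (γ.degree = N → γ = Finsupp.single i₀ N)) →
      MvPowerSeries.coeff (Finsupp.single i₀ N) (T f) = 0)
    (hq : ∀ l : ℕ, 0 < l → ∀ s ∈ S.F l,
      (∀ γ, MvPowerSeries.coeff γ (T s) ≠ 0 → a * l ≤ (γ.degree : ℝ)) → s ∈ 𝔮)
    {l : ℕ} (hl : 0 < l) {s : A} (hs : s ∈ S.F l) {γ : Fin n →₀ ℕ} (hγ : inM mo (T s) γ) :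
    (γ i₀ : ℝ) < a * (l + e * ((γ.degree : ℝ) - γ i₀)) := by
  exact g1a_excl hT hdeg hmo he htan hq hl hs hγ

end Crest.Agent.R271
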