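import Crest.Agent.R271.St.Coord
import Crest.Agent.R271.St.InM

/-!
# Row 271, block St: initial terms for a quasi-valuation
-/

set_option autoImplicit false
set_option linter.unusedSectionVars false

open MeasureTheory Filter Topology Set
open scoped ENNReal

noncomputable section

namespace Crest.Agent.R271

variable {n : ℕ} {M : Type} [TopologicalSpace M] [T2Space M] [SecondCountableTopology M]
  [MeasurableSpace M] [BorelSpace M] {A : Type} [CommRing A] [IsDomain A] [Algebra ℂ A]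
  {S : Setup n M A}

/-- the initial term: value, exponent, position -/
def keyOf {d : ℕ} (mo : MonomialOrder.{0, 0} (Fin d)) (ν : A → ℝ≥0∞) (γ : A → Fin d →₀ ℕ)
    (pos : A → ℕ) (f : A) : ℝ≥0∞ ×ₗ mo.syn ×ₗ ℕ :=
  toLex (ν f, toLex (mo.toSyn (γ f), pos f))

structure KeyData {d : ℕ} (mo : MonomialOrder.{0, 0} (Fin d)) (ν : A → ℝ≥0∞) (V : Submodule ℂ A)
    (T₀ : ℝ) (T : A →ₐ[ℂ] MvPowerSeries (Fin d) ℂ) (γ : A → Fin d →₀ ℕ) (pos : A → ℕ) : Prop where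
  add : ∀ f ∈ V, ∀ g ∈ V, ν f ≤ ENNReal.ofReal T₀ → ν g ≤ ENNReal.ofReal T₀ →
    min (keyOf mo ν γ pos f) (keyOf mo ν γ pos g) ≤ keyOf mo ν γ pos (f + g)
  add' : ∀ f ∈ V, ∀ g ∈ V, ν f ≤ ENNReal.ofReal T₀ → ν f < ν g →
    keyOf mo ν γ pos (f + g) = keyOf mo ν γ pos f
  smul : ∀ f ∈ V, ν f ≤ ENNReal.ofReal T₀ → ∀ c : ℂ, c ≠ 0 →
    keyOf mo ν γ pos (c • f) = keyOf mo ν γ pos f
  leaf : ∀ f ∈ V, ∀ g ∈ V, ν f ≤ ENNReal.ofReal T₀ → keyOf mo ν γ pos f = keyOf mo ν γ pos g →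
    ∃ c : ℂ, keyOf mo ν γ pos f < keyOf mo ν γ pos (f - c • g)
  mul : ∀ f ∈ V, ν f ≤ ENNReal.ofReal T₀ → ∀ (g : A) (β : Fin d →₀ ℕ), inM mo (T g) β → g * f ∈ V →
    ν (g * f) = ν f ∧ γ (g * f) = γ f + β ∧ pos (g * f) = pos f

section InV

variable {d q : ℕ} {mo : MonomialOrder.{0, 0} (Fin d)} {L L' : Fin q → MvPowerSeries (Fin d) ℂ}
  {γ γ' : Fin d →₀ ℕ} {p p' : ℕ}

/-- initial exponent and position of a vector of power series -/
def inV (mo : MonomialOrder.{0, 0} (Fin d)) (L : Fin q → MvPowerSeries (Fin d) ℂ) (γ : Fin d →₀ ℕ) (p : ℕ) : Prop :=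
  (∃ i : Fin q, i.val = p ∧ MvPowerSeries.coeff γ (L i) ≠ 0) ∧
    ∀ γ' (i : Fin q), MvPowerSeries.coeff γ' (L i) ≠ 0 → toLex (mo.toSyn γ, p) ≤ toLex (mo.toSyn γ', i.val)

theorem exists_inV (mo : MonomialOrder.{0, 0} (Fin d)) (h : L ≠ 0) : ∃ γ p, inV mo L γ p := by
  have hne : ((fun x : (Fin d →₀ ℕ) × Fin q => toLex (mo.toSyn x.1, x.2.val)) ''
      {x | MvPowerSeries.coeff x.1 (L x.2) ≠ 0}).Nonempty := by
    by_contra hc
    exact h (funext fun i => MvPowerSeries.ext fun γ => not_not.1 fun hγ => hc ⟨_, (γ, i), hγ, rfl⟩)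
  obtain ⟨_, ⟨⟨γ, i⟩, hγ, rfl⟩, hmin⟩ := wellFounded_lt.has_min _ hne
  exact ⟨γ, i, ⟨i, rfl, hγ⟩, fun γ' j hγ' => not_lt.1 (hmin _ ⟨(γ', j), hγ', rfl⟩)⟩

theorem inV.unique (h : inV mo L γ p) (h' : inV mo L γ' p') : γ = γ' ∧ p = p' := by
  obtain ⟨⟨i, rfl, hi⟩, h2⟩ := h
  obtain ⟨⟨j, rfl, hj⟩, h2'⟩ := h'
  have := Prod.ext_iff.1 (toLex.injective (le_antisymm (h2 _ _ hj) (h2' _ _ hi)))
  exact ⟨mo.toSyn.injective this.1, this.2⟩

theorem inV.ne_zero (h : inV mo L γ p) : L ≠ 0 := by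
  rintro rfl
  obtain ⟨⟨i, -, hi⟩, -⟩ := h
  exact hi (by simp)

theorem inV.le (h : inV mo L γ p) {i : Fin q} (hi : MvPowerSeries.coeff γ' (L i) ≠ 0) :
    mo.toSyn γ ≤ mo.toSyn γ' := Prod.Lex.monotone_fst _ _ (h.2 _ _ hi)

theorem inV.mul (h : inV mo L γ p) {φ : MvPowerSeries (Fin d) ℂ} (hφ : inM mo φ γ') :
    inV mo (fun i => φ * L i) (γ + γ') p := by
  refine ⟨?_, fun e j he => ?_⟩
  · obtain ⟨i, rfl, hi⟩ := h.1
    exact ⟨i, rfl, add_comm γ γ' ▸ (hφ.mul ⟨hi, fun e he => h.le he⟩).1⟩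
  · obtain ⟨δ, hδ⟩ := exists_inM mo (φ := L j) (by rintro h0; simp [h0] at he)
    have h1 := (hφ.mul hδ).2 e he
    rw [map_add] at h1
    rw [Prod.Lex.toLex_le_toLex, map_add, add_comm]
    rcases Prod.Lex.toLex_le_toLex.1 (h.2 δ j hδ.1) with h2 | h2
    · exact Or.inl ((add_lt_add_right h2 _).trans_le h1)
    · have h3 : mo.toSyn γ = mo.toSyn δ := h2.1
      rw [h3]
      exact h1.lt_or_eq.imp id fun h4 => ⟨h4, h2.2⟩

end InV

/-- By independence the classes of `co a f i` modulo `𝔭`, hence the series `T (co a f i)`, are unique: additive and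
`ℂ`-linear in `f`, multiplied by `T g` when `f` is multiplied by `g`, all zero iff `a < ν f` (`sat`).  For `ν f = a ≤ T₀` let
`(γ f, pos f)` be the lexicographically least pair `(toSyn γ, i)` with `coeff γ (T (co a f i)) ≠ 0` (well-founded). -/
theorem QV.keyData {𝔭 : Ideal A} {ν : A → ℝ≥0∞} (hν : QV S 𝔭 ν) {d : ℕ}
    (mo : MonomialOrder.{0, 0} (Fin d))
    (hdeg : ∀ a b : Fin d →₀ ℕ, mo.toSyn a ≤ mo.toSyn b → a.degree ≤ b.degree)
    (V : Submodule ℂ A) (T₀ : ℝ) (T : A →ₐ[ℂ] MvPowerSeries (Fin d) ℂ) (hT : ∀ g, T g = 0 ↔ g ∈ 𝔭)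
    {h : A} {q : ℕ} {e : Fin q → A} {E : ℝ≥0∞ → Finset (Fin q)} {co : ℝ≥0∞ → A → Fin q → A}
    (hh : h ∉ 𝔭) (H : ∀ a, a ≤ ENNReal.ofReal T₀ → (∀ i ∈ E a, a ≤ ν (e i)) ∧
        (∀ c : Fin q → A, (∀ i ∉ E a, c i = 0) → a < ν (∑ i, c i * e i) → ∀ i, c i ∈ 𝔭) ∧
        ∀ f ∈ V, a ≤ ν f → (∀ i ∉ E a, co a f i = 0) ∧ a < ν (h * f - ∑ i, co a f i * e i)) :
    ∃ (γ : A → Fin d →₀ ℕ) (pos : A → ℕ), KeyData mo ν V T₀ T γ pos ∧
      ∀ f ∈ V, ν f ≤ ENNReal.ofReal T₀ → ∀ i,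
        (((γ f).degree : ℕ) : ℕ∞) ≤ (T (co (ν f) f i)).order := by
  classical
  set L : ℝ≥0∞ → A → Fin q → MvPowerSeries (Fin d) ℂ := fun a f i => T (co a f i) with hL
  have top : ∀ {a}, a ≤ ENNReal.ofReal T₀ → a ≠ ⊤ := fun ha => ne_top_of_le_ne_top ENNReal.ofReal_ne_top ha
  have lin : ∀ {a}, a ≤ ENNReal.ofReal T₀ → ∀ {f f₁ f₂}, f ∈ V → f₁ ∈ V → f₂ ∈ V → a ≤ ν f₁ → a ≤ ν f₂ →
      ∀ x y : A, f = x * f₁ + y * f₂ → a ≤ ν f ∧ L a f = fun i => T x * L a f₁ i + T y * L a f₂ i := by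
    intro a ha f f₁ f₂ v v1 v2 a1 a2 x y hf
    have a0 : a ≤ ν f := hf ▸ (le_min (a1.trans (hν.le_mul' x f₁)) (a2.trans (hν.le_mul' y f₂))).trans (hν.add _ _)
    obtain ⟨-, h2, h3⟩ := H a ha
    refine ⟨a0, funext fun i => ?_⟩
    have := h2 (fun i => x * co a f₁ i + y * co a f₂ i - co a f i)
      (fun i hi => by simp [(h3 f v a0).1 i hi, (h3 f₁ v1 a1).1 i hi, (h3 f₂ v2 a2).1 i hi]) (by
        have m : a < ν _ := (hν.idGt a (top ha)).sub_mem (h3 f v a0).2 (add_mem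
          (Ideal.mul_mem_left _ x (h3 f₁ v1 a1).2) (Ideal.mul_mem_left _ y (h3 f₂ v2 a2).2))
        refine m.trans_eq (congrArg ν ?_)
        simp only [sub_mul, add_mul, Finset.sum_sub_distrib, Finset.sum_add_distrib, mul_sub, Finset.mul_sum,
          mul_assoc]
        rw [hf]
        ring) i
    rw [← hT, map_sub, map_add, map_mul, map_mul, sub_eq_zero] at this
    exact this.symm
  have zero : ∀ {a}, a ≤ ENNReal.ofReal T₀ → ∀ {f}, f ∈ V → a ≤ ν f → (L a f = 0 ↔ a < ν f) := by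
    intro a ha f v a0
    obtain ⟨h1, h2, h3⟩ := H a ha
    have m : h * f - ∑ i, co a f i * e i ∈ hν.idGt a (top ha) := (h3 f v a0).2
    refine ⟨fun h0 => ?_, fun h0 => funext fun i => (hT _).2 (h2 _ (h3 f v a0).1 ?_ i)⟩
    · have m2 : ∑ i, co a f i * e i ∈ hν.idGt a (top ha) := sum_mem fun i _ => by
        by_cases hi : i ∈ E a
        · have h4 := (hν.pos _).2 ((hT _).1 (congrFun h0 i))
          exact ((ENNReal.lt_add_right (top ha) h4.ne').trans_le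
            (add_comm a _ ▸ add_le_add_right (h1 i hi) _)).trans_le (hν.mul _ _)
        · rw [(h3 f v a0).1 i hi, zero_mul]
          exact zero_mem _
      have m3 : a < ν (h * f - ∑ i, co a f i * e i + ∑ i, co a f i * e i) := add_mem m m2
      rw [sub_add_cancel] at m3
      exact m3.trans_le (hν.sat h f hh)
    · have m3 : a < ν (h * f - (h * f - ∑ i, co a f i * e i)) :=
        sub_mem (Ideal.mul_mem_left (hν.idGt a (top ha)) h h0) m
      rwa [sub_sub_cancel] at m3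
  have ex : ∀ f, ∃ γ p, L (ν f) f ≠ 0 → inV mo (L (ν f) f) γ p := fun f => by
    by_cases h0 : L (ν f) f = 0
    · exact ⟨0, 0, fun h => absurd h0 h⟩
    · obtain ⟨γ, p, h⟩ := exists_inV mo h0
      exact ⟨γ, p, fun _ => h⟩
  choose γ pos hγ using ex
  have key : ∀ {f}, f ∈ V → ν f ≤ ENNReal.ofReal T₀ → inV mo (L (ν f) f) (γ f) (pos f) := fun v a0 =>
    hγ _ fun h0 => lt_irrefl _ ((zero a0 v le_rfl).1 h0)
  have same : ∀ {a}, a ≤ ENNReal.ofReal T₀ → ∀ {f}, f ∈ V → a ≤ ν f → ∀ {δ p}, inV mo (L a f) δ p →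
      ν f = a ∧ γ f = δ ∧ pos f = p := by
    intro a ha f v a0 δ p hi
    have h1 : ν f = a := le_antisymm (not_lt.1 fun h => hi.ne_zero ((zero ha v a0).2 h)) a0
    subst h1
    exact ⟨rfl, (key v ha).unique hi⟩
  have mul : ∀ f ∈ V, ν f ≤ ENNReal.ofReal T₀ → ∀ (g : A) (β : Fin d →₀ ℕ), inM mo (T g) β → g * f ∈ V →
      ν (g * f) = ν f ∧ γ (g * f) = γ f + β ∧ pos (g * f) = pos f := fun f v a0 g β hg v' => by
    obtain ⟨a1, h1⟩ := lin a0 v' v v le_rfl le_rfl g 0 (by ring)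
    refine same a0 v' a1 ?_
    simpa [h1] using (key v a0).mul hg
  have add' : ∀ f ∈ V, ∀ g ∈ V, ν f ≤ ENNReal.ofReal T₀ → ν f < ν g →
      keyOf mo ν γ pos (f + g) = keyOf mo ν γ pos f := fun f v g v' a0 hlt => by
    obtain ⟨a1, h1⟩ := lin a0 (add_mem v v') v v' le_rfl hlt.le 1 1 (by ring)
    obtain ⟨b1, b2, b3⟩ := same a0 (add_mem v v') a1 (δ := γ f) (p := pos f) (by
      simpa [h1, (zero a0 v' hlt.le).2 hlt] using key v a0)
    simp only [keyOf, b1, b2, b3]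
  refine ⟨γ, pos, ⟨fun f v g v' a0 a0' => ?_, add', fun f v a0 c hc => ?_, fun f v g v' a0 hk => ?_, mul⟩,
    fun f v a0 i => MvPowerSeries.nat_le_order fun e he => ?_⟩
  · rcases lt_trichotomy (ν f) (ν g) with h1 | h1 | h1
    · rw [add' f v g v' a0 h1]
      exact min_le_left _ _
    · obtain ⟨a1, h2⟩ := lin a0 (add_mem v v') v v' le_rfl h1.le 1 1 (by ring)
      rcases a1.lt_or_eq with h3 | h3
      · exact (min_le_left _ _).trans (Prod.Lex.toLex_le_toLex.2 (Or.inl h3))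
      · obtain ⟨i, h4, h5⟩ := (key (add_mem v v') (h3 ▸ a0)).1
        rw [← h3, h2] at h5
        simp only [map_one, one_mul, map_add] at h5
        by_cases h6 : MvPowerSeries.coeff (γ (f + g)) (L (ν f) f i) = 0
        · rw [h6, zero_add, h1] at h5
          exact (min_le_right _ _).trans (Prod.Lex.toLex_le_toLex.2 (Or.inr ⟨h1.symm.trans h3,
            h4 ▸ (key v' a0').2 _ _ h5⟩))
        · exact (min_le_left _ _).trans (Prod.Lex.toLex_le_toLex.2 (Or.inr ⟨h3, h4 ▸ (key v a0).2 _ _ h6⟩))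
    · rw [add_comm, add' g v' f v a0' h1]
      exact min_le_right _ _
  · obtain ⟨b1, b2, b3⟩ := mul f v a0 (algebraMap ℂ A c) 0
      ⟨by rw [AlgHom.commutes]; simpa [MvPowerSeries.algebraMap_apply] using hc,
        fun e _ => mo.toSyn_monotone (zero_le)⟩ (by rw [← Algebra.smul_def]; exact V.smul_mem c v)
    simp only [keyOf, Algebra.smul_def, b1, b2, b3, add_zero]
  · have k1 := Prod.ext_iff.1 (toLex.injective hk)
    have k2 := Prod.ext_iff.1 (toLex.injective k1.2)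
    have k0 : ν f = ν g := k1.1
    have k3 : γ f = γ g := mo.toSyn.injective k2.1
    have k4 : pos f = pos g := k2.2
    have hf := key v a0
    have hg := key v' (k0 ▸ a0)
    rw [← k0, ← k3, ← k4] at hg
    obtain ⟨i, i1, i2⟩ := hg.1
    set c := MvPowerSeries.coeff (γ f) (L (ν f) f i) / MvPowerSeries.coeff (γ f) (L (ν f) g i) with hc
    have v2 : f - c • g ∈ V := sub_mem v (V.smul_mem c v')
    obtain ⟨a1, h2⟩ := lin a0 v2 v v' le_rfl k0.le 1 (algebraMap ℂ A (-c))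
      (by rw [Algebra.smul_def, map_neg]; ring)
    have h7 : ∀ e j, MvPowerSeries.coeff e (L (ν f) (f - c • g) j) =
        MvPowerSeries.coeff e (L (ν f) f j) - c * MvPowerSeries.coeff e (L (ν f) g j) := fun e j => by
      rw [h2]
      simp only [map_one, one_mul, map_add, AlgHom.commutes, ← Algebra.smul_def, map_smul, smul_eq_mul]
      ring
    refine ⟨c, Prod.Lex.toLex_lt_toLex.2 (a1.lt_or_eq.imp id fun h3 => ⟨h3, ?_⟩)⟩
    replace h3 : ν f = ν (f - c • g) := h3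
    obtain ⟨j, h4, h5⟩ := (key v2 (h3 ▸ a0)).1
    rw [← h3, h7] at h5
    refine lt_of_le_of_ne ?_ fun h6 => h5 ?_
    · by_cases h6 : MvPowerSeries.coeff (γ (f - c • g)) (L (ν f) f j) = 0
      · rw [h6, zero_sub, neg_ne_zero] at h5
        exact h4 ▸ hg.2 _ _ (right_ne_zero_of_mul h5)
      · exact h4 ▸ hf.2 _ _ h6
    · have k5 := Prod.ext_iff.1 (toLex.injective h6)
      have k6 : j = i := Fin.ext (h4.trans (Eq.symm (i1.trans k5.2)))
      rw [← mo.toSyn.injective k5.1, k6, hc, div_mul_cancel₀ _ i2, sub_self]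
  · by_contra hc
    exact absurd (hdeg _ _ ((key v a0).le hc)) (not_le.2 he)

end Crest.Agent.R271
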