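import Crest.Agent.R271.St.Sml

/-!
# Row 271, block St: the log canonical threshold of a nonzero function is positive
-/

set_option autoImplicit false
set_option linter.unusedSectionVars false

open MeasureTheory Filter Topology Set
open scoped ENNReal

noncomputable section

namespace Crest.Agent.R271

variable {n : ℕ} {M : Type} [TopologicalSpace M] [T2Space M] [SecondCountableTopology M]
  [MeasurableSpace M] [BorelSpace M] {A : Type} [CommRing A] [IsDomain A] [Algebra ℂ A]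
  {S : Setup n M A}

/-- `|x| ^ (-δ)` -/
def plW (δ : ℝ) (x : ℂ) : ℝ≥0∞ := (‖x‖ₑ ^ δ)⁻¹

theorem plW_eq {δ : ℝ} (hδ : 0 ≤ δ) (x : ℂ) : (ENNReal.ofReal ((‖x‖ ^ 2) ^ δ))⁻¹ = plW (2 * δ) x := by
  rw [plW, ← ofReal_norm, ENNReal.ofReal_rpow_of_nonneg (norm_nonneg x) (by positivity),
    Real.rpow_mul (norm_nonneg x), Real.rpow_two]

theorem plW_meas (δ : ℝ) : Measurable (plW δ) := (measurable_enorm.pow_const δ).inv

theorem plW_mono {δ δ' : ℝ} (h0 : 0 ≤ δ') (h : δ' ≤ δ) (x : ℂ) : plW δ' x ≤ plW δ x + 1 := by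
  rcases le_total ‖x‖ₑ 1 with h1 | h1
  · exact le_add_right (ENNReal.inv_le_inv.2 (ENNReal.rpow_le_rpow_of_exponent_ge h1 h))
  · exact le_add_left (ENNReal.inv_le_one.2 (by simpa using ENNReal.rpow_le_rpow h1 h0))

theorem plW_one {δ : ℝ} (h0 : 0 ≤ δ) (h : δ < 2) (R : ℝ) :
    ∃ C : ℝ≥0∞, C ≠ ⊤ ∧ ∀ r : ℂ, ∫⁻ z in Metric.ball (0 : ℂ) R, plW δ (z - r) ≤ C := by
  have h1 : IntegrableOn (fun z : ℂ => ‖z‖ ^ (-δ)) (Metric.ball 0 1) :=
    integrableOn_ball_of_norm_le_rpow (C := 1) (α := δ) (by simp) (by simpa using h)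
      (.of_forall fun z => by rw [one_mul, Real.norm_of_nonneg (by positivity)])
      (measurable_norm.pow_const _).aestronglyMeasurable
  have h2 : ∫⁻ z in Metric.ball (0 : ℂ) 1, plW δ z ≠ ⊤ := by
    refine ne_of_eq_of_ne (lintegral_congr_ae (ae_restrict_of_ae ?_)) h1.2.ne
    filter_upwards [(volume : Measure ℂ).ae_ne 0] with z hz
    rw [plW, ← ENNReal.rpow_neg, Real.enorm_eq_ofReal (by positivity), ← ENNReal.ofReal_rpow_of_pos (norm_pos_iff.2 hz),
      ofReal_norm]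
  refine ⟨_ + volume (Metric.ball (0 : ℂ) R), ENNReal.add_ne_top.2 ⟨h2, measure_ball_lt_top.ne⟩, fun r => ?_⟩
  rw [← lintegral_indicator measurableSet_ball, ← lintegral_indicator measurableSet_ball,
    ← lintegral_sub_right_eq_self (indicator (Metric.ball 0 1) _) r, ← lintegral_indicator_one measurableSet_ball,
    ← lintegral_add_right _ (measurable_one.indicator measurableSet_ball)]
  refine lintegral_mono fun z => indicator_apply_le' (fun hz => ?_) fun _ => zero_le
  by_cases h3 : z - r ∈ Metric.ball (0 : ℂ) 1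
  · exact le_add_right (indicator_of_mem h3 _).ge
  · rw [mem_ball_zero_iff, not_lt, ← ENNReal.one_le_ofReal, ofReal_norm] at h3
    exact le_add_left ((ENNReal.inv_le_one.2 (by simpa using ENNReal.rpow_le_rpow h3 h0)).trans (indicator_of_mem hz 1).ge)

theorem plW_poly {δ : ℝ} (h0 : 0 < δ) {k : ℕ} (h : k * δ < 2) (R : ℝ) : ∃ C : ℝ≥0∞, C ≠ ⊤ ∧
    ∀ q : Polynomial ℂ, q.natDegree ≤ k → ∫⁻ z in Metric.ball (0 : ℂ) R, plW δ (q.eval z) ≤ plW δ (q.coeff k) * C := by
  obtain ⟨C, hC, h1⟩ := plW_one (by positivity) h R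
  refine ⟨k * C + volume (Metric.ball (0 : ℂ) R) + 1, by finiteness, fun q hq => ?_⟩
  by_cases h2 : q.coeff k = 0
  · simp [h2, plW, h0]
  obtain rfl : q.natDegree = k := Polynomial.natDegree_eq_of_le_of_coeff_ne_zero hq h2
  have h3 : ∀ z, plW δ (q.eval z) ≤
      plW δ q.leadingCoeff * (∑ r ∈ q.roots.toFinset, plW (q.natDegree * δ) (z - r) + 1) := fun z => by
    rw [(IsAlgClosed.splits q).eval_eq_prod_roots, plW, enorm_mul, ENNReal.mul_rpow_of_nonneg _ _ h0.le,
      ENNReal.mul_inv (.inr (by finiteness)) (.inl (by finiteness))]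
    refine mul_le_mul_right ?_ _
    by_cases h4 : q.roots = 0
    · simp [h4]
    obtain ⟨r, hr, h5⟩ := Multiset.exists_min_image (fun r => ‖z - r‖ₑ) h4
    refine le_add_right (le_trans ?_ (Finset.single_le_sum (fun _ _ => zero_le) (Multiset.mem_toFinset.2 hr)))
    rw [plW, ENNReal.inv_le_inv, ENNReal.rpow_natCast_mul, ← IsAlgClosed.card_roots_eq_natDegree]
    refine ENNReal.rpow_le_rpow ?_ h0.le
    generalize ‖z - r‖ₑ = m at h5
    generalize q.roots = s at h5
    induction s using Multiset.induction_on with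
    | empty => simp
    | cons a s ih =>
      rw [Multiset.card_cons, pow_succ', Multiset.map_cons, Multiset.prod_cons, enorm_mul]
      exact mul_le_mul' (h5 a (by simp)) (ih fun b hb => h5 b (by simp [hb]))
  refine (lintegral_mono h3).trans ?_
  have h4 : ∀ r : ℂ, Measurable fun z => plW (q.natDegree * δ) (z - r) := fun r =>
    (plW_meas _).comp (measurable_sub_const r)
  rw [lintegral_const_mul _ ((Finset.measurable_fun_sum _ fun r _ => h4 r).add_const 1), lintegral_add_right _ measurable_const,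
    lintegral_finsetSum _ fun r _ => h4 r, setLIntegral_one]
  refine mul_le_mul_right (le_add_right (add_le_add_left ((Finset.sum_le_card_nsmul _ _ _ fun r _ => h1 r).trans ?_) _)) _
  rw [nsmul_eq_mul]
  gcongr
  exact (Multiset.toFinset_card_le _).trans (Polynomial.card_roots' q)

theorem plW_mv (d : ℕ) (P : MvPolynomial (Fin d) ℂ) (hP : P ≠ 0) :
    ∃ δ : ℝ, 0 < δ ∧ ∀ R : ℝ, ∫⁻ v in Metric.ball (0 : E d) R, plW δ (MvPolynomial.eval v P) ≠ ⊤ := by
  induction d with
  | zero =>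
    obtain ⟨c, rfl⟩ := MvPolynomial.C_surjective _ P
    refine ⟨1, one_pos, fun R => ?_⟩
    simp only [MvPolynomial.eval_C, setLIntegral_const]
    exact ENNReal.mul_ne_top (by simpa [plW] using hP) measure_ball_lt_top.ne
  | succ d ih =>
    set Q := MvPolynomial.finSuccEquiv ℂ d P
    obtain ⟨δ, h0, h1⟩ := ih Q.leadingCoeff (Polynomial.leadingCoeff_ne_zero.2 ((map_ne_zero_iff _ (AlgEquiv.injective _)).2 hP))
    have h2 : 0 < min δ (1 / (Q.natDegree + 1)) := by positivity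
    refine ⟨_, h2, fun R => ?_⟩
    obtain ⟨C, hC, h3⟩ := plW_poly h2 (k := Q.natDegree) ((mul_le_mul_of_nonneg_left (min_le_right _ _) (Nat.cast_nonneg _)).trans_lt
      (by rw [mul_one_div, div_lt_iff₀ (by positivity)]; linarith [(Nat.cast_nonneg Q.natDegree : (0 : ℝ) ≤ _)])) R
    have h4 := (volume_preserving_piFinSuccAbove (fun _ : Fin (d + 1) => ℂ) 0).symm
    rw [← h4.setLIntegral_comp_preimage_emb (MeasurableEquiv.measurableEmbedding _)]
    refine ne_top_of_le_ne_top ?_ (lintegral_mono_set (t := Metric.ball 0 R ×ˢ Metric.ball 0 R) fun p hp => ?_)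
    · rw [Measure.volume_eq_prod, setLIntegral_prod_symm _
        ((plW_meas _).fun_comp ((MvPolynomial.continuous_eval P).measurable.fun_comp h4.measurable)).aemeasurable]
      refine ne_top_of_le_ne_top ?_ (lintegral_mono (g := fun v => (plW δ (MvPolynomial.eval v Q.leadingCoeff) + 1) * C) fun v => ?_)
      · rw [lintegral_mul_const' _ _ hC, lintegral_add_right _ measurable_const, setLIntegral_one]
        exact ENNReal.mul_ne_top (ENNReal.add_ne_top.2 ⟨h1 R, measure_ball_lt_top.ne⟩) hC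
      · refine le_trans (le_of_eq ?_) ((h3 (Q.map (MvPolynomial.eval v)) Polynomial.natDegree_map_le).trans ?_)
        · simp [← MvPolynomial.eval_eq_eval_mv_eval', Q, Fin.insertNthEquiv]
        · rw [Polynomial.coeff_map]
          exact mul_le_mul_left (plW_mono h2.le (min_le_left _ _) _) _
    · have h5 := mem_ball_zero_iff.1 hp
      have h6 : ∀ i, ‖_‖ < R := fun i => (norm_le_pi_norm _ i).trans_lt h5
      exact ⟨mem_ball_zero_iff.2 (h6 0), mem_ball_zero_iff.2
        ((pi_norm_lt_iff ((norm_nonneg _).trans_lt h5)).2 fun i => h6 i.succ)⟩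

/-- induction on the number of variables: `P = a_k(z') ∏ (z₀ - r_i(z'))`, and
`∫_{|z₀| < R} ∏ |z₀ - r_i| ^ (-2δ) ≤ C` uniformly in the roots if `k δ < 1`
(`∏ u_i ≤ ∑ u_i ^ k`), Tonelli (`MvPolynomial.finSuccEquiv`, `measurePreserving_piFinSuccAbove`). -/
theorem poly_pos_lct (d : ℕ) (P : MvPolynomial (Fin d) ℂ) (hP : P ≠ 0) :
    ∃ δ : ℝ, 0 < δ ∧ ∀ R : ℝ, ∫⁻ v in Metric.ball (0 : E d) R,
      (ENNReal.ofReal ((‖MvPolynomial.eval v P‖ ^ 2) ^ δ))⁻¹ ≠ ⊤ := by
  obtain ⟨δ, h0, h⟩ := plW_mv d P hP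
  refine ⟨δ / 2, half_pos h0, fun R => ?_⟩
  simp only [plW_eq (half_pos h0).le, mul_div_cancel₀ δ two_ne_zero]
  exact h R

/-- `a` is algebraic over `ℂ[z]` (`S.filt.coord ⊥`), so `a * b = P(z)` with `P ≠ 0`; use a chart
(`Dom.IsCh.lintegral_eq`) and `sing_mono`. -/
theorem Cx.pos_lct (hc : Cx S) {a : A} (ha : a ≠ 0) (y : M) :
    ∃ δ : ℝ, 0 < δ ∧ ¬ S.Sing (fun x => S.sq a x ^ δ) y := by
  obtain ⟨ι, -, hι⟩ := S.filt.coord ⊥ Ideal.isPrime_bot
  have hinj : Function.Injective (Ideal.Quotient.mkₐ ℂ (⊥ : Ideal A)) :=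
    (injective_iff_map_eq_zero _).2 fun x hx => Ideal.Quotient.eq_zero_iff_mem.1 hx
  obtain ⟨⟨r, hr⟩, h0, b, hb⟩ := (hι.isAlgebraic.isAlgebraic (Ideal.Quotient.mkₐ ℂ ⊥ a)).exists_nonzero_dvd
    (mem_nonZeroDivisors_of_ne_zero ((map_ne_zero_iff _ hinj).2 ha))
  obtain ⟨b, rfl⟩ := Ideal.Quotient.mkₐ_surjective ℂ ⊥ b
  obtain ⟨Q, rfl⟩ := (Algebra.adjoin_range_eq_range_aeval ℂ _).le hr
  have h1 : MvPolynomial.aeval S.z (Q.rename ι) = a * b := hinj (by
    rw [map_mul, ← hb, MvPolynomial.aeval_rename, ← AlgHom.comp_apply, MvPolynomial.comp_aeval]; rfl)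
  obtain ⟨δ, hδ, h2⟩ := poly_pos_lct n (Q.rename ι) fun h => h0 (Subtype.ext (by
    rw [h, map_zero] at h1
    rw [← map_mul, ← h1, map_zero] at hb
    exact hb))
  have h3 : ∀ x, MvPolynomial.eval (S.p x) (Q.rename ι) = S.ev x (a * b) := fun x => by
    rw [← h1, ← AlgHom.comp_apply, MvPolynomial.comp_aeval, funext (S.p_eq x)]; rfl
  refine ⟨δ, hδ, fun hs => ?_⟩
  have h4 := sing_mono _ hs (fun x => Real.rpow_nonneg (S.sq_nonneg a x) δ)
    (g' := fun x => (‖MvPolynomial.eval (S.p x) (Q.rename ι)‖ ^ 2) ^ δ) ⟨(S.sq b y + 1) ^ δ, by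
      filter_upwards [(hc.cont b).continuousAt.eventually (eventually_le_nhds (lt_add_one (S.sq b y)))] with x hx
      rw [h3, map_mul, norm_mul, mul_pow, ← Real.mul_rpow (add_nonneg (S.sq_nonneg b y) zero_le_one) (S.sq_nonneg a x), mul_comm]
      exact Real.rpow_le_rpow (by positivity) (mul_le_mul_of_nonneg_right hx (S.sq_nonneg a x)) hδ.le⟩
  have h5 : IsOpen ((S.ch y).source ∩ S.p ⁻¹' Metric.ball 0 (‖S.p y‖ + 1)) :=
    (S.ch y).open_source.inter (Metric.isOpen_ball.preimage S.p_cont)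
  have h6 := h4 _ (h5.mem_nhds ⟨S.ch_source y, mem_ball_zero_iff.2 (lt_add_one _)⟩)
  rw [(S.isCh y).lintegral_eq h5.measurableSet inter_subset_left, image_inter_preimage, (S.isCh y).image_source] at h6
  refine ne_top_of_le_ne_top (h2 (‖S.p y‖ + 1)) (le_trans (le_of_eq ?_)
    (lintegral_mono_set (inter_subset_right (s := (S.ch y).target)))) h6
  exact setLIntegral_congr_fun ((S.ch y).open_target.measurableSet.inter measurableSet_ball) fun z hz => by
    simp only [(S.isCh y).p_symm hz.1]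

end Crest.Agent.R271
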