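import Crest.Agent.R271.St.Atom
import Crest.Agent.R271.St.Cells
import Crest.Agent.R271.St.PosLct

/-!
# Row 271, block St: compactness of configurations; critical weights
-/

set_option autoImplicit false
set_option linter.unusedSectionVars false

open MeasureTheory Filter Topology Set
open scoped ENNReal

noncomputable section

namespace Crest.Agent.R271

variable {n : ℕ} {M : Type} [TopologicalSpace M] [T2Space M] [SecondCountableTopology M]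
  [MeasurableSpace M] [BorelSpace M] {A : Type} [CommRing A] [IsDomain A] [Algebra ℂ A]
  {S : Setup n M A}

variable {sh : Shape S}

theorem lim_atom_nonneg (hc : Cx S) (c : sh.Cfg) (k : sh.At) (x : M) : 0 ≤ sh.atom c k x :=
  hc.lp.nonneg _ (hc.atom_lp sh c k) x

/-- compactness of the space of configurations -/
theorem lim_cfg (c : ℕ → sh.Cfg) : ∃ (φ : ℕ → ℕ) (c₀ : sh.Cfg), StrictMono φ ∧
    ∀ j i k, Tendsto (fun ν => (c (φ ν) j).1 i k) atTop (𝓝 ((c₀ j).1 i k)) := by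
  classical
  let u : ℕ → (∀ j : sh.J, Fin (sh.st j).N → EuclideanSpace ℂ (Fin (sh.st j).N)) :=
    fun ν j => (c ν j).1
  have hu : ∀ ν, u ν ∈ Metric.closedBall 0 1 := fun ν => by
    rw [mem_closedBall_zero_iff, pi_norm_le_iff_of_nonneg zero_le_one]
    intro j
    rw [pi_norm_le_iff_of_nonneg zero_le_one]
    exact fun i => ((c ν j).2.1 i).le
  obtain ⟨u₀, -, φ, hφ, h⟩ := (isCompact_closedBall _ _).tendsto_subseq hu
  have h1 : ∀ j i, Tendsto (fun ν => (c (φ ν) j).1 i) atTop (𝓝 (u₀ j i)) := fun j i =>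
    tendsto_pi_nhds.1 (tendsto_pi_nhds.1 h j) i
  refine ⟨φ, fun j => ⟨u₀ j, orthonormal_iff_ite.2 fun i i' => ?_⟩, hφ, fun j i k => ?_⟩
  · refine tendsto_nhds_unique ((h1 j i).inner (𝕜 := ℂ) (h1 j i')) ?_
    simp only [orthonormal_iff_ite.1 (c _ j).2]
    exact tendsto_const_nhds
  · exact ((EuclideanSpace.proj k).continuous.tendsto _).comp (h1 j i)

theorem lim_ev_sec (σ : Stage S) (u : σ.Fr) (i : Fin σ.N) (x : M) :
    S.ev x (σ.sec u i) = ∑ k, u.1 i k * S.ev x (σ.b k) := by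
  simp [Stage.sec]

theorem lim_atom_tendsto {c : ℕ → sh.Cfg} {c₀ : sh.Cfg}
    (h : ∀ j i k, Tendsto (fun ν => (c ν j).1 i k) atTop (𝓝 ((c₀ j).1 i k))) (k : sh.At) (x : M) :
    Tendsto (fun ν => sh.atom (c ν) k x) atTop (𝓝 (sh.atom c₀ k x)) := by
  rcases k with ⟨j, i⟩ | k
  · simp only [Shape.atom, Sum.elim_inl, Stage.atom, Aff.sq, lim_ev_sec]
    exact ((tendsto_finsetSum _ fun k _ => (h j i k).mul_const _).norm.pow 2).add_const _
  · exact tendsto_const_nhds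

theorem lim_atom_bdd (hc : Cx S) (x : M) :
    ∃ U ∈ 𝓝 x, ∃ B : ℝ, ∀ (c : sh.Cfg) (k : sh.At), ∀ y ∈ U, sh.atom c k y ≤ B := by
  have key : ∀ k : sh.At, ∃ G : M → ℝ, Continuous G ∧ ∀ c y, sh.atom c k y ≤ G y := by
    rintro (⟨j, i⟩ | k)
    · refine ⟨fun y => (∑ k, √(S.sq ((sh.st j).b k) y)) ^ 2 + ∑ g ∈ (sh.st j).gens, S.sq g y,
        ((continuous_finsetSum _ fun k _ => (hc.cont _).sqrt).pow 2).add
          (continuous_finsetSum _ fun g _ => hc.cont g), fun c y => ?_⟩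
      simp only [Shape.atom, Sum.elim_inl, Stage.atom]
      refine add_le_add_left ?_ _
      simp only [Aff.sq, lim_ev_sec, Real.sqrt_sq (norm_nonneg _)]
      refine pow_le_pow_left₀ (norm_nonneg _) ((norm_sum_le _ _).trans
        (Finset.sum_le_sum fun k _ => ?_)) 2
      rw [norm_mul]
      refine mul_le_of_le_one_left (norm_nonneg _) ?_
      exact (PiLp.norm_apply_le ((c j).1 i) k).trans ((c j).2.1 i).le
    · exact ⟨S.fanF (sh.fan k), (hc.fan_lp (sh.fan_pos k)).1, fun c y => le_rfl⟩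
  choose G hG hle using key
  have h1 : ∀ᶠ y in 𝓝 x, ∀ k, G k y < G k x + 1 :=
    eventually_all.2 fun k => (hG k).continuousAt.eventually_lt_const (lt_add_one _)
  obtain ⟨B, hB⟩ := (finite_range fun k => G k x + 1).bddAbove
  exact ⟨_, h1, B, fun c k y hy => (hle k c y).trans ((hy k).le.trans (hB ⟨k, rfl⟩))⟩

theorem lim_atom_ge (c : sh.Cfg) (k : sh.At) :
    ∃ (f : A) (e : ℝ), f ≠ 0 ∧ 0 < e ∧ ∀ y, S.sq f y ^ e ≤ sh.atom c k y := by
  rcases k with ⟨j, i⟩ | k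
  · refine ⟨(sh.st j).sec (c j) i, 1, fun h => ?_, one_pos, fun y => ?_⟩
    · exact Stage.IsBas.not_mem _ ((sh.st j).sec_isBas (c j)) i (h ▸ zero_mem _)
    · rw [Real.rpow_one]
      exact le_add_of_nonneg_right (Finset.sum_nonneg fun g _ => S.sq_nonneg g y)
  · obtain ⟨q, hq, hq0⟩ := sh.fan_ne k
    exact ⟨q.1, q.2, hq0, sh.fan_pos k q hq, fun y => Finset.single_le_sum
      (f := fun q : A × ℝ => S.sq q.1 y ^ q.2)
      (fun q _ => Real.rpow_nonneg (S.sq_nonneg _ _) _) hq⟩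

/-- Frames have bounded entries, so a subsequence converges to a frame `c₀` (orthonormality is closed); the atoms
converge pointwise and are locally uniformly bounded.  The exponents are bounded: if `a (φ ν) k → ∞` along a
subsequence then `hc.lim` for the single atom `k` with a constant exponent `C` (`rate_of_small`, `Small.mono`) gives
`Rate (atom c₀ k) C x α` for every `C`, and `atom c₀ k ≥ |f| ^ (2 e)` for some `f ≠ 0`, `e > 0` (`IsBas.not_mem`, `fan_ne`), which contradicts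
`pos_lct` through `sing_of_rate`.  Then `hc.lim` for the whole family. -/
theorem Cx.crit_lim (hc : Cx S) (c : ℕ → sh.Cfg) (a : ℕ → sh.At → ℝ) (y : ℕ → M) {x : M} {α : ℝ}
    (hα : 0 ≤ α) (ha : ∀ ν k, 0 ≤ a ν k) (hy : Tendsto y atTop (𝓝 x))
    (hr : ∀ ν, S.Rate (sh.atom (c ν)) (a ν) (y ν) α) :
    ∃ (φ : ℕ → ℕ) (c₀ : sh.Cfg) (a₀ : sh.At → ℝ), StrictMono φ ∧
      (∀ k, Tendsto (fun ν => a (φ ν) k) atTop (𝓝 (a₀ k))) ∧ S.Rate (sh.atom c₀) a₀ x α := by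
  obtain ⟨φ, c₀, hφ, hcv⟩ := lim_cfg c
  obtain ⟨U, hU, B, hB⟩ := lim_atom_bdd (sh := sh) hc x
  have hbd : ∀ k, ∃ C : ℝ, ∀ᶠ ν in atTop, a (φ ν) k ≤ C := by
    intro k
    obtain ⟨f, e, hf, he, hfe⟩ := lim_atom_ge c₀ k
    obtain ⟨δ, hδ, hns⟩ := hc.pos_lct hf x
    have hδe : 0 < δ / e := div_pos hδ he
    have hC : 0 < (α + 1) / (δ / e) := div_pos (by linarith) hδe
    refine ⟨(α + 1) / (δ / e), ?_⟩
    by_contra hcon
    obtain ⟨ψ, hψ, h⟩ := extraction_of_frequently_atTop (not_eventually.1 hcon)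
    have h1 := hc.lim Unit (fun ν _ => sh.atom (c (φ (ψ ν))) k) (fun _ _ => (α + 1) / (δ / e))
      (fun ν => y (φ (ψ ν))) (fun _ => α) (fun _ => sh.atom c₀ k) (fun _ => (α + 1) / (δ / e)) x α
      (fun ν _ => hc.atom_lp sh _ k) (fun _ => hα) ⟨U, hU, B, fun ν _ => hB _ k⟩
      (fun _ x' => (lim_atom_tendsto hcv k x').comp hψ.tendsto_atTop) (fun _ => tendsto_const_nhds)
      (hy.comp (hφ.comp hψ).tendsto_atTop) tendsto_const_nhds
      (fun ν => rate_of_small _ (hr (φ (ψ ν))) fun _ =>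
        (small_poly _ _ _ k (hC.trans (not_le.1 (h ν)))).mono (not_le.1 (h ν)).le)
    have h2 := (small_poly (fun _ : Unit => sh.atom c₀ k) (fun _ => (α + 1) / (δ / e)) x () hC).rpow
      (lim_atom_nonneg hc c₀ k) hδe.le
    refine hns (sing_of_rate _ h1 ((hc.cont f).rpow_const fun _ => Or.inr hδ.le)
      (h2.of_le (fun y => Real.rpow_nonneg (lim_atom_nonneg hc c₀ k y) _)
        ⟨1, Eventually.of_forall fun y => ?_⟩) ?_)
    · rw [one_mul, show δ = e * (δ / e) by field_simp, Real.rpow_mul (S.sq_nonneg _ _),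
        show e * (δ / e) / e = δ / e by field_simp]
      exact Real.rpow_le_rpow (Real.rpow_nonneg (S.sq_nonneg _ _) _) (hfe y) hδe.le
    · rw [mul_div_cancel₀ _ hδe.ne']
      exact lt_add_one _
  choose C hC using hbd
  obtain ⟨a₀, -, ψ, hψ, hl⟩ := (isCompact_Icc (a := (0 : sh.At → ℝ)) (b := C)).tendsto_subseq'
    (x := fun ν => a (φ ν))
    ((eventually_all.2 hC).mono fun ν h => (⟨ha _, h⟩ : a (φ ν) ∈ Icc 0 C)).frequently
  have hl' := tendsto_pi_nhds.1 hl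
  exact ⟨φ ∘ ψ, c₀, a₀, hφ.comp hψ, hl', hc.lim sh.At (fun ν => sh.atom (c (φ (ψ ν))))
    (fun ν => a (φ (ψ ν))) (fun ν => y (φ (ψ ν))) (fun _ => α) _ _ x α
    (fun ν k => hc.atom_lp sh _ k) (fun _ => hα) ⟨U, hU, B, fun ν k => hB _ k⟩
    (fun k x' => (lim_atom_tendsto hcv k x').comp hψ.tendsto_atTop) hl'
    (hy.comp (hφ.comp hψ).tendsto_atTop) tendsto_const_nhds fun ν => hr _⟩

/-- the atoms are continuous, so locally bounded; `sing_mono` -/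
theorem Cx.not_sing_mono (hc : Cx S) (c : sh.Cfg) {w w' : sh.At → ℝ} (hw : ∀ k, 0 ≤ w k)
    (hww : ∀ k, w k ≤ w' k) {x : M} (h : ¬ S.Sing (prodW (sh.atom c) w') x) :
    ¬ S.Sing (prodW (sh.atom c) w) x := by
  intro hs
  have hd : ∀ k, 0 ≤ w' k - w k := fun k => sub_nonneg.2 (hww k)
  have hl := hc.prodW_lp (hc.atom_lp sh c) hw
  have hl' := hc.prodW_lp (hc.atom_lp sh c) hd
  refine h (sing_mono _ hs (hc.lp.nonneg _ hl) ⟨prodW (sh.atom c) (fun k => w' k - w k) x + 1,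
    (hl'.1.continuousAt.eventually_lt_const (lt_add_one _)).mono fun y hy => ?_⟩)
  refine le_trans (le_of_eq ?_) (mul_le_mul_of_nonneg_right hy.le (hc.lp.nonneg _ hl y))
  simp only [prodW]
  rw [← Finset.prod_mul_distrib]
  refine Finset.prod_congr rfl fun k _ => ?_
  rw [← Real.rpow_add_of_nonneg (lim_atom_nonneg hc c k y) (hd k) (hw k), sub_add_cancel]

theorem Cx.lc_closed (hc : Cx S) {w : ℕ → sh.At → ℝ} {w₀ : sh.At → ℝ} (hw : ∀ ν k, 0 ≤ w ν k)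
    (hl : ∀ k, Tendsto (fun ν => w ν k) atTop (𝓝 (w₀ k))) {x : M} (h : ∀ ν, sh.LC (w ν) x) :
    sh.LC w₀ x := by
  intro c β hβ hβ1
  have h0 : ∀ k, 0 ≤ w₀ k := fun k => ge_of_tendsto' (hl k) fun ν => hw ν k
  have hβ' : 0 ≤ (β + 1) / 2 := by linarith
  have : ∀ᶠ ν in atTop, ∀ k, β * w₀ k ≤ (β + 1) / 2 * w ν k := by
    refine eventually_all.2 fun k => ?_
    rcases (h0 k).eq_or_lt with h1 | h1
    · exact Eventually.of_forall fun ν => by
        rw [← h1, mul_zero]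
        exact mul_nonneg hβ' (hw ν k)
    · exact (((hl k).const_mul ((β + 1) / 2)).eventually_const_lt
        (mul_lt_mul_of_pos_right (by linarith) h1)).mono fun ν h => h.le
  obtain ⟨ν, hν⟩ := this.exists
  exact hc.not_sing_mono c (fun k => mul_nonneg hβ (h0 k)) hν (h ν c _ hβ' (by linarith))

/-- `l = sSup {l ≥ 0 | LC (w₀ + l w₁)}`; `lc_closed`; for `l + 1/(ν+1)` use `cells`, then `crit_lim` -/
theorem Cx.crit (hc : Cx S) {w₀ w₁ : sh.At → ℝ} (h₀ : ∀ k, 0 ≤ w₀ k) (h₁ : ∀ k, 0 ≤ w₁ k) {x : M}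
    (hlc : sh.LC w₀ x) {Λ : ℝ}
    (hΛ : ∀ l : ℝ, 0 ≤ l → sh.LC (fun k => w₀ k + l * w₁ k) x → l ≤ Λ) :
    ∃ l : ℝ, 0 ≤ l ∧ l ≤ Λ ∧ sh.LC (fun k => w₀ k + l * w₁ k) x ∧
      ∃ (c : sh.Cfg) (a : sh.At → ℝ), (∀ k, 0 ≤ a k) ∧ 1 ≤ ∑ k, (w₀ k + l * w₁ k) * a k ∧
        S.Rate (sh.atom c) a x 1 := by
  set T : Set ℝ := {l | 0 ≤ l ∧ sh.LC (fun k => w₀ k + l * w₁ k) x} with hT
  have h0T : (0 : ℝ) ∈ T := ⟨le_rfl, by simpa using hlc⟩
  have hbd : BddAbove T := ⟨Λ, fun l hl => hΛ l hl.1 hl.2⟩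
  have hl0 : 0 ≤ sSup T := le_csSup hbd h0T
  obtain ⟨u, -, hu, huT⟩ := exists_seq_tendsto_sSup ⟨0, h0T⟩ hbd
  refine ⟨sSup T, hl0, csSup_le ⟨0, h0T⟩ fun l hl => hΛ l hl.1 hl.2,
    hc.lc_closed (fun ν k => add_nonneg (h₀ k) (mul_nonneg (huT ν).1 (h₁ k)))
      (fun k => (hu.mul_const _).const_add _) fun ν => (huT ν).2, ?_⟩
  have key : ∀ ν : ℕ, ∃ (c : sh.Cfg) (a : sh.At → ℝ), (∀ k, 0 ≤ a k) ∧
      1 ≤ ∑ k, (w₀ k + (sSup T + 1 / ((ν : ℝ) + 1)) * w₁ k) * a k ∧ S.Rate (sh.atom c) a x 1 := by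
    intro ν
    have hp : (0 : ℝ) < 1 / ((ν : ℝ) + 1) := Nat.one_div_pos_of_nat
    have h1 : ¬ sh.LC (fun k => w₀ k + (sSup T + 1 / ((ν : ℝ) + 1)) * w₁ k) x := fun h => by
      have := le_csSup hbd (⟨by linarith, h⟩ : sSup T + 1 / ((ν : ℝ) + 1) ∈ T)
      linarith
    simp only [Shape.LC, not_forall, not_not] at h1
    obtain ⟨c, β, hβ, hβ1, hs⟩ := h1
    obtain ⟨a, h⟩ := hc.cells (sh.atom c) _ x (hc.atom_lp sh c)
      (fun k => add_nonneg (h₀ k) (mul_nonneg (by linarith) (h₁ k))) hβ hβ1 hs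
    exact ⟨c, a, h⟩
  choose c a ha h1 hr using key
  obtain ⟨φ, c₀, a₀, hφ, hl, hr₀⟩ := hc.crit_lim c a (fun _ => x) zero_le_one ha
    tendsto_const_nhds hr
  refine ⟨c₀, a₀, fun k => ge_of_tendsto' (hl k) fun ν => ha _ k, ?_, hr₀⟩
  have h2 : Tendsto (fun ν => sSup T + 1 / ((φ ν : ℝ) + 1)) atTop (𝓝 (sSup T)) := by
    simpa using ((tendsto_one_div_add_atTop_nhds_zero_nat (𝕜 := ℝ)).comp
      hφ.tendsto_atTop).const_add (sSup T)
  exact ge_of_tendsto' (tendsto_finsetSum _ fun k _ =>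
    ((h2.mul_const (w₁ k)).const_add (w₀ k)).mul (hl k)) fun ν => h1 (φ ν)

/-- `atom_rate` at each `y ν`, `crit_lim`, `lc_le` -/
theorem Cx.lc_near (hc : Cx S) {lam : sh.J → ℝ} {μ : sh.I → ℝ} (hl : ∀ j, 0 ≤ lam j)
    (hμ : ∀ k, 0 ≤ μ k) {x : M} (h : sh.LC (sh.wt lam μ) x) {y : ℕ → M}
    (hy : Tendsto y atTop (𝓝 x)) {α v : ℝ} (hα : 0 ≤ α)
    (H : ∀ ν, ∃ (P : ℝ → Set M) (W : sh.WD), S.RateS P (y ν) α ∧ W.Sat (S.sml P (y ν)) ∧
      v ≤ W.val (sh.wt lam μ)) : v ≤ α := by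
  have key : ∀ ν, ∃ (c : sh.Cfg) (a : sh.At → ℝ), (∀ k, 0 ≤ a k) ∧
      v ≤ ∑ k, sh.wt lam μ k * a k ∧ S.Rate (sh.atom c) a (y ν) α := by
    intro ν
    obtain ⟨P, W, hP, hW, hv⟩ := H ν
    obtain ⟨c, a, ha, he, hr⟩ := hc.atom_rate W hP hW
    exact ⟨c, a, ha, (he lam μ).symm ▸ hv, hr⟩
  choose c a ha h1 hr using key
  obtain ⟨φ, c₀, a₀, -, hl', hr₀⟩ := hc.crit_lim c a y hα ha hy hr
  refine le_trans ?_ (hc.lc_le (Shape.wt_nonneg hl hμ) h hr₀)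
  exact ge_of_tendsto' (tendsto_finsetSum _ fun k _ => (hl' k).const_mul _) fun ν => h1 (φ ν)

end Crest.Agent.R271
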