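import Crest.Agent.R271.St.Gain
import Crest.Agent.R271.St.Lim
import Crest.Agent.R271.St.CenB

/-!
# Row 271, block St: the first stage
-/

set_option autoImplicit false
set_option linter.unusedSectionVars false

open MeasureTheory Filter Topology Set
open scoped ENNReal

noncomputable section

namespace Crest.Agent.R271

variable {n : ℕ} {M : Type} [TopologicalSpace M] [T2Space M] [SecondCountableTopology M]
  [MeasurableSpace M] [BorelSpace M] {A : Type} [CommRing A] [IsDomain A] [Algebra ℂ A]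
  {S : Setup n M A}

/-- one stage, no fan -/
def Stage.shape (σ : Stage S) : Shape S where
  J := Unit
  st := fun _ => σ
  I := Empty
  fan := Empty.elim
  fan_pos := fun k => k.elim
  fan_ne := fun k => k.elim

theorem Stage.shape_val (σ : Stage S) (W : σ.shape.WD) (l : ℝ) :
    W.val (σ.shape.wt (fun _ => l) Empty.elim) =
      l / (σ.m * σ.N) * ∑ i : Fin σ.N, W.a (Sum.inl ⟨(), i⟩) := by
  rw [Shape.WD.val, Shape.sum_wt]
  change ∑ _j : Unit, l / (σ.m * σ.N) * ∑ i : Fin σ.N, W.a (Sum.inl ⟨(), i⟩) +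
    ∑ k : Empty, Empty.elim k * W.a (Sum.inr k) = _
  simp

/-- `sh` has one stage `σ` (`J = Unit`, `σ.𝔭 = ⊥`, `gens = ∅`, `m` large for `big_eventually`, `exists_stage`, `H`) and no fan (`I = Empty`).
`LC 0` holds (`not_sing_of_pos`).  For `l ≥ 0` with `LC (wt l)`: `lc_wd` with `hc.co n id x 1` gives `l κ ≤ n + 1 - γ₀`.  `crit` gives `l`, `c`, `a`; `l > 0`;
`wd_of_cfg`, `pairs`, `cen` (α = 1) give `𝔭, ν`.  Enlarge `τ` to `τ + ∑ a + m N / l + 1` (no generators): `untr` by `WD.exch` and `lc_qv`.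
Some `a i > 0`, so `0 ≠ s i ∈ 𝔭` and `dm 𝔭 < n` (`dm_lt`, `dm_bot`). -/
theorem Cx.state_zero (hc : Cx S) (x : M) {ε γ₀ : ℝ} (hε : 0 < ε) (hε' : ε < 1 / 2) (hγ : 0 < γ₀)
    (hγ' : γ₀ < 1) (k : ℕ)
    (H : ∀ᶠ m in atTop, ∀ σ : Stage S, σ.𝔭 = ⊥ → σ.m = m →
      ∃ (s : Fin σ.N → A) (a : Fin σ.N → ℝ), σ.IsBas s ∧
        (∀ i, 0 ≤ a i ∧ S.sml (poly (fun i => S.sq (S.zc x i)) fun _ => 1) x (s i) (a i)) ∧
        n * S.κ * (σ.m * σ.N) ≤ (n + 1 - γ₀) * ∑ i, a i) :
    Nonempty (State S x ε γ₀ k) := by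
  have hκ := S.κ_pos
  obtain ⟨m, hm1, hm2, σ, hσ1, hσ2, hσ3⟩ := (H.and ((S.big_eventually hε (by linarith) k
    Ideal.isPrime_bot).and (S.exists_stage Ideal.isPrime_bot))).exists
  have hgens : σ.gens = ∅ := hσ3 rfl
  obtain ⟨s, a, hs, ha, hsum⟩ := hm1 σ hσ1 hσ2
  have hm0 : (0 : ℝ) < σ.m := by exact_mod_cast σ.m_pos
  have hN0 : (0 : ℝ) < σ.N := by exact_mod_cast σ.N_pos
  have hn0 : (0 : ℝ) < n := by exact_mod_cast hc.hn
  have hdm : S.dm σ.𝔭 = n := by rw [hσ1, S.filt.dm_bot]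
  have hμ : ∀ i : σ.shape.I, (0 : ℝ) ≤ Empty.elim i := fun i => i.elim
  have hwt : ∀ l : ℝ, (fun q => (0 : ℝ) + l * σ.shape.wt (fun _ => 1) Empty.elim q) =
      σ.shape.wt (fun _ => l) Empty.elim := by
    intro l
    funext q
    rcases q with q | q
    · simp only [Shape.wt, Sum.elim_inl]
      ring
    · exact q.elim
  have hlc0 : σ.shape.LC (fun _ => 0) x := by
    intro c β _ _
    have : prodW (σ.shape.atom c) (fun _ => β * 0) = fun _ => 1 := by
      funext y; simp [prodW]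
    rw [this]
    exact not_sing_of_pos _ continuous_const one_pos
  have hΛ : ∀ l : ℝ, 0 ≤ l →
      σ.shape.LC (fun q => (0 : ℝ) + l * σ.shape.wt (fun _ => 1) Empty.elim q) x →
      l ≤ (n + 1 - γ₀) / S.κ := by
    intro l hl hlc
    rw [hwt] at hlc
    let W₀ : σ.shape.WD :=
      { s := fun _ => s
        bas := fun _ => hs
        a := Sum.elim (fun q => a q.2) Empty.elim
        nonneg := by
          rintro (q | q)
          · exact (ha _).1
          · exact q.elim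
        τ := fun _ => ∑ i, a i
        le_τ := fun _ i => Finset.single_le_sum (f := a) (fun i _ => (ha i).1) (Finset.mem_univ i) }
    have hP : S.RateS (poly (fun i => S.sq (S.zc x i)) fun _ => 1) x (1 * n) :=
      hc.co n id x 1 zero_le_one
    have hW : W₀.Sat (S.sml (poly (fun i => S.sq (S.zc x i)) fun _ => 1) x) :=
      ⟨fun _ i => (ha i).2, fun _ g hg => by
        change g ∈ σ.gens at hg
        rw [hgens] at hg
        exact absurd hg (Finset.notMem_empty g), fun q => q.elim⟩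
    have h1 := hc.lc_wd (fun _ => hl) hμ hlc W₀ hP hW
    rw [σ.shape_val] at h1
    change l / (σ.m * σ.N) * ∑ i, a i ≤ 1 * n at h1
    rw [div_mul_eq_mul_div, div_le_iff₀ (by positivity)] at h1
    rw [le_div_iff₀ hκ]
    have h2 : (0 : ℝ) ≤ n + 1 - γ₀ := by linarith
    have h3 := mul_le_mul_of_nonneg_left hsum hl
    have h4 := mul_le_mul_of_nonneg_left h1 h2
    have h5 : (0 : ℝ) < n * (σ.m * σ.N) := by positivity
    refine le_of_mul_le_mul_right ?_ h5
    nlinarith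
  obtain ⟨l, hl0, hlΛ, hlc, c, b, hb0, hb1, hbr⟩ := hc.crit (fun _ => le_rfl)
    (Shape.wt_nonneg (fun _ => zero_le_one) hμ) hlc0 hΛ
  rw [le_div_iff₀ hκ] at hlΛ
  rw [hwt] at hlc
  obtain ⟨W, hWa, hW⟩ := hc.wd_of_cfg c b hb0 x
  obtain ⟨D, -, hD⟩ := W.pairs
  obtain ⟨𝔭, ν, hν, hx, hv⟩ := hc.cen one_pos hbr D ((hD _).1 hW)
  simp only [div_one] at hv
  have hWν : W.Sat (vle ν) := (hD _).2 hv
  have htight : 1 ≤ W.val (σ.shape.wt (fun _ => l) Empty.elim) := by
    rw [Shape.WD.val, hWa, ← hwt]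
    exact hb1
  let W' : σ.shape.WD :=
    { s := W.s
      bas := W.bas
      a := W.a
      nonneg := W.nonneg
      τ := fun j => W.τ j + 1
      le_τ := fun j i => (W.le_τ j i).trans (by linarith) }
  have hW' : W'.Sat (vle ν) := ⟨hWν.hs, fun _ g hg => by
    change g ∈ σ.gens at hg
    rw [hgens] at hg
    exact absurd hg (Finset.notMem_empty g), fun q => q.elim⟩
  have hlt : S.dm 𝔭 < n := by
    have h1 : ∃ i : Fin σ.N, 0 < W.a (Sum.inl ⟨(), i⟩) := by
      by_contra hcon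
      push Not at hcon
      rw [σ.shape_val] at htight
      have h2 : ∑ i : Fin σ.N, W.a (Sum.inl ⟨(), i⟩) ≤ 0 := Finset.sum_nonpos fun i _ => hcon i
      have h3 : 0 ≤ l / (σ.m * σ.N) := by positivity
      nlinarith
    obtain ⟨i, hi⟩ := h1
    have h2 : W.s () i ∈ 𝔭 :=
      (hν.pos _).1 ((ENNReal.ofReal_pos.2 hi).trans_le (hWν.hs () i))
    have h3 : W.s () i ∉ σ.𝔭 := Stage.IsBas.not_mem σ (W.bas ()) i
    have h4 : σ.𝔭 < 𝔭 := by
      refine lt_of_le_of_ne (hσ1 ▸ bot_le) fun h => h3 (h ▸ h2)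
    exact (S.filt.dm_lt _ _ σ.prime hν.prime h4).trans_eq hdm
  refine ⟨⟨σ.shape, fun _ => l, Empty.elim, fun _ => hl0, hμ, 𝔭, ν, hν, hx, hlt, hlc, W', hW',
    htight, ?_, fun _ => ?_, ?_, ?_, Empty.elim, fun i => i.elim, ?_⟩⟩
  · intro j hl f hf hf'
    by_contra hcon
    obtain ⟨W'', i, h1, h2⟩ := W'.exch hW' j hf hf' (not_lt.1 hcon)
    have h3 := hc.lc_qv (fun _ => hl0) hμ hlc hν hx W'' h1
    rw [h2] at h3
    change W.val _ + l / (σ.m * σ.N) * (W.τ j + 1 - W.a (Sum.inl ⟨j, i⟩)) ≤ 1 at h3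
    have h4 := W.le_τ j i
    have h5 : 0 < l / (σ.m * σ.N) := by positivity
    nlinarith
  · change S.Big ε k σ.𝔭 σ.m
    rw [hσ1, hσ2]
    exact hm2
  · change ∑ _j : Unit, l * S.κ / (S.dm σ.𝔭 + 1) ≤ _
    rw [Finset.sum_const, Finset.card_univ, Fintype.card_unit, one_smul, hdm]
    have h1 : l * S.κ / (n + 1) ≤ 1 := by
      rw [div_le_one (by positivity)]; linarith
    refine h1.trans ?_
    rw [le_div_iff₀ (by linarith)]
    linarith
  · change ∑ _j : Unit, (if S.dm σ.𝔭 < n then 0 else l * S.κ) ≤ _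
    rw [Finset.sum_const, Finset.card_univ, Fintype.card_unit, one_smul, if_neg (by omega)]
    exact hlΛ
  · change ∑ i : Empty, (Empty.elim i : ℝ) * Empty.elim i ≤ _
    have h1 : (S.dm 𝔭 : ℝ) ≤ n := by exact_mod_cast hlt.le
    rw [Finset.univ_eq_empty, Finset.sum_empty]
    exact mul_nonneg hε.le (by linarith)

end Crest.Agent.R271
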