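import Crest.Agent.R271.St.Step
import Crest.Agent.R271.St.Zero
import Crest.Agent.R271.St.Final

/-! # Row 271, block St.  The stages: induction on the dimension of the centre. -/

set_option autoImplicit false

open Filter Topology

namespace Crest.Agent.R271

theorem exists_eps (n : ℕ) (κ γ₀ : ℝ) (hγ : 0 < γ₀) : ∃ ε : ℝ, 0 < ε ∧ ε < 1 / 2 ∧
    n * ((1 + ε) / (1 - 2 * ε)) + (n + 1 - γ₀) / (n + 1) + κ * (ε * n) < n + 1 := by
  have hc : ContinuousAt (fun ε : ℝ =>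
      n * ((1 + ε) / (1 - 2 * ε)) + (n + 1 - γ₀) / (n + 1) + κ * (ε * n)) 0 := by
    refine ContinuousAt.add (ContinuousAt.add (ContinuousAt.mul continuousAt_const
      (ContinuousAt.div (by fun_prop) (by fun_prop) (by norm_num))) continuousAt_const) (by fun_prop)
  have h0 : (n : ℝ) * ((1 + 0) / (1 - 2 * 0)) + (n + 1 - γ₀) / (n + 1) + κ * (0 * n) < n + 1 := by
    have : ((n : ℝ) + 1 - γ₀) / (n + 1) < 1 := by
      rw [div_lt_one (by positivity)]; linarith
    norm_num; linarith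
  have h1 := hc.eventually (gt_mem_nhds h0)
  have h2 : ∀ᶠ ε : ℝ in 𝓝 0, ε < 1 / 2 := gt_mem_nhds (by norm_num)
  obtain ⟨ε, hε, h3⟩ := ((h1.and h2).filter_mono (nhdsWithin_le_nhds (s := Set.Ioi 0))).and
    self_mem_nhdsWithin |>.exists
  exact ⟨ε, h3, hε.2, hε.1⟩

theorem stSt (hG : GB) (hA : AlB) : StSt := by
  intro n M _ _ _ _ _ A _ _ _ S x hn
  have hc : Cx S := ⟨hn, hG.lp n M A _ hn, hG.vol n M A _ hn, hG.rate n M A _ hn,
    hG.sum n M A _ hn, hG.lim n M A _ hn, hG.zar n M A _ hn, hG.co n M A _ hn, hA⟩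
  change S.Concl x
  rcases hc.gain x with h | ⟨γ₀, hγ, hγ', H⟩
  · exact h
  obtain ⟨ε, hε, hε', hnum⟩ := exists_eps n S.κ γ₀ hγ
  obtain ⟨k, hk⟩ := S.exists_stepOK hε (by linarith)
  obtain ⟨st⟩ := hc.state_zero x hε hε' hγ hγ' k H
  induction h : S.dm st.𝔭 using Nat.strong_induction_on generalizing st with
  | _ d ih =>
    rcases Nat.eq_zero_or_pos (S.dm st.𝔭) with h0 | h0
    · exact hc.final hε hε' hnum st h0
    · obtain ⟨st', h'⟩ := hc.step hε hε' hk st h0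
      exact ih _ (h ▸ h') st' rfl

end Crest.Agent.R271
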