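import Crest.Agent.R271.St.Defs

/-!
# Row 271, block St: elementary facts on `Small`, `RateS`, `Sing`
-/

set_option autoImplicit false
set_option linter.unusedSectionVars false

open MeasureTheory Filter Topology Set
open scoped ENNReal

noncomputable section

namespace Crest.Agent.R271

variable {n : ℕ} {M : Type} [TopologicalSpace M] [T2Space M] [SecondCountableTopology M]
  [MeasurableSpace M] [BorelSpace M] {A : Type} [CommRing A] [IsDomain A] [Algebra ℂ A]
  {S : Setup n M A}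

section
variable {P : ℝ → Set M} {y : M} {g g' : M → ℝ} {a b : ℝ}

theorem Small.pos (h : Small P y g a) :
    ∃ U ∈ 𝓝 y, ∃ C : ℝ, 0 < C ∧ ∀ t : ℝ, 0 ≤ t → ∀ x ∈ U ∩ P t, g x ≤ C * Real.exp (-a * t) := by
  obtain ⟨U, hU, C, h⟩ := h
  exact ⟨U, hU, max C 1, lt_max_of_lt_right one_pos, fun t ht x hx => (h t ht x hx).trans
    (mul_le_mul_of_nonneg_right (le_max_left _ _) (Real.exp_pos _).le)⟩

theorem small_poly {ι : Type} (h : ι → M → ℝ) (c : ι → ℝ) (y : M) (i : ι) (hi : 0 < c i) :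
    Small (poly h c) y (h i) (c i) := by
  exact ⟨univ, univ_mem, 1, fun t _ x hx => by rw [one_mul]; exact (hx.2 i hi).le⟩

theorem small_of_nonpos (hg : ContinuousAt g y) (ha : a ≤ 0) : Small P y g a := by
  refine ⟨{x | g x < g y + 1}, hg.eventually_lt continuousAt_const (lt_add_one _), max (g y + 1) 0,
    fun t ht x hx => ?_⟩
  have h1 : 1 ≤ Real.exp (-a * t) := Real.one_le_exp (mul_nonneg (by linarith) ht)
  have h2 : g x < g y + 1 := hx.1
  nlinarith [le_max_left (g y + 1) 0, le_max_right (g y + 1) 0]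

theorem Small.mono (h : Small P y g a) (hb : b ≤ a) : Small P y g b := by
  obtain ⟨U, hU, C, hC, h⟩ := h.pos
  refine ⟨U, hU, C, fun t ht x hx => (h t ht x hx).trans ?_⟩
  exact mul_le_mul_of_nonneg_left (Real.exp_le_exp.2 (by nlinarith)) hC.le

theorem Small.of_le (h : Small P y g a) (hg : ∀ x, 0 ≤ g x)
    (hle : ∃ C : ℝ, ∀ᶠ x in 𝓝 y, g' x ≤ C * g x) : Small P y g' a := by
  obtain ⟨U, hU, C, h⟩ := h
  obtain ⟨C', h'⟩ := hle
  refine ⟨U ∩ {x | g' x ≤ C' * g x}, inter_mem hU h', max C' 0 * C, fun t ht x hx => ?_⟩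
  calc g' x ≤ C' * g x := hx.1.2
    _ ≤ max C' 0 * g x := mul_le_mul_of_nonneg_right (le_max_left _ _) (hg x)
    _ ≤ max C' 0 * (C * Real.exp (-a * t)) :=
        mul_le_mul_of_nonneg_left (h t ht x ⟨hx.1.1, hx.2⟩) (le_max_right _ _)
    _ = _ := by ring

theorem Small.add (h : Small P y g a) (h' : Small P y g' a) : Small P y (fun x => g x + g' x) a := by
  obtain ⟨U, hU, C, h⟩ := h
  obtain ⟨U', hU', C', h'⟩ := h'
  refine ⟨U ∩ U', inter_mem hU hU', C + C', fun t ht x hx => ?_⟩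
  rw [add_mul]
  exact add_le_add (h t ht x ⟨hx.1.1, hx.2⟩) (h' t ht x ⟨hx.1.2, hx.2⟩)

theorem Small.sum {ι : Type} (s : Finset ι) (h : ι → M → ℝ) (hs : ∀ i ∈ s, Small P y (h i) a) :
    Small P y (fun x => ∑ i ∈ s, h i x) a := by
  classical
  induction s using Finset.induction_on with
  | empty => exact ⟨univ, univ_mem, 0, fun t _ x _ => by simp⟩
  | insert i s hi ih =>
    simp only [Finset.sum_insert hi]
    exact (hs i (Finset.mem_insert_self _ _)).add (ih fun j hj => hs j (Finset.mem_insert_of_mem hj))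

theorem Small.mul (h : Small P y g a) (h' : Small P y g' b) (hg : ∀ x, 0 ≤ g x)
    (hg' : ∀ x, 0 ≤ g' x) : Small P y (fun x => g x * g' x) (a + b) := by
  obtain ⟨U, hU, C, h⟩ := h
  obtain ⟨U', hU', C', h'⟩ := h'
  refine ⟨U ∩ U', inter_mem hU hU', C * C', fun t ht x hx => ?_⟩
  have h1 := h t ht x ⟨hx.1.1, hx.2⟩
  calc g x * g' x ≤ C * Real.exp (-a * t) * (C' * Real.exp (-b * t)) :=
        mul_le_mul h1 (h' t ht x ⟨hx.1.2, hx.2⟩) (hg' x) ((hg x).trans h1)
    _ = _ := by rw [show -(a + b) * t = -a * t + -b * t by ring, Real.exp_add]; ring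

theorem Small.rpow (h : Small P y g a) (hg : ∀ x, 0 ≤ g x) {e : ℝ} (he : 0 ≤ e) :
    Small P y (fun x => g x ^ e) (e * a) := by
  obtain ⟨U, hU, C, hC, h⟩ := h.pos
  refine ⟨U, hU, C ^ e, fun t ht x hx => (Real.rpow_le_rpow (hg x) (h t ht x hx) he).trans_eq ?_⟩
  rw [Real.mul_rpow hC.le (Real.exp_pos _).le, ← Real.exp_mul]
  congr 2
  ring

theorem Small.prodW {K : Type} [Fintype K] (h : K → M → ℝ) (w c : K → ℝ) (h0 : ∀ k x, 0 ≤ h k x)
    (hw : ∀ k, 0 ≤ w k) (hs : ∀ k, Small P y (h k) (c k)) :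
    Small P y (prodW h w) (∑ k, w k * c k) := by
  classical
  have key : ∀ s : Finset K, Small P y (fun x => ∏ k ∈ s, h k x ^ w k) (∑ k ∈ s, w k * c k) := by
    intro s
    induction s using Finset.induction_on with
    | empty => exact ⟨univ, univ_mem, 1, fun t _ x _ => by simp⟩
    | insert i s hi ih =>
      simp only [Finset.sum_insert hi, Finset.prod_insert hi]
      exact ((hs i).rpow (h0 i) (hw i)).mul ih (fun x => Real.rpow_nonneg (h0 i x) _)
        fun x => Finset.prod_nonneg fun k _ => Real.rpow_nonneg (h0 k x) _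
  exact key Finset.univ

variable (D : Dom n M)

/-- shift `t` by a constant -/
theorem rate_of_small {ι : Type} [Fintype ι] {h : ι → M → ℝ} {c : ι → ℝ} {α : ℝ}
    (hP : D.RateS P y α) (hs : ∀ i, Small P y (h i) (c i)) : D.Rate h c y α := by
  choose V hV C hC hs using fun i => (hs i).pos
  have hev : ∀ᶠ s : ℝ in atTop, ∀ i, 0 < c i → C i * Real.exp (-c i * s) < 1 := by
    refine eventually_all.2 fun i => ?_
    by_cases hi : 0 < c i
    · have h1 : Tendsto (fun s : ℝ => C i * Real.exp (-c i * s)) atTop (𝓝 (C i * 0)) :=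
        (Real.tendsto_exp_atBot.comp (tendsto_id.const_mul_atTop_of_neg (by linarith))).const_mul _
      rw [mul_zero] at h1
      exact (h1.eventually (gt_mem_nhds one_pos)).mono fun s hs _ => hs
    · exact Eventually.of_forall fun s h => absurd h hi
  obtain ⟨s, hs1, hs0⟩ := (hev.and (eventually_ge_atTop 0)).exists
  intro δ hδ U hU
  obtain ⟨c', hc', h'⟩ := hP δ hδ (U ∩ ⋂ i, V i) (inter_mem hU (iInter_mem.2 hV))
  refine ⟨c' * Real.exp (-(α + δ) * s), by positivity, fun t ht => ?_⟩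
  have h1 := h' (t + s) (by linarith)
  rw [show -(α + δ) * (t + s) = -(α + δ) * s + -(α + δ) * t by ring, Real.exp_add, ← mul_assoc] at h1
  refine h1.trans (measure_mono fun x hx => ⟨hx.1.1, fun i hi => ?_⟩)
  have h2 := hs i (t + s) (by linarith) x ⟨mem_iInter.1 hx.1.2 i, hx.2⟩
  rw [show -c i * (t + s) = -c i * s + -c i * t by ring, Real.exp_add, ← mul_assoc] at h2
  exact h2.trans_lt (mul_lt_of_lt_one_left (Real.exp_pos _) (hs1 i hi))

theorem rateS_mono {α β : ℝ} (hP : D.RateS P y α) (h : α ≤ β) : D.RateS P y β := by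
  intro δ hδ U hU
  obtain ⟨c, hc, h'⟩ := hP δ hδ U hU
  refine ⟨c, hc, fun t ht => le_trans (ENNReal.ofReal_le_ofReal ?_) (h' t ht)⟩
  exact mul_le_mul_of_nonneg_left (Real.exp_le_exp.2 (by nlinarith)) hc.le

/-- rescale `t` -/
theorem rate_scale {ι : Type} {h : ι → M → ℝ} {c : ι → ℝ} {α s : ℝ} (hs : 0 < s)
    (hP : D.Rate h c y α) : D.Rate h (fun i => s * c i) y (s * α) := by
  intro δ hδ U hU
  obtain ⟨c', hc, h'⟩ := hP (δ / s) (by positivity) U hU
  refine ⟨c', hc, fun t ht => ?_⟩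
  have h1 := h' (s * t) (by positivity)
  rw [show -(α + δ / s) * (s * t) = -(s * α + δ) * t by field_simp] at h1
  refine h1.trans (measure_mono fun x hx => ⟨hx.1, fun i hi => ?_⟩)
  have h2 := hx.2 i ((pos_iff_pos_of_mul_pos hi).1 hs)
  rwa [show -c i * (s * t) = -(s * c i) * t by ring] at h2

/-- Chebyshev (`mul_meas_ge_le_lintegral₀` on an open subset) -/
theorem sing_of_rate {α : ℝ} (hP : D.RateS P y α) (hg : Continuous g) (hs : Small P y g a)
    (ha : α < a) : D.Sing g y := by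
  obtain ⟨V, hV, C, hC, hs⟩ := hs.pos
  intro U hU
  obtain ⟨W, hWU, hW, hyW⟩ := mem_nhds_iff.1 (inter_mem hU hV)
  obtain ⟨c, hc, h'⟩ := hP ((a - α) / 2) (by linarith) W (hW.mem_nhds hyW)
  have key : ∀ t, 0 ≤ t → ENNReal.ofReal (c / C * Real.exp ((a - α) / 2 * t)) ≤
      ∫⁻ x in U, (ENNReal.ofReal (g x))⁻¹ ∂D.μ := by
    intro t ht
    have hm : MeasurableSet (W ∩ {x | g x ≤ C * Real.exp (-a * t)}) :=
      hW.measurableSet.inter (isClosed_le hg continuous_const).measurableSet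
    calc ENNReal.ofReal (c / C * Real.exp ((a - α) / 2 * t))
        = (ENNReal.ofReal (C * Real.exp (-a * t)))⁻¹ *
            ENNReal.ofReal (c * Real.exp (-(α + (a - α) / 2) * t)) := by
          rw [← ENNReal.ofReal_inv_of_pos (by positivity), ← ENNReal.ofReal_mul (by positivity)]
          congr 1
          rw [show -(α + (a - α) / 2) * t = -a * t + (a - α) / 2 * t by ring, Real.exp_add]
          field_simp
      _ ≤ (ENNReal.ofReal (C * Real.exp (-a * t)))⁻¹ * D.μ (W ∩ {x | g x ≤ C * Real.exp (-a * t)}) := by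
          gcongr
          exact (h' t ht).trans (measure_mono fun x hx => ⟨hx.1, hs t ht x ⟨(hWU hx.1).2, hx.2⟩⟩)
      _ = ∫⁻ _ in W ∩ {x | g x ≤ C * Real.exp (-a * t)}, (ENNReal.ofReal (C * Real.exp (-a * t)))⁻¹ ∂D.μ :=
          (setLIntegral_const _ _).symm
      _ ≤ ∫⁻ x in W ∩ {x | g x ≤ C * Real.exp (-a * t)}, (ENNReal.ofReal (g x))⁻¹ ∂D.μ :=
          setLIntegral_mono' hm fun x hx => ENNReal.inv_le_inv.2 (ENNReal.ofReal_le_ofReal hx.2)
      _ ≤ _ := lintegral_mono_set fun x hx => (hWU hx.1).1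
  have hlim : Tendsto (fun t : ℝ => ENNReal.ofReal (c / C * Real.exp ((a - α) / 2 * t))) atTop (𝓝 ⊤) :=
    ENNReal.tendsto_ofReal_atTop.comp
      ((Real.tendsto_exp_atTop.comp (tendsto_id.const_mul_atTop (by linarith))).const_mul_atTop (by positivity))
  exact top_le_iff.1 (le_of_tendsto hlim ((eventually_ge_atTop 0).mono key))

theorem sing_mono (h : D.Sing g y) (hg : ∀ x, 0 ≤ g x)
    (hle : ∃ C : ℝ, ∀ᶠ x in 𝓝 y, g' x ≤ C * g x) : D.Sing g' y := by
  obtain ⟨C, hC⟩ := hle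
  intro U hU
  obtain ⟨W, hWU, hW, hyW⟩ := mem_nhds_iff.1 (inter_mem hU hC)
  have hc0 : ENNReal.ofReal (max C 1) ≠ 0 := by simp
  have h1 : ∫⁻ x in W, (ENNReal.ofReal (g x))⁻¹ ∂D.μ ≤
      ENNReal.ofReal (max C 1) * ∫⁻ x in W, (ENNReal.ofReal (g' x))⁻¹ ∂D.μ := by
    rw [← lintegral_const_mul' _ _ ENNReal.ofReal_ne_top]
    refine setLIntegral_mono' hW.measurableSet fun x hx => ?_
    have h2 : ENNReal.ofReal (g' x) ≤ ENNReal.ofReal (max C 1) * ENNReal.ofReal (g x) := by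
      rw [← ENNReal.ofReal_mul (by positivity)]
      exact ENNReal.ofReal_le_ofReal
        ((hWU hx).2.trans (mul_le_mul_of_nonneg_right (le_max_left _ _) (hg x)))
    have h3 := ENNReal.inv_le_inv.2 h2
    rw [ENNReal.mul_inv (Or.inl hc0) (Or.inl ENNReal.ofReal_ne_top)] at h3
    calc (ENNReal.ofReal (g x))⁻¹
        = ENNReal.ofReal (max C 1) * ((ENNReal.ofReal (max C 1))⁻¹ * (ENNReal.ofReal (g x))⁻¹) := by
          rw [← mul_assoc, ENNReal.mul_inv_cancel hc0 ENNReal.ofReal_ne_top, one_mul]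
      _ ≤ _ := by gcongr
  rw [h W (hW.mem_nhds hyW), top_le_iff, ENNReal.mul_eq_top] at h1
  rcases h1 with h1 | h1
  · exact top_le_iff.1 (h1.2.symm.trans_le (lintegral_mono_set fun x hx => (hWU hx).1))
  · exact absurd h1.1 ENNReal.ofReal_ne_top

theorem not_sing_of_pos (hg : Continuous g) (h : 0 < g y) : ¬ D.Sing g y := by
  intro hs
  have := D.locFin
  obtain ⟨V, hV, hμ⟩ := D.μ.finiteAt_nhds y
  obtain ⟨W, hWU, hW, hyW⟩ := mem_nhds_iff.1 (inter_mem hV
    (continuousAt_const.eventually_lt hg.continuousAt (half_lt_self h)))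
  have h1 : ∫⁻ x in W, (ENNReal.ofReal (g x))⁻¹ ∂D.μ ≤ (ENNReal.ofReal (g y / 2))⁻¹ * D.μ W := by
    rw [← setLIntegral_const]
    exact setLIntegral_mono' hW.measurableSet fun x hx =>
      ENNReal.inv_le_inv.2 (ENNReal.ofReal_le_ofReal (le_of_lt (hWU hx).2))
  rw [hs W (hW.mem_nhds hyW), top_le_iff] at h1
  exact ENNReal.mul_ne_top (ENNReal.inv_ne_top.2 (by simpa using h))
    ((measure_mono fun x hx => (hWU hx).1).trans_lt hμ).ne h1

theorem not_sing_nhds (h : ¬ D.Sing g y) : ∀ᶠ y' in 𝓝 y, ¬ D.Sing g y' := by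
  simp only [Dom.Sing, not_forall] at h ⊢
  obtain ⟨U, hU, h⟩ := h
  exact (eventually_mem_nhds_iff.2 hU).mono fun y' hy' => ⟨U, hy', h⟩

/-- `1 / (g ^ (1 - η) g' ^ η) ≤ 1 / g + 1 / g'` -/
theorem not_sing_hold (hg : Continuous g) (hg' : Continuous g') (h0 : ∀ x, 0 ≤ g x)
    (h0' : ∀ x, 0 ≤ g' x) {η : ℝ} (hη : 0 ≤ η) (hη' : η ≤ 1) (h : ¬ D.Sing g y)
    (h' : ¬ D.Sing g' y) : ¬ D.Sing (fun x => g x ^ (1 - η) * g' x ^ η) y := by
  simp only [Dom.Sing, not_forall] at h h' ⊢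
  obtain ⟨U, hU, h⟩ := h
  obtain ⟨U', hU', h'⟩ := h'
  refine ⟨U ∩ U', inter_mem hU hU', ne_top_of_le_ne_top (ENNReal.add_ne_top.2 ⟨h, h'⟩) ?_⟩
  calc _ ≤ ∫⁻ x in U ∩ U', (ENNReal.ofReal (g x))⁻¹ + (ENNReal.ofReal (g' x))⁻¹ ∂D.μ := by
        refine lintegral_mono fun x => ?_
        rcases le_total (g x) (g' x) with hx | hx
        · refine le_add_right (ENNReal.inv_le_inv.2 (ENNReal.ofReal_le_ofReal ?_))
          calc g x = g x ^ (1 - η) * g x ^ η := by
                rw [← Real.rpow_add' (h0 x) (by simp)]; simp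
            _ ≤ _ := mul_le_mul_of_nonneg_left (Real.rpow_le_rpow (h0 x) hx hη) (Real.rpow_nonneg (h0 x) _)
        · refine le_add_left (ENNReal.inv_le_inv.2 (ENNReal.ofReal_le_ofReal ?_))
          calc g' x = g' x ^ (1 - η) * g' x ^ η := by
                rw [← Real.rpow_add' (h0' x) (by simp)]; simp
            _ ≤ _ := mul_le_mul_of_nonneg_right (Real.rpow_le_rpow (h0' x) hx (by linarith))
                (Real.rpow_nonneg (h0' x) _)
    _ = ∫⁻ x in U ∩ U', (ENNReal.ofReal (g x))⁻¹ ∂D.μ + ∫⁻ x in U ∩ U', (ENNReal.ofReal (g' x))⁻¹ ∂D.μ :=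
        lintegral_add_left hg.measurable.ennreal_ofReal.inv _
    _ ≤ _ := add_le_add (lintegral_mono_set inter_subset_left) (lintegral_mono_set inter_subset_right)

end

end Crest.Agent.R271
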