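import Crest.Agent.R271.St.Small

/-!
# Row 271, block St: algebra of `sml` and `vle`
-/

set_option autoImplicit false
set_option linter.unusedSectionVars false

open MeasureTheory Filter Topology Set
open scoped ENNReal

noncomputable section

namespace Crest.Agent.R271

variable {n : ℕ} {M : Type} [TopologicalSpace M] [T2Space M] [SecondCountableTopology M]
  [MeasurableSpace M] [BorelSpace M] {A : Type} [CommRing A] [IsDomain A] [Algebra ℂ A]
  {S : Setup n M A}

/-- ultrametric lower bound predicates -/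
structure Ultra (sm : A → ℝ → Prop) : Prop where
  add : ∀ {f g a}, sm f a → sm g a → sm (f + g) a
  mul : ∀ (h : A) {f a}, sm f a → sm (h * f) a
  mono : ∀ {f a b}, sm f a → b ≤ a → sm f b
  zero : ∀ a, sm 0 a
  nonpos : ∀ f {a}, a ≤ 0 → sm f a

theorem Setup.sq_nonneg (S : Setup n M A) (a : A) (y : M) : 0 ≤ S.sq a y := by
  unfold Aff.sq; positivity

theorem Cx.cont (hc : Cx S) (a : A) : Continuous (S.sq a) := (hc.lp.sq a).1

theorem Setup.sq_mul' (S : Setup n M A) (f g : A) (y : M) :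
    S.sq (f * g) y = S.sq f y * S.sq g y := by
  simp only [Aff.sq, map_mul, norm_mul, mul_pow]

theorem Setup.sq_add_le' (S : Setup n M A) (f g : A) (y : M) :
    S.sq (f + g) y ≤ 2 * (S.sq f y + S.sq g y) := by
  simp only [Aff.sq, map_add]
  have h := norm_add_le (S.ev y f) (S.ev y g)
  have h1 := norm_nonneg (S.ev y f + S.ev y g)
  have h2 : ‖S.ev y f + S.ev y g‖ ^ 2 ≤ (‖S.ev y f‖ + ‖S.ev y g‖) ^ 2 := by gcongr
  nlinarith [_root_.sq_nonneg (‖S.ev y f‖ - ‖S.ev y g‖)]

theorem Ultra.smul {sm : A → ℝ → Prop} (h : Ultra sm) (c : ℂ) {f : A} {a : ℝ} (hf : sm f a) :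
    sm (c • f) a := by
  rw [Algebra.smul_def]
  exact h.mul _ hf

theorem Ultra.sum {sm : A → ℝ → Prop} (h : Ultra sm) {ι : Type} (s : Finset ι) (f : ι → A) {a : ℝ}
    (hf : ∀ i ∈ s, sm (f i) a) : sm (∑ i ∈ s, f i) a := by
  classical
  induction s using Finset.induction_on with
  | empty => simpa using h.zero a
  | insert i s hi ih =>
    rw [Finset.sum_insert hi]
    exact h.add (hf i (Finset.mem_insert_self _ _))
      (ih fun j hj => hf j (Finset.mem_insert_of_mem hj))

theorem Ultra.span {sm : A → ℝ → Prop} (h : Ultra sm) {s : Set A} {a : ℝ} (hs : ∀ g ∈ s, sm g a)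
    {f : A} (hf : f ∈ Ideal.span s) : sm f a := by
  induction hf using Submodule.span_induction with
  | mem x hx => exact hs x hx
  | zero => exact h.zero a
  | add x y _ _ hx hy => exact h.add hx hy
  | smul c x _ hx => exact h.mul c hx

theorem Ultra.cspan {sm : A → ℝ → Prop} (h : Ultra sm) {s : Set A} {a : ℝ} (hs : ∀ g ∈ s, sm g a)
    {f : A} (hf : f ∈ Submodule.span ℂ s) : sm f a := by
  induction hf using Submodule.span_induction with
  | mem x hx => exact hs x hx
  | zero => exact h.zero a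
  | add x y _ _ hx hy => exact h.add hx hy
  | smul c x _ hx => exact h.smul c hx

theorem QV.ultra {𝔭 : Ideal A} {ν : A → ℝ≥0∞} (h : QV S 𝔭 ν) : Ultra (vle ν) := by
  refine ⟨?_, ?_, ?_, ?_, ?_⟩
  · intro f g a hf hg
    exact (le_min hf hg).trans (h.add f g)
  · intro k f a hf
    exact le_trans hf (le_add_self.trans (h.mul k f))
  · intro f a b hf hb
    exact (ENNReal.ofReal_le_ofReal hb).trans hf
  · intro a
    unfold vle
    rw [h.zero]
    exact le_top
  · intro f a ha
    unfold vle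
    rw [ENNReal.ofReal_of_nonpos ha]
    exact zero_le

theorem Cx.ultra (hc : Cx S) (P : ℝ → Set M) (y : M) : Ultra (S.sml P y) := by
  refine ⟨?_, ?_, ?_, ?_, ?_⟩
  · intro f g a hf hg
    refine Small.of_le (Small.add hf hg)
      (fun x => add_nonneg (S.sq_nonneg f x) (S.sq_nonneg g x)) ⟨2, ?_⟩
    exact Eventually.of_forall fun x => S.sq_add_le' f g x
  · intro k f a hf
    refine Small.of_le hf (S.sq_nonneg f) ⟨S.sq k y + 1, ?_⟩
    have h1 : ∀ᶠ x in 𝓝 y, S.sq k x < S.sq k y + 1 :=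
      (hc.cont k).continuousAt.eventually (gt_mem_nhds (lt_add_one _))
    filter_upwards [h1] with x hx
    rw [S.sq_mul']
    exact mul_le_mul_of_nonneg_right hx.le (S.sq_nonneg f x)
  · intro f a b hf hb
    exact Small.mono hf hb
  · intro a
    refine ⟨univ, univ_mem, 0, fun t _ x _ => ?_⟩
    simp [Aff.sq]
  · intro f a ha
    exact small_of_nonpos (hc.cont f).continuousAt ha

section
variable {P : ℝ → Set M} {y : M}

theorem Cx.sml_mul (hc : Cx S) {f g : A} {a b : ℝ} (hf : S.sml P y f a) (hg : S.sml P y g b) :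
    S.sml P y (f * g) (a + b) := by
  have h := Small.mul hf hg (S.sq_nonneg f) (S.sq_nonneg g)
  have e : S.sq (f * g) = fun x => S.sq f x * S.sq g x := funext fun x => S.sq_mul' f g x
  unfold Setup.sml
  rw [e]
  exact h

theorem Cx.sml_of_mul (hc : Cx S) {h f : A} {a : ℝ} (hh : S.ev y h ≠ 0) (hf : S.sml P y (h * f) a) :
    S.sml P y f a := by
  have h0 : 0 < S.sq h y := by
    unfold Aff.sq
    positivity
  refine Small.of_le hf (S.sq_nonneg _) ⟨(S.sq h y / 2)⁻¹, ?_⟩
  have h1 : ∀ᶠ x in 𝓝 y, S.sq h y / 2 < S.sq h x :=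
    (hc.cont h).continuousAt.eventually (lt_mem_nhds (half_lt_self h0))
  filter_upwards [h1] with x hx
  rw [S.sq_mul', ← div_eq_inv_mul, le_div_iff₀ (half_pos h0), mul_comm]
  exact mul_le_mul_of_nonneg_right hx.le (S.sq_nonneg f x)

theorem Cx.sml_pow (hc : Cx S) {I : Ideal A} {a : ℝ} (hI : ∀ g ∈ I, S.sml P y g a) (N : ℕ) :
    ∀ f ∈ I ^ N, S.sml P y f (N * a) := by
  induction N with
  | zero =>
    intro f _
    exact (hc.ultra P y).nonpos f (by simp)
  | succ N ih =>
    intro f hf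
    rw [pow_succ] at hf
    refine Submodule.mul_induction_on hf (fun r hr s hs => ?_) (fun r s hr hs => ?_)
    · have h := hc.sml_mul (ih r hr) (hI s hs)
      have e : ((N + 1 : ℕ) : ℝ) * a = N * a + a := by push_cast; ring
      rw [e]
      exact h
    · exact (hc.ultra P y).add hr hs

theorem Cx.sml_prod_pow (hc : Cx S) {ι : Type} [Fintype ι] (f : ι → A) (a : ι → ℝ) (k : ι → ℕ)
    (hf : ∀ i, S.sml P y (f i) (a i)) : S.sml P y (∏ i, f i ^ k i) (∑ i, k i * a i) := by
  classical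
  have hp : ∀ (g : A) (b : ℝ) (N : ℕ), S.sml P y g b → S.sml P y (g ^ N) (N * b) := by
    intro g b N hg
    induction N with
    | zero => exact (hc.ultra P y).nonpos _ (by simp)
    | succ N ih =>
      have e : ((N + 1 : ℕ) : ℝ) * b = N * b + b := by push_cast; ring
      rw [e, pow_succ]
      exact hc.sml_mul ih hg
  have key : ∀ s : Finset ι, S.sml P y (∏ i ∈ s, f i ^ k i) (∑ i ∈ s, k i * a i) := by
    intro s
    induction s using Finset.induction_on with
    | empty => exact (hc.ultra P y).nonpos _ (by simp)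
    | insert i s hi ih =>
      rw [Finset.prod_insert hi, Finset.sum_insert hi]
      exact hc.sml_mul (hp _ _ _ (hf i)) ih
  exact key Finset.univ

theorem Cx.small_fan (hc : Cx S) {Φ : Finset (A × ℝ)} (hΦ : ∀ q ∈ Φ, 0 < q.2) {v : ℝ}
    (h : ∀ q ∈ Φ, S.sml P y q.1 (v / q.2)) : Small P y (S.fanF Φ) v := by
  refine Small.sum Φ (fun q x => S.sq q.1 x ^ q.2) fun q hq => ?_
  have h1 := Small.rpow (h q hq) (S.sq_nonneg q.1) (hΦ q hq).le
  have e : q.2 * (v / q.2) = v := by
    have := (hΦ q hq).ne'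
    field_simp
  rwa [e] at h1

theorem Cx.sml_of_fan (hc : Cx S) {Φ : Finset (A × ℝ)} {q : A × ℝ} (hq : q ∈ Φ) (hq0 : 0 < q.2)
    {v : ℝ} (h : Small P y (S.fanF Φ) v) : S.sml P y q.1 (v / q.2) := by
  have h0 : ∀ (r : A × ℝ) (x : M), 0 ≤ S.sq r.1 x ^ r.2 := fun r x =>
    Real.rpow_nonneg (S.sq_nonneg r.1 x) _
  have h1 : Small P y (fun x => S.sq q.1 x ^ q.2) v := by
    refine Small.of_le h (fun x => Finset.sum_nonneg fun r _ => h0 r x) ⟨1, ?_⟩
    refine Eventually.of_forall fun x => ?_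
    rw [one_mul]
    exact Finset.single_le_sum (f := fun r : A × ℝ => S.sq r.1 x ^ r.2) (fun r _ => h0 r x) hq
  have h2 := Small.rpow h1 (h0 q) (inv_nonneg.2 hq0.le)
  have e : (fun x => (S.sq q.1 x ^ q.2) ^ q.2⁻¹) = S.sq q.1 := funext fun x =>
    Real.rpow_rpow_inv (S.sq_nonneg q.1 x) hq0.ne'
  rw [e, ← div_eq_inv_mul] at h2
  exact h2

/-- the polyhedra of a family of functions make each of them small -/
theorem Cx.sml_poly (hc : Cx S) {ι : Type} (f : ι → A) (a : ι → ℝ) (y : M) (i : ι) :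
    S.sml (poly (fun i => S.sq (f i)) a) y (f i) (a i) := by
  rcases lt_or_ge 0 (a i) with h | h
  · exact small_poly (fun i => S.sq (f i)) a y i h
  · exact small_of_nonpos (hc.cont _).continuousAt h

theorem Cx.sum_lp' (hc : Cx S) {ι : Type} (s : Finset ι) (g : ι → M → ℝ)
    (hg : ∀ i ∈ s, S.LP (g i)) : S.LP fun y => ∑ i ∈ s, g i y := by
  classical
  induction s using Finset.induction_on with
  | empty => simpa using hc.lp.const 0 le_rfl
  | insert i s hi ih =>
    simp only [Finset.sum_insert hi]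
    exact hc.lp.add _ _ (hg i (Finset.mem_insert_self _ _))
      (ih fun j hj => hg j (Finset.mem_insert_of_mem hj))

theorem Cx.fan_lp (hc : Cx S) {Φ : Finset (A × ℝ)} (hΦ : ∀ q ∈ Φ, 0 < q.2) : S.LP (S.fanF Φ) := by
  exact hc.sum_lp' Φ (fun q x => S.sq q.1 x ^ q.2) fun q hq =>
    hc.lp.rpow _ _ (hc.lp.sq q.1) (hΦ q hq).le

theorem Cx.fan_mod (hc : Cx S) {Φ : Finset (A × ℝ)} (hΦ : ∀ q ∈ Φ, 0 < q.2) : S.Mod (S.fanF Φ) := by
  classical
  have key : ∀ s : Finset (A × ℝ), (∀ q ∈ s, 0 < q.2) →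
      S.Mod fun y => ∑ q ∈ s, S.sq q.1 y ^ q.2 := by
    intro s hs
    induction s using Finset.induction_on with
    | empty => simpa using hc.lp.mod_const 0
    | insert q s hq ih =>
      simp only [Finset.sum_insert hq]
      exact hc.lp.mod_add _ _
        (hc.lp.mod_rpow _ _ (S.sq_nonneg q.1) (hs q (Finset.mem_insert_self _ _)).le
          (hc.lp.mod_sq q.1))
        (ih fun j hj => hs j (Finset.mem_insert_of_mem hj))
  exact key Φ hΦ

theorem Cx.prodW_lp (hc : Cx S) {K : Type} [Fintype K] {h : K → M → ℝ} {w : K → ℝ}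
    (hh : ∀ k, S.LP (h k)) (hw : ∀ k, 0 ≤ w k) : S.LP (prodW h w) := by
  classical
  have key : ∀ s : Finset K, S.LP fun y => ∏ k ∈ s, h k y ^ w k := by
    intro s
    induction s using Finset.induction_on with
    | empty => simpa using hc.lp.const 1 zero_le_one
    | insert k s hk ih =>
      simp only [Finset.prod_insert hk]
      exact hc.lp.mul _ _ (hc.lp.rpow _ _ (hh k) (hw k)) ih
  exact key Finset.univ

theorem Cx.stage_lp (hc : Cx S) (σ : Stage S) (u : σ.Fr) (i : Fin σ.N) : S.LP (σ.atom u i) := by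
  exact hc.lp.add _ _ (hc.lp.sq _) (hc.sum_lp' σ.gens (fun g => S.sq g) fun g _ => hc.lp.sq g)

theorem Cx.atom_lp (hc : Cx S) (sh : Shape S) (c : sh.Cfg) (k : sh.At) : S.LP (sh.atom c k) := by
  rcases k with q | k
  · exact hc.stage_lp _ _ _
  · exact hc.fan_lp (sh.fan_pos k)

end

end Crest.Agent.R271
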