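import Crest.Agent.R271.St.Test
import Crest.Agent.R271.St.CenB
import Crest.Agent.R271.St.Big
import Crest.Agent.R271.St.Ext

/-!
# Row 271, block St: the induction step
-/

set_option autoImplicit false
set_option linter.unusedSectionVars false

open MeasureTheory Filter Topology Set
open scoped ENNReal

noncomputable section

namespace Crest.Agent.R271

variable {n : ℕ} {M : Type} [TopologicalSpace M] [T2Space M] [SecondCountableTopology M]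
  [MeasurableSpace M] [BorelSpace M] {A : Type} [CommRing A] [IsDomain A] [Algebra ℂ A]
  {S : Setup n M A}

open Shape

/-- the data fixed at the beginning of a step -/
structure Pre {x : M} {ε γ₀ : ℝ} {k : ℕ} (st : State S x ε γ₀ k) where
  σ : Stage S
  hσ : σ.𝔭 = st.𝔭
  big : S.Big ε k σ.𝔭 σ.m
  χ : Finset (A × ℝ)
  hpos : ∀ q ∈ χ, 0 < q.2
  hne : ∃ q ∈ χ, q.1 ≠ 0
  τ₀ : ℝ
  hτ : 0 < τ₀
  sat : (st.W.extend σ χ hpos hne τ₀ 1 hτ.le zero_le_one).Sat (vle st.ν)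
  key : ∀ sm : A → ℝ → Prop, Ultra sm → ∀ (c : ℝ) (hc : 0 ≤ c), (∀ q ∈ χ, sm q.1 (c / q.2)) →
    ((st.W.extend σ χ hpos hne τ₀ 1 hτ.le zero_le_one).smul c hc).Sat sm

variable {x : M} {ε γ₀ : ℝ} {k : ℕ} {st : State S x ε γ₀ k}

/-- the new shape -/
abbrev Pre.sh (p : Pre st) : Shape S := st.sh.ext p.σ p.χ p.hpos p.hne

/-- the old tight witness on the new shape -/
abbrev Pre.W (p : Pre st) : p.sh.WD := st.W.extend p.σ p.χ p.hpos p.hne p.τ₀ 1 p.hτ.le zero_le_one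

/-- the new weights -/
abbrev Pre.w (p : Pre st) (η η' l : ℝ) : p.sh.At → ℝ :=
  p.sh.wt (optW l (1 - η) st.lam) (optW (η - η') (1 - η) st.μ)

theorem Cx.exists_pre (_hc : Cx S) (hε : 0 < ε) (hε' : ε < 1 / 2) (st : State S x ε γ₀ k) :
    Nonempty (Pre st) := by
  classical
  obtain ⟨m, ⟨σ, hσ, hm, -⟩, hb⟩ := ((S.exists_stage st.qv.prime).and
    (S.big_eventually hε (by linarith) k st.qv.prime)).exists
  obtain ⟨τ₀, hτ, hg⟩ := exists_tau (ν := st.ν) σ.gens fun g hg => (st.qv.pos g).2 (by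
    rw [← hσ, ← σ.span_gens]; exact Ideal.subset_span hg)
  obtain ⟨D, hD0, hD⟩ := st.W.pairs
  set D' : Finset (A × ℝ) := D ∪ σ.gens.image fun g => (g, τ₀) with hD'
  set χ : Finset (A × ℝ) := (D'.filter fun q => 0 < q.2).image fun q => (q.1, q.2⁻¹) with hχ
  have hpos : ∀ q ∈ χ, 0 < q.2 := by
    intro q hq
    obtain ⟨q', hq', rfl⟩ := Finset.mem_image.1 hq
    exact inv_pos.2 (Finset.mem_filter.1 hq').2
  have hgm : ∀ g ∈ σ.gens, (g, τ₀) ∈ D' := fun g hg =>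
    Finset.mem_union_right _ (Finset.mem_image_of_mem _ hg)
  have hne : ∃ q ∈ χ, q.1 ≠ 0 := by
    by_contra h
    push Not at h
    have : st.𝔭 = ⊥ := by
      rw [← hσ, ← σ.span_gens, Ideal.span_eq_bot]
      intro g hg
      exact h (g, τ₀⁻¹) (Finset.mem_image.2 ⟨(g, τ₀), Finset.mem_filter.2 ⟨hgm g hg, hτ⟩, rfl⟩)
    have h1 := st.dm_lt
    rw [this, S.filt.dm_bot] at h1
    exact lt_irrefl _ h1
  have hvle : ∀ q ∈ D', vle st.ν q.1 q.2 := by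
    intro q hq
    rcases Finset.mem_union.1 hq with hq | hq
    · exact (hD _).1 st.sat q hq
    · obtain ⟨g, hg', rfl⟩ := Finset.mem_image.1 hq
      exact hg g hg'
  refine ⟨⟨σ, hσ, by rw [hσ, hm]; exact hb, χ, hpos, hne, τ₀, hτ, ?_, ?_⟩⟩
  · refine WD.Sat.extend st.qv.ultra st.sat _ _ hg fun q hq => ?_
    obtain ⟨q', hq', rfl⟩ := Finset.mem_image.1 hq
    simpa using hvle q' (Finset.mem_filter.1 hq').1
  · intro sm hu c hc' H
    have H' : ∀ q ∈ D', sm q.1 (c * q.2) := by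
      intro q hq
      by_cases h0 : 0 < q.2
      · simpa using H (q.1, q.2⁻¹) (Finset.mem_image.2 ⟨q, Finset.mem_filter.2 ⟨hq, h0⟩, rfl⟩)
      · exact hu.nonpos _ (mul_nonpos_of_nonneg_of_nonpos hc' (not_lt.1 h0))
    rw [WD.smul_sat]
    have hs := (hD fun f a => sm f (c * a)).2 fun q hq => H' q (Finset.mem_union_left _ hq)
    refine ⟨?_, ?_, ?_⟩
    · rintro (_ | j) i
      · exact hu.nonpos _ (by simp [WD.extend])
      · exact hs.hs j i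
    · rintro (_ | j)
      · exact fun g hg => H' _ (hgm g hg)
      · exact hs.hτ j
    · rintro (_ | j)
      · intro q hq
        simpa [WD.extend, div_eq_mul_inv] using H q hq
      · exact hs.hf j

theorem Pre.res_val (p : Pre st) {c : ℝ} (hc : 0 ≤ c) :
    (p.W.smul c hc).res.val (st.sh.wt st.lam st.μ) = c * st.W.val (st.sh.wt st.lam st.μ) := by
  rw [← WD.extend_res_val (σ := p.σ) (χ := p.χ) (hpos := p.hpos) (hne := p.hne) st.W p.hτ.le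
    zero_le_one, ← WD.smul_val _ hc]
  rfl

/-- the value of the fan is at most the rate -/
theorem Cx.pre_le (hc : Cx S) (p : Pre st) {P : ℝ → Set M} {α c : ℝ} (hP : S.RateS P x α)
    (h0 : 0 ≤ c) (h : (p.W.smul c h0).Sat (S.sml P x)) : c ≤ α := by
  have h1 := hc.lc_wd st.lam_nonneg st.μ_nonneg st.lc _ hP h.res
  rw [p.res_val] at h1
  nlinarith [st.tight]

theorem Cx.pre_lc (hc : Cx S) (p : Pre st) (β : ℝ) (hβ : 0 ≤ β) (hβ' : β < 1) :
    ¬ S.Sing (fun y => S.fanF p.χ y ^ β) x := by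
  intro h
  have hb : 0 < (1 + β) / 2 := by linarith
  obtain ⟨a, ha, h1, hr⟩ := hc.cells (fun _ : Unit => S.fanF p.χ) (fun _ => (1 + β) / 2) x
    (fun _ => hc.fan_lp p.hpos) (fun _ => hb.le) (β := β / ((1 + β) / 2)) (by positivity)
    (by rw [div_lt_one hb]; linarith) (by
      convert h using 1
      funext y
      simp only [prodW, Finset.univ_unique, Finset.prod_singleton]
      rw [div_mul_cancel₀ _ hb.ne'])
  simp only [Finset.univ_unique, Finset.sum_singleton] at h1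
  have ha1 : 1 < a default := by nlinarith [ha default]
  have hs := small_poly (fun _ : Unit => S.fanF p.χ) a x default (by linarith)
  have := hc.pre_le p hr (ha default)
    (p.key _ (hc.ultra _ x) _ _ fun q hq => hc.sml_of_fan hq (p.hpos q hq) hs)
  linarith

theorem State.gap (st : State S x ε γ₀ k) : ∃ g₀ : ℝ, 0 < g₀ ∧ ∀ j, 0 < st.lam j → ∀ i,
    g₀ ≤ st.sh.wt st.lam st.μ (Sum.inl ⟨j, i⟩) * (st.W.τ j - st.W.a (Sum.inl ⟨j, i⟩)) := by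
  obtain ⟨g, hg, H⟩ := exists_pos_lb (fun q : Σ j, Fin (st.sh.st j).N =>
    st.sh.wt st.lam st.μ (Sum.inl q) * (st.W.τ q.1 - st.W.a (Sum.inl q))) (fun q => 0 < st.lam q.1)
    (by
      rintro ⟨j, i⟩ hj
      have h1 := (st.sat.hs j i).trans_lt
        (st.untr j hj _ ((st.W.bas j).1 i) ((st.W.bas j).not_mem _ i))
      have h2 := (ENNReal.ofReal_lt_ofReal_iff'.1 h1).1
      have := (st.sh.st j).m_pos
      have := (st.sh.st j).N_pos
      exact mul_pos (div_pos hj (by positivity)) (by linarith))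
  exact ⟨g, hg, fun j hj i => H ⟨j, i⟩ hj⟩

/-- the new state -/
theorem Cx.finish (hc : Cx S) (hε : 0 < ε) (p : Pre st) {η η' l tχ g₀ α c : ℝ} (hη' : η < 1)
    (h1 : η' ≤ η) (h0 : 0 ≤ η') (hl : 0 ≤ l) (hlc : p.sh.LC (p.w η η' l) x)
    (hi1 : ∑ j, optW l (1 - η) st.lam j * S.κ / (S.dm (p.sh.st j).𝔭 + 1) ≤ (1 + ε) / (1 - 2 * ε))
    (ht : 0 ≤ tχ) (hgr : S.Gr (S.fanF p.χ) tχ) (hηt : η * tχ ≤ ε)
    (hg : ∀ j, 0 < st.lam j → ∀ i,
      g₀ ≤ st.sh.wt st.lam st.μ (Sum.inl ⟨j, i⟩) * (st.W.τ j - st.W.a (Sum.inl ⟨j, i⟩)))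
    {P : ℝ → Set M} (hα : 0 < α) (hP : S.RateS P x α) (W : p.sh.WD) (hW : W.Sat (S.sml P x))
    (hv : α ≤ W.val (p.w η η' l)) (hc0 : 0 < c) (hW2 : (p.W.smul c hc0.le).Sat (S.sml P x))
    (e1 : α - c < c * g₀) (e2 : ∑ i : Fin p.σ.N, W.a (Sum.inl ⟨none, i⟩) < c * p.τ₀)
    (e3 : 0 < ∑ i : Fin p.σ.N, W.a (Sum.inl ⟨none, i⟩)) :
    ∃ st' : State S x ε γ₀ k, S.dm st'.𝔭 < S.dm st.𝔭 := by
  classical
  obtain ⟨D₁, -, hD₁⟩ := W.pairs
  obtain ⟨D₂, -, hD₂⟩ := (p.W.smul c hc0.le).pairs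
  obtain ⟨𝔭, ν, hν, hx, H⟩ := hc.cen hα hP (D₁ ∪ D₂) fun q hq =>
    (Finset.mem_union.1 hq).elim ((hD₁ _).1 hW q) ((hD₂ _).1 hW2 q)
  have hαi : 0 ≤ α⁻¹ := (inv_pos.2 hα).le
  have s1 : (W.smul α⁻¹ hαi).Sat (vle ν) := (W.smul_sat hαi _).2 ((hD₁ _).2 fun q hq => by
    simpa [div_eq_inv_mul] using H q (Finset.mem_union_left _ hq))
  have s2 : ((p.W.smul c hc0.le).smul α⁻¹ hαi).Sat (vle ν) :=
    (WD.smul_sat _ hαi _).2 ((hD₂ _).2 fun q hq => by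
      simpa [div_eq_inv_mul] using H q (Finset.mem_union_right _ hq))
  have hl' := optW_nonneg hl (by linarith : 0 ≤ 1 - η) st.lam_nonneg
  have hμ' := optW_nonneg (by linarith : 0 ≤ η - η') (by linarith : 0 ≤ 1 - η) st.μ_nonneg
  have hle : st.𝔭 ≤ 𝔭 := by
    rw [← p.hσ, ← p.σ.span_gens, Ideal.span_le]
    intro g hg'
    refine (hν.pos g).1 (lt_of_lt_of_le ?_ (s2.hτ none g hg'))
    have := p.hτ
    exact ENNReal.ofReal_pos.2 (show 0 < α⁻¹ * (c * p.τ₀) by positivity)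
  have hlt : st.𝔭 < 𝔭 := by
    obtain ⟨i, -, hi⟩ := Finset.exists_lt_of_sum_lt (f := fun _ : Fin p.σ.N => (0 : ℝ))
      (by simpa using e3)
    refine lt_of_le_of_ne hle fun h => (W.bas none).not_mem _ i ?_
    change _ ∈ p.σ.𝔭
    rw [p.hσ, h]
    refine (hν.pos _).1 (lt_of_lt_of_le ?_ (s1.hs none i))
    exact ENNReal.ofReal_pos.2 (show 0 < α⁻¹ * W.a (Sum.inl ⟨none, i⟩) by positivity)
  have hdm := S.filt.dm_lt _ _ st.qv.prime hν.prime hlt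
  have hval : 1 ≤ (W.smul α⁻¹ hαi).val (p.w η η' l) := by
    rw [WD.smul_val, inv_mul_eq_div, le_div_iff₀ hα]
    linarith
  let W3 : p.sh.WD :=
    { W.smul α⁻¹ hαi with
      τ := fun j => max ((W.smul α⁻¹ hαi).τ j) (((p.W.smul c hc0.le).smul α⁻¹ hαi).τ j)
      le_τ := fun j i => ((W.smul α⁻¹ hαi).le_τ j i).trans (le_max_left _ _) }
  have s3 : W3.Sat (vle ν) := ⟨s1.hs, fun j g hg' => by
    rcases max_choice ((W.smul α⁻¹ hαi).τ j) (((p.W.smul c hc0.le).smul α⁻¹ hαi).τ j) with h | h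
    · change vle ν g (max _ _)
      rw [h]; exact s1.hτ j g hg'
    · change vle ν g (max _ _)
      rw [h]; exact s2.hτ j g hg', s1.hf⟩
  refine ⟨⟨p.sh, optW l (1 - η) st.lam, optW (η - η') (1 - η) st.μ, hl', hμ', 𝔭, ν, hν, hx,
    hdm.trans st.dm_lt, hlc, W3, s3, hval, ?_, ?_, hi1, ?_, ?_⟩, hdm⟩
  · intro j hj s hs hs'
    by_contra hcon
    have hv2 : vle ν s (((p.W.smul c hc0.le).smul α⁻¹ hαi).τ j) :=
      hν.ultra.mono (not_lt.1 hcon) (le_max_right _ _)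
    rcases j with _ | j
    · have ht0 : 0 ≤ α⁻¹ * (c * p.τ₀) := by have := p.hτ; positivity
      have s5 : ((W.smul α⁻¹ hαi).res.extend p.σ p.χ p.hpos p.hne _ _ ht0
          ((W.smul α⁻¹ hαi).nonneg (Sum.inr none))).Sat (vle ν) :=
        WD.Sat.extend hν.ultra s1.res _ _ (s2.hτ none) (s1.hf none)
      obtain ⟨W6, i, s6, h6⟩ := WD.exch _ s5 none hs hs' hv2
      have h7 := hc.lc_qv hl' hμ' hlc hν hx W6 s6
      rw [h6, WD.extend_val] at h7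
      rw [WD.val_ext] at hval
      have h8 : ∑ i : Fin p.σ.N, (W.smul α⁻¹ hαi).a (Sum.inl ⟨none, i⟩) =
          α⁻¹ * ∑ i : Fin p.σ.N, W.a (Sum.inl ⟨none, i⟩) := by
        rw [Finset.mul_sum]; rfl
      rw [h8] at hval
      change _ + l / ((p.σ.m : ℝ) * p.σ.N) * (α⁻¹ * (c * p.τ₀) - 0) ≤ 1 at h7
      have hl0 : 0 < l / ((p.σ.m : ℝ) * p.σ.N) * α⁻¹ := by
        have := p.σ.m_pos
        have := p.σ.N_pos
        have : 0 < l := hj
        positivity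
      nlinarith [mul_lt_mul_of_pos_left e2 hl0]
    · have hj' : 0 < st.lam j := (mul_pos_iff_of_pos_left (by linarith : 0 < 1 - η)).1 hj
      obtain ⟨W4, i, s4, h4⟩ := WD.exch _ s2.res j hs hs' hv2
      have h7 := hc.lc_qv st.lam_nonneg st.μ_nonneg st.lc hν hx W4 s4
      have h8 : ((p.W.smul c hc0.le).smul α⁻¹ hαi).res.val (st.sh.wt st.lam st.μ) =
          α⁻¹ * (c * st.W.val (st.sh.wt st.lam st.μ)) := by
        rw [← p.res_val hc0.le, ← WD.smul_val _ hαi]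
        rfl
      rw [h4, h8] at h7
      change _ + _ * (α⁻¹ * (c * st.W.τ j) - α⁻¹ * (c * st.W.a (Sum.inl ⟨j, i⟩))) ≤ 1 at h7
      have h9 := hg j hj' i
      have h10 : α⁻¹ * (c * st.W.val (st.sh.wt st.lam st.μ) + c * (st.sh.wt st.lam st.μ
          (Sum.inl ⟨j, i⟩) * (st.W.τ j - st.W.a (Sum.inl ⟨j, i⟩)))) ≤ 1 := by
        linarith [h7, (by ring : α⁻¹ * (c * st.W.val (st.sh.wt st.lam st.μ) +
          c * (st.sh.wt st.lam st.μ (Sum.inl ⟨j, i⟩) * (st.W.τ j - st.W.a (Sum.inl ⟨j, i⟩)))) =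
          α⁻¹ * (c * st.W.val (st.sh.wt st.lam st.μ)) + st.sh.wt st.lam st.μ (Sum.inl ⟨j, i⟩) *
            (α⁻¹ * (c * st.W.τ j) - α⁻¹ * (c * st.W.a (Sum.inl ⟨j, i⟩))))]
      rw [inv_mul_le_iff₀ hα] at h10
      nlinarith [st.tight, mul_le_mul_of_nonneg_left h9 hc0.le]
  · rintro (_ | j)
    · exact p.big
    · exact st.big j
  · erw [Fintype.sum_option]
    have h2 : S.dm (p.sh.st none).𝔭 < n := by
      change S.dm p.σ.𝔭 < n
      rw [p.hσ]; exact st.dm_lt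
    rw [if_pos h2, zero_add]
    refine le_trans (Finset.sum_le_sum fun j _ => ?_) st.i2
    change (if S.dm (st.sh.st j).𝔭 < n then 0 else (1 - η) * st.lam j * S.κ) ≤ _
    split_ifs
    · exact le_rfl
    · nlinarith [mul_nonneg (st.lam_nonneg j) S.κ_pos.le]
  · obtain ⟨tk, h2, h3⟩ := st.i3
    refine ⟨fun i => i.elim tχ tk, ?_, ?_⟩
    · rintro (_ | i)
      · exact ⟨ht, hgr⟩
      · exact h2 i
    · erw [Fintype.sum_option]
      change (η - η') * tχ + ∑ i, (1 - η) * st.μ i * tk i ≤ _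
      have h4 : ∑ i, (1 - η) * st.μ i * tk i ≤ ∑ i, st.μ i * tk i :=
        Finset.sum_le_sum fun i _ => by nlinarith [mul_nonneg (st.μ_nonneg i) (h2 i).1]
      have h5 : (S.dm 𝔭 : ℝ) + 1 ≤ S.dm st.𝔭 := by exact_mod_cast hdm
      nlinarith [mul_nonneg h0 ht]

theorem Cx.step (hc : Cx S) {x : M} {ε γ₀ : ℝ} {k : ℕ} (hε : 0 < ε) (hε' : ε < 1 / 2)
    (hk : S.StepOK ε k) (st : State S x ε γ₀ k) (hd : 0 < S.dm st.𝔭) :
    ∃ st' : State S x ε γ₀ k, S.dm st'.𝔭 < S.dm st.𝔭 := by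
  obtain ⟨p⟩ := hc.exists_pre hε hε' st
  obtain ⟨g₀, hg₀, hg⟩ := st.gap
  obtain ⟨tχ, ht, hgr⟩ := S.gr_fan p.hpos
  obtain ⟨θ, hθ, hT⟩ := hc.test (by linarith) hk st.qv hd st.x_mem p.W p.sat
    (fun j => j.elim True fun j => 0 < st.lam j) (by
      rintro (_ | j) hj s hs hs'
      · have h1 : ¬ 0 < st.ν s := fun h => hs' (by
          change s ∈ p.σ.𝔭
          rw [p.hσ]; exact (st.qv.pos s).1 h)
        exact (not_lt.1 h1).trans_lt (ENNReal.ofReal_pos.2 p.hτ)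
      · exact st.untr j hj s hs hs') (by
      rintro (_ | j)
      · exact p.big
      · exact st.big j)
  obtain ⟨η, hη, hη1, hηt⟩ : ∃ η : ℝ, 0 < η ∧ η < 1 ∧ η * tχ ≤ ε := by
    refine ⟨ε / (tχ + 1), by positivity, ?_, ?_⟩
    · rw [div_lt_one (by positivity)]; linarith
    · rw [div_mul_eq_mul_div, div_le_iff₀ (by positivity)]; nlinarith
  have hd1 : (1 : ℝ) ≤ S.dm st.𝔭 := by exact_mod_cast hd
  have h2ε : 0 < 1 - 2 * ε := by linarith
  have hκ := S.κ_pos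
  obtain ⟨η₀, hη₀, hη₀η, hη₀θ⟩ : ∃ η₀ : ℝ, 0 < η₀ ∧ η₀ ≤ η ∧ η₀ ≤ ε * θ :=
    ⟨min η (ε * θ), lt_min hη (by positivity), min_le_left _ _, min_le_right _ _⟩
  have hwn : ∀ η' l, η' ≤ η₀ → 0 ≤ l → ∀ k, 0 ≤ p.w η η' l k := fun η' l h1 h2 =>
    wt_nonneg (optW_nonneg h2 (by linarith) st.lam_nonneg)
      (optW_nonneg (by linarith) (by linarith) st.μ_nonneg)
  have hI : ∀ η' l, η' ≤ η₀ → 0 ≤ l → p.sh.LC (p.w η η' l) x →
      ∑ j, optW l (1 - η) st.lam j * S.κ / (S.dm (p.sh.st j).𝔭 + 1) ≤ (1 + ε) / (1 - 2 * ε) := by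
    intro η' l h1 h2 h3
    have h4 := hT _ _ (optW_nonneg h2 (by linarith) st.lam_nonneg)
      (optW_nonneg (by linarith) (by linarith) st.μ_nonneg) (by
        rintro (_ | j) hj
        · trivial
        · exact (mul_pos_iff_of_pos_left (by linarith : 0 < 1 - η)).1 hj) h3
    rw [WD.extend_val] at h4
    rw [le_div_iff₀ h2ε]
    have h5 : 0 < θ * S.dm st.𝔭 := by positivity
    have h6 : 1 - η ≤ (1 - η) * st.W.val (st.sh.wt st.lam st.μ) := by nlinarith [st.tight]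
    have h7 : ε * θ ≤ ε * (θ * S.dm st.𝔭) := by
      have : θ ≤ θ * S.dm st.𝔭 := by nlinarith
      nlinarith
    have key : ∀ I v : ℝ, 1 - η ≤ (1 - η) * v →
        (1 - η) * v + (η - η') * 1 + θ * S.dm st.𝔭 * ((1 - 2 * ε) * I) ≤ 1 + θ * S.dm st.𝔭 →
        I * (1 - 2 * ε) ≤ 1 + ε := fun I v a1 a2 => le_of_mul_le_mul_left (by nlinarith) h5
    exact key _ _ h6 h4
  obtain ⟨Λ, hΛ0, hΛ⟩ : ∃ Λ : ℝ, 0 ≤ Λ ∧
      ∀ η' l, η' ≤ η₀ → 0 ≤ l → p.sh.LC (p.w η η' l) x → l ≤ Λ := by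
    refine ⟨(1 + ε) / (1 - 2 * ε) * (S.dm p.σ.𝔭 + 1) / S.κ, by positivity, fun η' l h1 h2 h3 => ?_⟩
    have h4 := hI η' l h1 h2 h3
    have h5 := Finset.single_le_sum (f := fun j =>
      optW l (1 - η) st.lam j * S.κ / (S.dm (p.sh.st j).𝔭 + 1)) (fun j _ => by
        have := optW_nonneg h2 (by linarith : 0 ≤ 1 - η) st.lam_nonneg j
        positivity) (Finset.mem_univ none)
    have h6 : l * S.κ / (S.dm p.σ.𝔭 + 1) ≤ (1 + ε) / (1 - 2 * ε) := h5.trans h4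
    rw [div_le_iff₀ (by positivity)] at h6
    rw [le_div_iff₀ hκ]
    exact h6
  have hcr : ∀ η', 0 ≤ η' → η' ≤ η₀ → ∃ l, 0 ≤ l ∧ l ≤ Λ ∧ p.sh.LC (p.w η η' l) x ∧
      ∃ (c : p.sh.Cfg) (a : p.sh.At → ℝ), (∀ k, 0 ≤ a k) ∧ 1 ≤ ∑ k, p.w η η' l k * a k ∧
        S.Rate (p.sh.atom c) a x 1 := by
    intro η' h0 h1
    obtain ⟨l, h2, h3, h4, c, a, h5, h6, h7⟩ := hc.crit (hwn η' 0 h1 le_rfl)
      (wt_nonneg (optW_nonneg zero_le_one le_rfl st.lam_nonneg)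
        (optW_nonneg le_rfl le_rfl st.μ_nonneg))
      (hc.lc_ext st.lam_nonneg st.μ_nonneg st.lc (hc.pre_lc p) hη hη1.le (by linarith)
        (by linarith)) (Λ := Λ) fun l h2 h3 => hΛ η' l h1 h2 (by rwa [wt_ext_add] at h3)
    refine ⟨l, h2, h3, by rwa [wt_ext_add] at h4, c, a, h5, ?_, h7⟩
    have h8 := wt_ext_add (σ := p.σ) (χ := p.χ) (hpos := p.hpos) (hne := p.hne) l (η - η') (1 - η)
      st.lam st.μ
    refine h6.trans_eq (Finset.sum_congr rfl fun k _ => ?_)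
    rw [congrFun h8 k]
  have hmN : (1 : ℝ) ≤ p.σ.m * p.σ.N := by
    have h1 : (1 : ℝ) ≤ p.σ.m := by exact_mod_cast p.σ.m_pos
    have h2 : (1 : ℝ) ≤ p.σ.N := by exact_mod_cast p.σ.N_pos
    nlinarith
  have hτ := p.hτ
  obtain ⟨s₀, hs₀, hs₁, hs₂⟩ : ∃ s₀ : ℝ, 0 < s₀ ∧ Λ < η * g₀ * s₀ ∧ 1 < s₀ * p.τ₀ := by
    refine ⟨Λ / (η * g₀) + 1 / p.τ₀ + 1, by positivity, ?_, ?_⟩
    · have h1 : η * g₀ * (Λ / (η * g₀)) = Λ := by field_simp
      have h2 : 0 < η * g₀ * (1 / p.τ₀ + 1) := by positivity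
      nlinarith
    · have h1 : 1 / p.τ₀ * p.τ₀ = 1 := by field_simp
      have h2 : 0 ≤ Λ / (η * g₀) * p.τ₀ := by positivity
      nlinarith
  -- what a critical datum gives
  have hdat : ∀ (c : p.sh.Cfg) (a : p.sh.At → ℝ), (∀ k, 0 ≤ a k) → S.Rate (p.sh.atom c) a x 1 →
      ∃ W : p.sh.WD, W.a = a ∧ W.Sat (S.sml (poly (p.sh.atom c) a) x) ∧
        W.res.val (st.sh.wt st.lam st.μ) ≤ 1 := by
    intro c a ha hr
    obtain ⟨W, h1, h2⟩ := hc.wd_of_cfg c a ha x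
    exact ⟨W, h1, h2, hc.lc_wd st.lam_nonneg st.μ_nonneg st.lc _ hr h2.res⟩
  by_cases hcase : ∃ (η' l : ℝ) (c : p.sh.Cfg) (a : p.sh.At → ℝ), 0 < η' ∧ η' ≤ η₀ ∧ 0 ≤ l ∧ l ≤ Λ ∧
      p.sh.LC (p.w η η' l) x ∧ (∀ k, 0 ≤ a k) ∧ 1 ≤ ∑ k, p.w η η' l k * a k ∧
      S.Rate (p.sh.atom c) a x 1 ∧
      s₀ * ∑ i : Fin p.σ.N, a (Sum.inl ⟨none, i⟩) ≤ a (Sum.inr none)
  · obtain ⟨η', l, c, a, h0, h1, h2, h3, h4, ha, h5, hr, h6⟩ := hcase
    obtain ⟨W, rfl, hW, hv⟩ := hdat c a ha hr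
    have hW2 := p.key _ (hc.ultra _ x) _ (ha (Sum.inr none)) (hW.hf none)
    have hc1 := hc.pre_le p hr _ hW2
    have h7 := h5
    change 1 ≤ W.val _ at h7
    rw [WD.val_ext] at h7
    set Sa := ∑ i : Fin p.σ.N, W.a (Sum.inl ⟨none, i⟩) with hSa
    set cc := W.a (Sum.inr none) with hcc
    have hS0 : 0 ≤ Sa := Finset.sum_nonneg fun i _ => ha _
    have h8 : l / (p.σ.m * p.σ.N) * Sa ≤ Λ * Sa :=
      mul_le_mul_of_nonneg_right ((div_le_self h2 hmN).trans h3) hS0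
    have hcc0 : 0 ≤ cc := ha _
    have h9 : η ≤ Λ * Sa + (η - η') * cc := by nlinarith
    have e3 : 0 < Sa := by
      by_contra h
      have : Sa = 0 := le_antisymm (not_lt.1 h) hS0
      rw [this] at h9
      nlinarith
    have hc0 : 0 < cc := lt_of_lt_of_le (by positivity) h6
    refine hc.finish hε p hη1 (h1.trans hη₀η) h0.le h2 h4 (hI η' l h1 h2 h4) ht hgr hηt hg one_pos
      hr W hW h5 hc0 hW2 ?_ ?_ e3
    · have h10 : Λ * Sa < η * g₀ * cc := by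
        have h11 : Λ * Sa < η * g₀ * s₀ * Sa := mul_lt_mul_of_pos_right hs₁ e3
        have h12 : η * g₀ * (s₀ * Sa) ≤ η * g₀ * cc :=
          mul_le_mul_of_nonneg_left h6 (by positivity)
        nlinarith
      refine lt_of_mul_lt_mul_left ?_ hη.le
      nlinarith [mul_nonneg h0.le hcc0]
    · nlinarith [mul_lt_mul_of_pos_right hs₂ e3, mul_le_mul_of_nonneg_right h6 hτ.le]
  · push Not at hcase
    have hη' : ∀ ν : ℕ, 0 < η₀ * (1 / ((ν : ℝ) + 1)) ∧ η₀ * (1 / ((ν : ℝ) + 1)) ≤ η₀ := fun ν =>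
      ⟨by positivity, mul_le_of_le_one_right hη₀.le (by
        rw [div_le_one (by positivity)]; linarith [(Nat.cast_nonneg ν : (0 : ℝ) ≤ ν)])⟩
    choose l h2 h3 h4 c a ha h5 hr using fun ν : ℕ => hcr _ (hη' ν).1.le (hη' ν).2
    have h6 := fun ν => hcase _ _ (c ν) _ (hη' ν).1 (hη' ν).2 (h2 ν) (h3 ν) (h4 ν) (ha ν) (h5 ν) (hr ν)
    obtain ⟨l₀, hl₀, φ, hφ, hlim⟩ := isCompact_Icc.tendsto_subseq (x := l) fun ν => ⟨h2 ν, h3 ν⟩
    obtain ⟨ψ, c₀, a₀, hψ, ha₀, hr₀⟩ := hc.crit_lim (fun ν => c (φ ν)) (fun ν => a (φ ν))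
      (fun _ => x) zero_le_one (fun ν => ha _) tendsto_const_nhds fun ν => hr _
    have hl : Tendsto (fun ν => l (φ (ψ ν))) atTop (𝓝 l₀) := hlim.comp hψ.tendsto_atTop
    have he : Tendsto (fun ν => η₀ * (1 / ((φ (ψ ν) : ℝ) + 1))) atTop (𝓝 0) := by
      have := (tendsto_one_div_add_atTop_nhds_zero_nat (𝕜 := ℝ)).comp
        (hφ.tendsto_atTop.comp hψ.tendsto_atTop)
      simpa using this.const_mul η₀
    have hw : ∀ k, Tendsto (fun ν => p.w η (η₀ * (1 / ((φ (ψ ν) : ℝ) + 1))) (l (φ (ψ ν))) k) atTop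
        (𝓝 (p.w η 0 l₀ k)) := by
      rintro (⟨_ | j, i⟩ | _ | k)
      · exact hl.div_const _
      · exact tendsto_const_nhds
      · exact tendsto_const_nhds.sub he
      · exact tendsto_const_nhds
    have hlc := hc.lc_closed (fun ν => hwn _ _ (hη' _).2 (h2 _)) hw fun ν => h4 _
    have ha0 : ∀ k, 0 ≤ a₀ k := fun k => ge_of_tendsto' (ha₀ k) fun ν => ha _ k
    have h7 : 1 ≤ ∑ k, p.w η 0 l₀ k * a₀ k :=
      ge_of_tendsto' (tendsto_finsetSum _ fun k _ => (hw k).mul (ha₀ k)) fun ν => h5 _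
    have h8 : a₀ (Sum.inr none) ≤ s₀ * ∑ i : Fin p.σ.N, a₀ (Sum.inl ⟨none, i⟩) :=
      le_of_tendsto_of_tendsto' (ha₀ _)
        ((tendsto_finsetSum _ fun i _ => ha₀ _).const_mul s₀) fun ν => (h6 _).le
    obtain ⟨W₁, rfl, hW₁, hv⟩ := hdat c₀ a₀ ha0 hr₀
    change 1 ≤ W₁.val _ at h7
    have h9 := h7
    rw [WD.val_ext] at h9
    set Sa := ∑ i : Fin p.σ.N, W₁.a (Sum.inl ⟨none, i⟩) with hSa
    have hS0 : 0 ≤ Sa := Finset.sum_nonneg fun i _ => ha0 _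
    have e3 : 0 < Sa := by
      by_contra h
      have : Sa = 0 := le_antisymm (not_lt.1 h) hS0
      rw [this] at h9 h8
      nlinarith [ha0 (Sum.inr none)]
    obtain ⟨s, hs, hs1, hs2⟩ : ∃ s : ℝ, 0 < s ∧ 1 < s * g₀ ∧ Sa < s * p.τ₀ := by
      refine ⟨1 / g₀ + Sa / p.τ₀ + 1, by positivity, ?_, ?_⟩
      · have h1 : 1 / g₀ * g₀ = 1 := by field_simp
        have h2 : 0 ≤ Sa / p.τ₀ * g₀ := by positivity
        nlinarith
      · have h1 : Sa / p.τ₀ * p.τ₀ = Sa := by field_simp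
        have h2 : 0 ≤ 1 / g₀ * p.τ₀ := by positivity
        nlinarith
    obtain ⟨D, -, hD⟩ := p.W.pairs
    obtain ⟨P₂, hP₂, hs₂'⟩ := hc.qv_small st.qv st.x_mem D ((hD _).1 p.sat)
    have hW₂ : (p.W.smul s hs.le).Sat (S.sml (fun t => P₂ (s * t)) x) :=
      (WD.smul_sat _ _ _).2 ((hD _).2 fun q hq => (hs₂' q hq).scale hs)
    obtain ⟨W, P, hP, hW, hW2, hsum, hfan⟩ := hc.wd_sum W₁ _ zero_le_one (by positivity) hr₀
      (rateS_scale _ hs hP₂) hW₁ hW₂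
    have hval : W.val (p.w η 0 l₀) = W₁.val (p.w η 0 l₀) + (p.W.smul s hs.le).val (p.w η 0 l₀) := by
      simp only [WD.val, sum_wt, hsum, hfan, mul_add, Finset.sum_add_distrib]
      ring
    have hnone : ∑ i : Fin p.σ.N, W.a (Sum.inl ⟨none, i⟩) = Sa := by
      refine (hsum none).trans ?_
      have h0 : ∑ i : Fin (p.sh.st none).N, (p.W.smul s hs.le).a (Sum.inl ⟨none, i⟩) = 0 :=
        Finset.sum_eq_zero fun i _ => mul_zero s
      rw [h0, add_zero]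
      rfl
    refine hc.finish hε p hη1 hη.le le_rfl hl₀.1 hlc (hI 0 l₀ hη₀.le hl₀.1 hlc) ht hgr hηt hg
      (by positivity) hP W hW ?_ hs hW2 (by linarith) (hnone ▸ hs2) (hnone ▸ e3)
    rw [hval, WD.smul_val, WD.extend_val]
    nlinarith [mul_nonneg (by linarith : 0 ≤ 1 - η) (sub_nonneg.2 st.tight)]

end Crest.Agent.R271
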