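import Crest.Agent.R271.St.Pts

/-!
# Row 271, block St: Taylor expansion at general points of a subvariety, and at `x`
-/

set_option autoImplicit false
set_option linter.unusedSectionVars false

open MeasureTheory Filter Topology Set
open scoped ENNReal

noncomputable section

namespace Crest.Agent.R271

variable {n : ℕ} {M : Type} [TopologicalSpace M] [T2Space M] [SecondCountableTopology M]
  [MeasurableSpace M] [BorelSpace M] {A : Type} [CommRing A] [IsDomain A] [Algebra ℂ A]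
  {S : Setup n M A}

/-- `S.filt.coord`, `hc.al.gen` for `A ⧸ 𝔭`, `hc.al.tay` for the localisation -/
theorem Cx.tayW (hc : Cx S) {𝔭 : Ideal A} (h𝔭 : 𝔭.IsPrime) :
    ∃ (ι : Fin (S.dm 𝔭) → Fin n) (h₁ : A), h₁ ∉ 𝔭 ∧ ∀ y ∈ S.V 𝔭, S.ev y h₁ ≠ 0 →
      ∃ T : A →ₐ[ℂ] MvPowerSeries (Fin (S.dm 𝔭)) ℂ, (∀ g, T g = 0 ↔ g ∈ 𝔭) ∧
        (∀ i, T (S.zc y (ι i)) = MvPowerSeries.X i) ∧
        ∀ (g : A) (N : ℕ), (N : ℕ∞) ≤ (T g).order → ∃ h', S.ev y h' ≠ 0 ∧
          h' * g ∈ Ideal.span (range fun i => S.zc y (ι i)) ^ N ⊔ 𝔭 := by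
  haveI := S.finiteType
  haveI : IsDomain (A ⧸ 𝔭) := Ideal.Quotient.isDomain 𝔭
  obtain ⟨ι, -, hι⟩ := S.filt.coord 𝔭 h𝔭
  obtain ⟨h, hh0, het⟩ := hc.al.gen _ (A ⧸ 𝔭) _ hι
  obtain ⟨h₁, rfl⟩ := Ideal.Quotient.mk_surjective h
  have hle : Submonoid.powers (Ideal.Quotient.mk 𝔭 h₁) ≤ nonZeroDivisors (A ⧸ 𝔭) :=
    powers_le_nonZeroDivisors_of_noZeroDivisors hh0
  set L := Localization.Away (Ideal.Quotient.mk 𝔭 h₁) with hL
  haveI : IsDomain L := IsLocalization.isDomain_localization hle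
  have hinj : Function.Injective (algebraMap (A ⧸ 𝔭) L) := IsLocalization.injective L hle
  refine ⟨ι, h₁, fun h => hh0 (Ideal.Quotient.eq_zero_iff_mem.2 h), fun y hy hy1 => ?_⟩
  let yb : (A ⧸ 𝔭) →ₐ[ℂ] ℂ := Ideal.Quotient.liftₐ 𝔭 (S.ev y) hy
  have hyb : ∀ a, yb (Ideal.Quotient.mk 𝔭 a) = S.ev y a := fun a => rfl
  have hu : ∀ s : Submonoid.powers (Ideal.Quotient.mk 𝔭 h₁), IsUnit (yb s) := by
    rintro ⟨_, k, rfl⟩
    simp only [map_pow]
    exact (IsUnit.mk0 _ (by rw [hyb]; exact hy1)).pow k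
  let yL : L →ₐ[ℂ] ℂ := IsLocalization.liftAlgHom (M := Submonoid.powers (Ideal.Quotient.mk 𝔭 h₁)) hu
  have hyL : ∀ a, yL (algebraMap (A ⧸ 𝔭) L a) = yb a := fun a => by
    simp [yL]
  obtain ⟨T, hTi, hTz, -, hTo⟩ := hc.al.tay _ L _ het yL
  let φ : A →ₐ[ℂ] L := (IsScalarTower.toAlgHom ℂ (A ⧸ 𝔭) L).comp (Ideal.Quotient.mkₐ ℂ 𝔭)
  have hφ : ∀ a, φ a = algebraMap (A ⧸ 𝔭) L (Ideal.Quotient.mk 𝔭 a) := fun a => rfl
  have hzc : ∀ i, φ (S.zc y (ι i)) = algebraMap (A ⧸ 𝔭) L (Ideal.Quotient.mk 𝔭 (S.z (ι i))) -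
      algebraMap ℂ L (yL (algebraMap (A ⧸ 𝔭) L (Ideal.Quotient.mk 𝔭 (S.z (ι i))))) := by
    intro i
    rw [hyL, hyb, ← S.p_eq, Setup.zc, map_sub, AlgHom.commutes, hφ]
  refine ⟨T.comp φ, fun g => ?_, fun i => ?_, fun g N hN => ?_⟩
  · rw [AlgHom.comp_apply, map_eq_zero_iff _ hTi, hφ, map_eq_zero_iff _ hinj,
      Ideal.Quotient.eq_zero_iff_mem]
  · rw [AlgHom.comp_apply, hzc, map_sub, hTz, AlgHom.commutes]
    exact add_sub_cancel_left _ _
  · obtain ⟨h', hh', hmem⟩ := hTo (φ g) N hN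
    set J : Ideal A := Ideal.span (range fun i => S.zc y (ι i)) with hJ
    have hmap : Ideal.span (range fun i => algebraMap (A ⧸ 𝔭) L (Ideal.Quotient.mk 𝔭 (S.z (ι i))) -
        algebraMap ℂ L (yL (algebraMap (A ⧸ 𝔭) L (Ideal.Quotient.mk 𝔭 (S.z (ι i)))))) ^ N =
        ((J ^ N).map (Ideal.Quotient.mk 𝔭)).map (algebraMap (A ⧸ 𝔭) L) := by
      rw [Ideal.map_map, Ideal.map_pow, hJ, Ideal.map_span, ← Set.range_comp]
      congr 3
      funext i
      exact (hzc i).symm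
    rw [hmap, IsLocalization.mem_map_algebraMap_iff (Submonoid.powers (Ideal.Quotient.mk 𝔭 h₁))]
      at hmem
    obtain ⟨⟨⟨u, hu'⟩, ⟨_, m, rfl⟩⟩, hm⟩ := hmem
    obtain ⟨⟨a, ⟨_, k, rfl⟩⟩, ha⟩ := IsLocalization.surj (Submonoid.powers (Ideal.Quotient.mk 𝔭 h₁)) h'
    obtain ⟨a₀, rfl⟩ := Ideal.Quotient.mk_surjective a
    simp only at hm ha
    refine ⟨a₀ * h₁ ^ m, ?_, ?_⟩
    · rw [map_mul, map_pow]
      refine mul_ne_zero ?_ (pow_ne_zero _ hy1)
      rw [← hyb, ← hyL, ← ha, map_mul, hyL, map_pow, hyb]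
      exact mul_ne_zero hh' (pow_ne_zero _ hy1)
    · have h1 : Ideal.Quotient.mk 𝔭 (a₀ * h₁ ^ m * g) ∈ (J ^ N).map (Ideal.Quotient.mk 𝔭) := by
        have : Ideal.Quotient.mk 𝔭 (a₀ * h₁ ^ m * g) = u * Ideal.Quotient.mk 𝔭 h₁ ^ k := by
          apply hinj
          rw [map_mul (algebraMap (A ⧸ 𝔭) L) u, ← hm, map_mul, map_mul, map_mul, map_mul, ← ha, hφ,
            map_pow (Ideal.Quotient.mk 𝔭)]
          ring
        rw [this]
        exact Ideal.mul_mem_right _ _ hu'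
      have h2 := Ideal.mem_comap.2 h1
      rwa [Ideal.comap_map_of_surjective _ Ideal.Quotient.mk_surjective, ← RingHom.ker_eq_comap_bot,
        Ideal.mk_ker] at h2

/-- the Taylor expansion at a point of `M` -/
structure TayX (S : Setup n M A) (x : M) (T : A →ₐ[ℂ] MvPowerSeries (Fin n) ℂ) : Prop where
  inj : Function.Injective T
  coord : ∀ i, T (S.zc x i) = MvPowerSeries.X i
  const : ∀ g, MvPowerSeries.constantCoeff (T g) = S.ev x g
  ord : ∀ (g : A) (N : ℕ), (N : ℕ∞) ≤ (T g).order → ∃ h', S.ev x h' ≠ 0 ∧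
    h' * g ∈ Ideal.span (range (S.zc x)) ^ N
  der : ∀ (i : Fin n) (δ : Derivation ℂ A A), (∀ i', δ (S.z i') = if i' = i then 1 else 0) →
    ∀ (g : A) (e : Fin n →₀ ℕ), MvPowerSeries.coeff e (T (δ g)) =
      ((e i : ℂ) + 1) * MvPowerSeries.coeff (e + Finsupp.single i 1) (T g)

/-- a derivation along `T` that kills the base of a formally unramified algebra vanishes -/
theorem der_eq_zero {R A B : Type} [CommRing R] [CommRing A] [CommRing B] [Algebra R A]
    [Algebra.FormallyUnramified R A] (T : A →+* B) (D : A →+ B)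
    (hl : ∀ a b, D (a * b) = T a * D b + T b * D a) (h0 : ∀ r, D (algebraMap R A r) = 0) (a : A) :
    D a = 0 := by
  letI : Algebra A B := T.toAlgebra
  letI : Algebra R B := (T.comp (algebraMap R A)).toAlgebra
  haveI : IsScalarTower R A B := IsScalarTower.of_algebraMap_eq fun _ => rfl
  let D' : Derivation R A B :=
    { toFun := D
      map_add' := D.map_add
      map_smul' := fun r a => by
        rw [Algebra.smul_def, hl, h0, mul_zero, add_zero, Algebra.smul_def]; rfl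
      map_one_eq_zero' := by
        have := h0 1
        rwa [map_one] at this
      leibniz' := fun a b => by
        simp only [Algebra.smul_def]
        exact hl a b }
  have h1 : D' a = D'.liftKaehlerDifferential (KaehlerDifferential.D R A a) :=
    (D'.liftKaehlerDifferential_comp_D a).symm
  rw [Subsingleton.elim (KaehlerDifferential.D R A a) 0, map_zero] at h1
  exact h1

/-- `hc.al.tay` with `S.etale`; for `der`: `T ∘ δ` and `∂_i ∘ T` are derivations along `T` that agree on `ℂ[z]`, and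
`A` is formally unramified over `ℂ[z]` (`Ω` is trivial) -/
theorem Cx.tayX (hc : Cx S) (x : M) : ∃ T, TayX S x T := by
  obtain ⟨T, hTi, hTz, hTc, hTo⟩ := hc.al.tay _ A S.z S.etale (S.ev x)
  have hzc : ∀ i, S.zc x i = S.z i - algebraMap ℂ A (S.ev x (S.z i)) := fun i => by
    rw [Setup.zc, S.p_eq]
  refine ⟨T, hTi, fun i => ?_, hTc, fun g N hN => ?_, fun i δ hδ g e => ?_⟩
  · rw [hzc, map_sub, hTz, AlgHom.commutes]
    simp [MvPowerSeries.algebraMap_apply]
  · obtain ⟨h', hh', hmem⟩ := hTo g N hN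
    refine ⟨h', hh', ?_⟩
    have : S.zc x = fun i => S.z i - algebraMap ℂ A (S.ev x (S.z i)) := funext hzc
    rwa [this]
  · letI : Algebra (MvPolynomial (Fin n) ℂ) A :=
      (MvPolynomial.aeval S.z : MvPolynomial (Fin n) ℂ →ₐ[ℂ] A).toRingHom.toAlgebra
    haveI : Algebra.Etale (MvPolynomial (Fin n) ℂ) A := S.etale
    let D : A →+ MvPowerSeries (Fin n) ℂ :=
      { toFun := fun a => T (δ a) - MvPowerSeries.pderiv ℂ i (T a)
        map_zero' := by simp
        map_add' := fun a b => by simp only [map_add]; ring }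
    have hD : ∀ a, D a = T (δ a) - MvPowerSeries.pderiv ℂ i (T a) := fun a => rfl
    have hl : ∀ a b, D (a * b) = T.toRingHom a * D b + T.toRingHom b * D a := by
      intro a b
      simp only [hD, Derivation.leibniz, map_mul, map_add, smul_eq_mul, AlgHom.toRingHom_eq_coe,
        RingHom.coe_coe]
      ring
    have h0 : ∀ r, D (algebraMap (MvPolynomial (Fin n) ℂ) A r) = 0 := by
      intro r
      change D (MvPolynomial.aeval S.z r) = 0
      induction r using MvPolynomial.induction_on with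
      | C c =>
        rw [MvPolynomial.aeval_C, hD, AlgHom.commutes, Derivation.map_algebraMap,
          Derivation.map_algebraMap, map_zero, sub_zero]
      | add p q hp hq => rw [map_add, map_add, hp, hq, add_zero]
      | mul_X p j hp =>
        rw [map_mul, hl, hp, mul_zero, add_zero, MvPolynomial.aeval_X, hD, hδ, hTz, map_add,
          MvPowerSeries.pderiv_C, zero_add]
        by_cases hj : j = i
        · subst hj; simp
        · rw [if_neg hj, MvPowerSeries.pderiv_X_of_ne hj]; simp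
    have h1 := der_eq_zero T.toRingHom D hl h0 g
    rw [hD, sub_eq_zero] at h1
    rw [h1, MvPowerSeries.coeff_pderiv, mul_comm]

end Crest.Agent.R271
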