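import Crest.Agent.R271.St.TestAlg
import Crest.Agent.R271.St.Lim

/-!
# Row 271, block St: the key inequality
-/

set_option autoImplicit false
set_option linter.unusedSectionVars false

open MeasureTheory Filter Topology Set
open scoped ENNReal

noncomputable section

namespace Crest.Agent.R271

variable {n : ℕ} {M : Type} [TopologicalSpace M] [T2Space M] [SecondCountableTopology M]
  [MeasurableSpace M] [BorelSpace M] {A : Type} [CommRing A] [IsDomain A] [Algebra ℂ A]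
  {S : Setup n M A}

/-- `test_alg` for the subtype `{j // U j}`; points `y ν → x` from `dens_pts`; at `y ν` the witness `W'` has the new bases for `U j`
and the old ones otherwise (`tsm_of_vle`), `W'.τ = W.τ`; `pairs`, `tsm_rate`, `lc_near`, `sum_wt`. -/
theorem Cx.test (hc : Cx S) {ε : ℝ} (hε' : ε < 1) {k : ℕ} (hk : S.StepOK ε k) {𝔭 : Ideal A}
    {ν : A → ℝ≥0∞} (hν : QV S 𝔭 ν) (hd : 0 < S.dm 𝔭) {x : M} (hx : x ∈ S.V 𝔭) {sh : Shape S}
    (W : sh.WD) (hW : W.Sat (vle ν)) (U : sh.J → Prop)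
    (hu : ∀ j, U j → ∀ s ∈ S.F (sh.st j).m, s ∉ (sh.st j).𝔭 → ν s < ENNReal.ofReal (W.τ j))
    (hb : ∀ j, S.Big ε k (sh.st j).𝔭 (sh.st j).m) :
    ∃ θ : ℝ, 0 < θ ∧ ∀ (lam : sh.J → ℝ) (μ : sh.I → ℝ), (∀ j, 0 ≤ lam j) → (∀ i, 0 ≤ μ i) →
      (∀ j, 0 < lam j → U j) → sh.LC (sh.wt lam μ) x →
      W.val (sh.wt lam μ) + θ * S.dm 𝔭 * ((1 - 2 * ε) * ∑ j, lam j * S.κ / (S.dm (sh.st j).𝔭 + 1)) ≤
        1 + θ * S.dm 𝔭 := by
  classical
  obtain ⟨ι, h, θ, hh, hθ, H⟩ := hc.test_alg hε' hk hν hd (J := {j // U j}) (fun j => sh.st j.1)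
    (fun j => W.τ j.1) (fun j g hg => hW.hτ j.1 g hg) (fun j => hu j.1 j.2) (fun j => hb j.1)
  refine ⟨θ, hθ, fun lam μ hl hμ hU hLC => ?_⟩
  obtain ⟨y, hy, hyx⟩ := hc.dens_pts hν.prime hx hh
  refine hc.lc_near hl hμ hLC hyx (by positivity) fun m => ?_
  have key : ∀ j : sh.J, ∃ (s : Fin (sh.st j).N → A) (a : Fin (sh.st j).N → ℝ),
      (sh.st j).IsBas s ∧ (∀ i, 0 ≤ a i ∧ a i ≤ W.τ j ∧ S.TSm ν ι θ (y m) (s i) (a i)) ∧
      (U j → ∑ i, W.a (Sum.inl ⟨j, i⟩) + θ * (S.dm 𝔭 * ((1 - 2 * ε) * S.κ *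
        ((sh.st j).m * (sh.st j).N) / (S.dm (sh.st j).𝔭 + 1))) ≤ ∑ i, a i) := by
    intro j
    by_cases hj : U j
    · obtain ⟨s, a, h1, h2, h3⟩ := H (y m) (hy m).1 (hy m).2 ⟨j, hj⟩ (W.s j)
        (fun i => W.a (Sum.inl ⟨j, i⟩)) (W.bas j) (hW.hs j)
      exact ⟨s, a, h1, h2, fun _ => h3⟩
    · exact ⟨W.s j, fun i => W.a (Sum.inl ⟨j, i⟩), W.bas j,
        fun i => ⟨W.nonneg _, W.le_τ j i, tsm_of_vle ι θ (y m) (hW.hs j i)⟩, fun h' => absurd h' hj⟩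
  choose s a hbas ha hsum using key
  let W' : sh.WD :=
    { s := s
      bas := hbas
      a := Sum.elim (fun q => a q.1 q.2) fun i => W.a (Sum.inr i)
      nonneg := by
        rintro (⟨j, i⟩ | i)
        · exact (ha j i).1
        · exact W.nonneg _
      τ := W.τ
      le_τ := fun j i => (ha j i).2.1 }
  have hsat : W'.Sat (S.TSm ν ι θ (y m)) :=
    ⟨fun j i => (ha j i).2.2, fun j g hg => tsm_of_vle ι θ (y m) (hW.hτ j g hg),
      fun i q hq => tsm_of_vle ι θ (y m) (hW.hf i q hq)⟩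
  obtain ⟨D, -, hD⟩ := W'.pairs
  obtain ⟨P, hP, hPD⟩ := hc.tsm_rate hν (hy m).1 ι hθ.le D ((hD _).1 hsat)
  refine ⟨P, W', hP, (hD _).2 hPD, ?_⟩
  unfold Shape.WD.val
  rw [Shape.sum_wt, Shape.sum_wt]
  have hj : ∀ j, lam j / ((sh.st j).m * (sh.st j).N) * ∑ i, W.a (Sum.inl ⟨j, i⟩) +
      θ * S.dm 𝔭 * ((1 - 2 * ε) * (lam j * S.κ / (S.dm (sh.st j).𝔭 + 1))) ≤
      lam j / ((sh.st j).m * (sh.st j).N) * ∑ i, a j i := by
    intro j
    rcases (hl j).eq_or_lt with h0 | h0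
    · simp [← h0]
    · have hm : (0 : ℝ) < (sh.st j).m := by exact_mod_cast (sh.st j).m_pos
      have hN : (0 : ℝ) < (sh.st j).N := by exact_mod_cast (sh.st j).N_pos
      have h1 := mul_le_mul_of_nonneg_left (hsum j (hU j h0))
        (show 0 ≤ lam j / ((sh.st j).m * (sh.st j).N) by positivity)
      refine le_trans (le_of_eq ?_) h1
      field_simp
  have h2 := Finset.sum_le_sum fun j (_ : j ∈ Finset.univ) => hj j
  rw [Finset.sum_add_distrib, ← Finset.mul_sum, ← Finset.mul_sum] at h2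
  have e1 : ∑ j, lam j / ((sh.st j).m * (sh.st j).N) * ∑ i, W'.a (Sum.inl ⟨j, i⟩) =
      ∑ j, lam j / ((sh.st j).m * (sh.st j).N) * ∑ i, a j i := rfl
  have e2 : ∑ i, μ i * W'.a (Sum.inr i) = ∑ i, μ i * W.a (Sum.inr i) := rfl
  rw [e1, e2]
  linarith

end Crest.Agent.R271
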