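import Crest.Agent.R271.St.Count
import Crest.Agent.R271.St.TayW
import Crest.Agent.R271.St.Atom

/-!
# Row 271, block St: the test valuation
-/

set_option autoImplicit false
set_option linter.unusedSectionVars false

open MeasureTheory Filter Topology Set
open scoped ENNReal

noncomputable section

namespace Crest.Agent.R271

variable {n : ℕ} {M : Type} [TopologicalSpace M] [T2Space M] [SecondCountableTopology M]
  [MeasurableSpace M] [BorelSpace M] {A : Type} [CommRing A] [IsDomain A] [Algebra ℂ A]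
  {S : Setup n M A}

theorem tsm_of_vle {ν : A → ℝ≥0∞} {d : ℕ} (ι : Fin d → Fin n) (θ : ℝ) (y : M) {f : A} {a : ℝ}
    (h : vle ν f a) : S.TSm ν ι θ y f a :=
  ⟨{(f, a)}, by simpa using h, fun P hP _ => by simpa using hP (f, a) (by simp)⟩

/-- union of the data, `hν.rate`, `hc.co`, `hc.sum` on the family `D' ⊕ Fin d` with exponents `(q.2 ⊔ 0, 0)` and `(0, θ)` -/
theorem Cx.tsm_rate (hc : Cx S) {𝔭 : Ideal A} {ν : A → ℝ≥0∞} (hν : QV S 𝔭 ν) {y : M}
    (hy : y ∈ S.V 𝔭) {d : ℕ} (ι : Fin d → Fin n) {θ : ℝ} (hθ : 0 ≤ θ) (D : Finset (A × ℝ))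
    (hD : ∀ q ∈ D, S.TSm ν ι θ y q.1 q.2) :
    ∃ P, S.RateS P y (1 + θ * d) ∧ ∀ q ∈ D, S.sml P y q.1 q.2 := by
  classical
  choose Dq hDq hP using hD
  set D' : Finset (A × ℝ) := D.attach.biUnion fun q => Dq q.1 q.2 with hD'
  have hD'v : ∀ q ∈ D', vle ν q.1 q.2 := fun q hq => by
    obtain ⟨r, -, hr⟩ := Finset.mem_biUnion.1 hq
    exact hDq r.1 r.2 q hr
  set f : D' ⊕ Fin d → A := Sum.elim (fun q => q.1.1) fun i => S.zc y (ι i) with hf
  set a : D' ⊕ Fin d → ℝ := Sum.elim (fun q => max q.1.2 0) fun _ => 0 with ha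
  set b : D' ⊕ Fin d → ℝ := Sum.elim (fun _ => 0) fun _ => θ with hb
  have h1 : S.Rate (fun i => S.sq (f i)) a y 1 := hν.rate y hy _ f a (by
    rintro (q | i)
    · simp only [ha, hf, Sum.elim_inl, ENNReal.ofReal_max, ENNReal.ofReal_zero, zero_le, max_eq_left]
      exact hD'v q.1 q.2
    · simp [ha])
  have h2 : S.Rate (fun i => S.sq (f i)) b y (θ * d) :=
    rate_of_small _ ((S.rate_iff _ _ _ _).1 (hc.co d ι y θ hθ)) (by
      rintro (q | i)
      · exact (hc.ultra _ y).nonpos _ le_rfl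
      · exact hc.sml_poly (fun i => S.zc y (ι i)) (fun _ => θ) y i)
  have h3 := hc.sum _ _ a b y 1 (θ * d) (fun i => hc.lp.sq _) (fun i => hc.lp.mod_sq _)
    (by rintro (q | i) <;> simp [ha]) (by rintro (q | i) <;> simp [hb, hθ]) zero_le_one
    (by positivity) h1 h2
  refine ⟨_, (S.rate_iff _ _ _ _).1 h3, fun q hq => hP q hq _ (fun r hr => ?_) fun i => ?_⟩
  · have := hc.sml_poly f (a + b) y
      (Sum.inl ⟨r, Finset.mem_biUnion.2 ⟨⟨q, hq⟩, Finset.mem_attach _ _, hr⟩⟩)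
    exact (hc.ultra _ y).mono this (by simp [ha, hb])
  · exact (hc.ultra _ y).mono (hc.sml_poly f (a + b) y (Sum.inr i)) (by simp [ha, hb])

/-- `h' c i = u i + p i`, `u i ∈ (zc) ^ N`, `p i ∈ 𝔭`; data: `(r, a + gap)`, `(e i, a)`, `(p i * e i, a + gap)` -/
theorem Cx.tsm_of_coord (hc : Cx S) {𝔭 : Ideal A} {ν : A → ℝ≥0∞} {y : M} {d : ℕ}
    (ι : Fin d → Fin n) {θ : ℝ} (hθ : 0 ≤ θ) {q : ℕ} {h f : A} {c e : Fin q → A} {a gap : ℝ} {N : ℕ}
    (hh : S.ev y h ≠ 0) (hr : vle ν (h * f - ∑ i, c i * e i) (a + gap))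
    (he : ∀ i, c i = 0 ∨ (vle ν (e i) a ∧ ∀ p ∈ 𝔭, vle ν (p * e i) (a + gap)))
    (hN : ∀ i, ∃ h', S.ev y h' ≠ 0 ∧
      h' * c i ∈ Ideal.span (range fun i => S.zc y (ι i)) ^ N ⊔ 𝔭) :
    S.TSm ν ι θ y f (a + min (θ * N) gap) := by
  classical
  choose h' hh' hm using hN
  choose u hu p hp hup using fun i => Submodule.mem_sup.1 (hm i)
  set K := Finset.univ.filter fun i => c i ≠ 0 with hK
  refine ⟨insert (h * f - ∑ i, c i * e i, a + gap)
    (K.image (fun i => (e i, a)) ∪ K.image fun i => (p i * e i, a + gap)), ?_, fun P hP hz => ?_⟩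
  · intro r hr'
    simp only [Finset.mem_insert, Finset.mem_union, Finset.mem_image, hK, Finset.mem_filter,
      Finset.mem_univ, true_and] at hr'
    rcases hr' with rfl | ⟨i, hi, rfl⟩ | ⟨i, hi, rfl⟩
    · exact hr
    · exact ((he i).resolve_left hi).1
    · exact ((he i).resolve_left hi).2 _ (hp i)
  · have U := hc.ultra P y
    have h1 : ∀ i, S.sml P y (c i * e i) (a + min (θ * N) gap) := fun i => by
      by_cases hi : c i = 0
      · rw [hi, zero_mul]; exact U.zero _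
      have hiK : i ∈ K := by simp [hK, hi]
      refine hc.sml_of_mul (hh' i) ?_
      rw [← mul_assoc, ← hup i, add_mul]
      refine U.add (U.mono (hc.sml_mul (hc.sml_pow (a := θ) (fun g hg => U.span ?_ hg) N _ (hu i))
        (hP (e i, a) ?_)) ?_) (U.mono (hP (p i * e i, a + gap) ?_) ?_)
      · rintro _ ⟨j, rfl⟩; exact hz j
      · exact Finset.mem_insert_of_mem (Finset.mem_union_left _ (Finset.mem_image_of_mem _ hiK))
      · have := min_le_left (θ * N) gap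
        linarith
      · exact Finset.mem_insert_of_mem (Finset.mem_union_right _ (Finset.mem_image_of_mem _ hiK))
      · have := min_le_right (θ * N) gap
        linarith
    refine hc.sml_of_mul hh ?_
    rw [← sub_add_cancel (h * f) (∑ i, c i * e i)]
    refine U.add (U.mono (hP _ (Finset.mem_insert_self _ _)) ?_) (U.sum _ _ fun i _ => h1 i)
    have := min_le_right (θ * N) gap
    linarith

theorem exists_gap {X : Set ℝ} (hX : X.Finite) :
    ∃ gap : ℝ, 0 < gap ∧ ∀ x ∈ X, ∀ y ∈ X, x < y → x + gap ≤ y := by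
  have : ∀ᶠ δ in 𝓝[>] (0 : ℝ), ∀ x ∈ X, ∀ y ∈ X, x < y → x + δ ≤ y := by
    refine (Filter.eventually_all_finite hX).2 fun x _ =>
      (Filter.eventually_all_finite hX).2 fun y _ => ?_
    by_cases h : x < y
    · filter_upwards [nhdsWithin_le_nhds (ge_mem_nhds (sub_pos.2 h))] with δ hδ _
      exact le_sub_iff_add_le'.1 hδ
    · exact Eventually.of_forall fun _ h' => absurd h' h
  obtain ⟨δ, h1, h2⟩ := (this.and self_mem_nhdsWithin).exists
  exact ⟨δ, h2, h1⟩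

/-- `M₀ ≥ m j`, `T₀ ≥ τ j`; `QV.coord` for `F M₀`, `tayW`, `h = h₀ h₁`; `gap > 0` is at most every positive difference in the finite set
`{values of ν below T₀ + 1} ∪ {τ j} ∪ {T₀ + 1}` and so a value `> a` is `≥ a + gap`; `R ≥ N j`, `R > 0`, `θ = gap / R`.  At `y`: `exists_mo`, `keyData`, `count`;
`a i = (ν (s i)).toReal + min (θ deg) gap = (ν (s i)).toReal + θ min deg R`, `tsm_of_coord`. -/
theorem Cx.test_alg (hc : Cx S) {ε : ℝ} (hε' : ε < 1) {k : ℕ} (hk : S.StepOK ε k) {𝔭 : Ideal A}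
    {ν : A → ℝ≥0∞} (hν : QV S 𝔭 ν) (hd : 0 < S.dm 𝔭) {J : Type} [Fintype J] (σ : J → Stage S)
    (τ : J → ℝ) (hg : ∀ j, ∀ g ∈ (σ j).gens, vle ν g (τ j))
    (hu : ∀ j, ∀ s ∈ S.F (σ j).m, s ∉ (σ j).𝔭 → ν s < ENNReal.ofReal (τ j))
    (hb : ∀ j, S.Big ε k (σ j).𝔭 (σ j).m) :
    ∃ (ι : Fin (S.dm 𝔭) → Fin n) (h : A) (θ : ℝ), h ∉ 𝔭 ∧ 0 < θ ∧ ∀ y ∈ S.V 𝔭, S.ev y h ≠ 0 →
      ∀ (j : J) (s₀ : Fin (σ j).N → A) (a₀ : Fin (σ j).N → ℝ), (σ j).IsBas s₀ →
        (∀ i, vle ν (s₀ i) (a₀ i)) → ∃ (s : Fin (σ j).N → A) (a : Fin (σ j).N → ℝ), (σ j).IsBas s ∧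
          (∀ i, 0 ≤ a i ∧ a i ≤ τ j ∧ S.TSm ν ι θ y (s i) (a i)) ∧
          ∑ i, a₀ i + θ * (S.dm 𝔭 * ((1 - 2 * ε) * S.κ * ((σ j).m * (σ j).N) /
            (S.dm (σ j).𝔭 + 1))) ≤ ∑ i, a i := by
  classical
  set M₀ := Finset.univ.sup fun j => (σ j).m with hM₀
  have hM : ∀ j, (σ j).m ≤ M₀ := fun j => Finset.le_sup (f := fun j => (σ j).m) (Finset.mem_univ j)
  set T₀ := ∑ j, |τ j| with hT₀
  have hT : ∀ j, τ j ≤ T₀ := fun j => (le_abs_self _).trans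
    (Finset.single_le_sum (f := fun j => |τ j|) (fun _ _ => abs_nonneg _) (Finset.mem_univ j))
  set R := (Finset.univ.sup fun j => (σ j).N) + 1 with hR
  have hRN : ∀ j, (σ j).N ≤ R := fun j =>
    (Finset.le_sup (f := fun j => (σ j).N) (Finset.mem_univ j)).trans (Nat.le_succ _)
  have hR0 : (0 : ℝ) < R := by exact_mod_cast Nat.succ_pos _
  have := S.filt.fd M₀
  obtain ⟨h₀, q, e, E, co, hh₀, H⟩ := hν.coord (S.F M₀) T₀
  obtain ⟨ι, h₁, hh₁, hT₁⟩ := hc.tayW hν.prime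
  obtain ⟨gap, hgap, hX⟩ := exists_gap ((((hν.disc (T₀ + 1)).image ENNReal.toReal).union
    (finite_range τ)).insert (T₀ + 1))
  have hmem : ∀ f, ν f ≤ ENNReal.ofReal (T₀ + 1) → (ν f).toReal ∈ insert (T₀ + 1)
      (ENNReal.toReal '' {r | r ∈ range ν ∧ r ≤ ENNReal.ofReal (T₀ + 1)} ∪ range τ) :=
    fun f hf => Or.inr (Or.inl ⟨_, ⟨⟨f, rfl⟩, hf⟩, rfl⟩)
  refine ⟨ι, h₀ * h₁, gap / R, fun h => (hν.prime.mem_or_mem h).elim hh₀ hh₁, by positivity,
    fun y hy hyh j s₀ a₀ hs₀ ha₀ => ?_⟩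
  rw [map_mul] at hyh
  obtain ⟨T, hT0, hTz, hTo⟩ := hT₁ y hy (right_ne_zero_of_mul hyh)
  obtain ⟨mo, hmo, -⟩ := exists_mo (⟨0, hd⟩ : Fin (S.dm 𝔭))
  obtain ⟨γ, pos, hK, hγ⟩ := hν.keyData mo hmo (S.F M₀) T₀ T hT0 hh₀ H
  obtain ⟨s, hs, hs', hcount⟩ := hc.count hε' hk hν hd ι y T hT0 hTz mo hK (σ j) (hM j) (hT j) (hg j)
    (hu j) (hb j) (hRN j) hs₀
  have hlt : ∀ i, ν (s i) < ENNReal.ofReal (τ j) := fun i => hu j _ (hs.1 i) (Stage.IsBas.not_mem _ hs i)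
  have hfin : ∀ i, ν (s i) ≠ ⊤ := fun i => (hlt i).ne_top
  have hle : ∀ i, ν (s i) ≤ ENNReal.ofReal T₀ := fun i =>
    (hlt i).le.trans (ENNReal.ofReal_le_ofReal (hT j))
  have hle' : ∀ i, ν (s i) ≤ ENNReal.ofReal (T₀ + 1) := fun i =>
    (hle i).trans (ENNReal.ofReal_le_ofReal (by linarith))
  have hτ : ∀ i, (ν (s i)).toReal < τ j := fun i => ENNReal.toReal_lt_of_lt_ofReal (hlt i)
  have hv : ∀ i f, ν (s i) < ν f → vle ν f ((ν (s i)).toReal + gap) := fun i f hf => by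
    rcases le_total (ν f) (ENNReal.ofReal (T₀ + 1)) with h | h
    · have hf' : ν f ≠ ⊤ := ne_top_of_le_ne_top ENNReal.ofReal_ne_top h
      exact (ENNReal.ofReal_le_iff_le_toReal hf').2 (hX _ (hmem _ (hle' i)) _ (hmem _ h)
        ((ENNReal.toReal_lt_toReal (hfin i) hf').2 hf))
    · exact (ENNReal.ofReal_le_ofReal (hX _ (hmem _ (hle' i)) _ (Or.inl rfl)
        (by linarith [hτ i, hT j]))).trans h
  have hmin : ∀ N : ℕ, min (gap / R * N) gap = gap / R * min (N : ℝ) R := fun N => by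
    rw [mul_min_of_nonneg _ _ (by positivity), div_mul_cancel₀ _ hR0.ne']
  refine ⟨s, fun i => (ν (s i)).toReal + gap / R * min ((γ (s i)).degree : ℝ) R, hs,
    fun i => ⟨by positivity, ?_, ?_⟩, ?_⟩
  · beta_reduce
    rw [← hmin]
    have := hX _ (hmem _ (hle' i)) _ (Or.inr (Or.inr ⟨j, rfl⟩)) (hτ i)
    linarith [min_le_right (gap / R * ((γ (s i)).degree : ℕ)) gap]
  · beta_reduce
    rw [← hmin]
    have hsM : s i ∈ S.F M₀ := S.filt.mono (hM j) (hs.1 i)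
    obtain ⟨H1, -, H3⟩ := H _ (hle i)
    obtain ⟨H4, H5⟩ := H3 _ hsM le_rfl
    refine hc.tsm_of_coord ι (by positivity) (left_ne_zero_of_mul hyh) (hv i _ H5) (fun l => ?_)
      fun l => hTo _ _ (hγ _ hsM (hle i) l)
    by_cases hl : l ∈ E (ν (s i))
    · refine Or.inr ⟨?_, fun p hp => hv i _ ?_⟩
      · exact (ENNReal.ofReal_toReal (hfin i)).trans_le (H1 l hl)
      · refine lt_of_lt_of_le ?_ (hν.mul p (e l))
        rw [add_comm]
        exact (ENNReal.lt_add_right (hfin i) ((hν.pos p).2 hp).ne').trans_le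
          (add_le_add (H1 l hl) le_rfl)
    · exact Or.inl (H4 l hl)
  · rw [Finset.sum_add_distrib, ← Finset.mul_sum]
    exact add_le_add (Finset.sum_le_sum fun i _ =>
      (ENNReal.ofReal_le_iff_le_toReal (hfin i)).1 ((ha₀ i).trans (hs' i)))
      (mul_le_mul_of_nonneg_left hcount (by positivity))

end Crest.Agent.R271
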